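import Vale.Agent.helper5.FoulkesMain

namespace Vale.Agent.helper5.Foulkes

open Finset

variable {ι : Type*} [DecidableEq ι] {a b : ℕ}

omit [DecidableEq ι] in
lemma rowsOf_eq_of_rearr (v v' : Fin a → Fin b → ι) (τ : Equiv.Perm (Fin a))
    (ρ : Fin a → Equiv.Perm (Fin b)) (h : ∀ l, v' (τ l) ∘ ρ l = v l) : rowsOf v' = rowsOf v := by
  unfold rowsOf
  rw [symOf_eq_iff]
  refine ⟨τ, ?_⟩
  funext l
  exact (symOf_eq_iff _ _).mpr ⟨ρ l, h l⟩

omit [DecidableEq ι] in
lemma exists_rearr_of_rows (v v' : Fin a → Fin b → ι) (h : rowsOf v' = rowsOf v) :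
    ∃ (τ : Equiv.Perm (Fin a)) (ρ : Fin a → Equiv.Perm (Fin b)), ∀ l, v' (τ l) ∘ ρ l = v l := by
  obtain ⟨τ, hτ⟩ := (symOf_eq_iff _ _).mp h
  have h1 : ∀ l, ∃ ρ : Equiv.Perm (Fin b), v' (τ l) ∘ ρ = v l := fun l =>
    (symOf_eq_iff _ _).mp (congrFun hτ l)
  choose ρ hρ using h1
  exact ⟨τ, ρ, hρ⟩

/-- Update of one cell. -/
def upd (w : Fin a → Fin b → ι) (l : Fin a) (j : Fin b) (x : ι) : Fin a → Fin b → ι :=
  Function.update w l (Function.update (w l) j x)

lemma upd_rearr (w w' : Fin a → Fin b → ι) (τ : Equiv.Perm (Fin a))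
    (ρ : Fin a → Equiv.Perm (Fin b)) (hρ : ∀ l, w' (τ l) ∘ ρ l = w l) (l : Fin a) (j : Fin b) (x : ι)
    (l' : Fin a) : upd w' (τ l) (ρ l j) x (τ l') ∘ ρ l' = upd w l j x l' := by
  unfold upd
  by_cases hl : l' = l
  · subst hl
    simp only [Function.update_self]
    funext j'
    simp only [Function.comp_apply]
    by_cases hj : j' = j
    · subst hj
      simp
    · rw [Function.update_of_ne hj, Function.update_of_ne ((ρ l').injective.ne hj)]
      exact congrFun (hρ l') j'
  · rw [Function.update_of_ne hl, Function.update_of_ne (τ.injective.ne hl)]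
    exact hρ l'

lemma raising_welldef (x y : ι) (w w' : Fin a → Fin b → ι) (h : rowsOf w' = rowsOf w) :
    (∑ l, ∑ j, if w' l j = y then
        Finsupp.single (rowsOf (Function.update w' l (Function.update (w' l) j x))) (1 : ℂ) else 0)
      = ∑ l, ∑ j, if w l j = y then
        Finsupp.single (rowsOf (Function.update w l (Function.update (w l) j x))) (1 : ℂ) else 0 := by
  obtain ⟨τ, ρ, hρ⟩ := exists_rearr_of_rows w w' h
  rw [← Equiv.sum_comp τ]
  refine Finset.sum_congr rfl fun l _ => ?_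
  rw [← Equiv.sum_comp (ρ l)]
  refine Finset.sum_congr rfl fun j _ => ?_
  have h1 : w' (τ l) (ρ l j) = w l j := congrFun (hρ l) j
  rw [h1]
  have h2 : rowsOf (Function.update w' (τ l) (Function.update (w' (τ l)) (ρ l j) x))
      = rowsOf (Function.update w l (Function.update (w l) j x)) :=
    rowsOf_eq_of_rearr _ _ τ ρ (upd_rearr w w' τ ρ hρ l j x)
  rw [h2]

theorem exists_raising (x y : ι) :
    ∃ E : (Sym (Sym ι b) a →₀ ℂ) →ₗ[ℂ] (Sym (Sym ι b) a →₀ ℂ), IsRaising x y E := by
  classical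
  choose rep hrep using (exists_rows (ι := ι) (a := a) (b := b))
  refine ⟨Finsupp.lift _ ℂ _ (fun s => ∑ l, ∑ j, if rep s l j = y then
      Finsupp.single (rowsOf (Function.update (rep s) l (Function.update (rep s l) j x))) (1 : ℂ)
      else 0), ?_⟩
  intro w
  simp only [Finsupp.lift_apply]
  rw [Finsupp.sum_single_index (by simp), one_smul]
  exact raising_welldef x y w _ (hrep _)

/-- Transposed array. -/
def tr' (v : Fin a → Fin b → ι) : Fin b → Fin a → ι := fun j l => v l j

omit [DecidableEq ι] in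
lemma colsOf_eq_rowsOf (v : Fin a → Fin b → ι) : colsOf v = rowsOf (tr' v) := rfl

lemma count_rearr (w : Fin a → Fin b → ι) (σ : Fin a → Equiv.Perm (Fin b)) (l : Fin a) (i : ι) :
    (univ.filter fun j => w l (σ l j) = i).card = (univ.filter fun j => w l j = i).card := by
  refine Finset.card_bij (fun j _ => σ l j) ?_ (fun _ _ _ _ h => (σ l).injective h) ?_
  · intro j hj
    simpa using hj
  · intro j hj
    refine ⟨(σ l)⁻¹ j, ?_, by simp⟩
    simpa using hj

lemma letterCount_cols (w : Fin a → Fin b → ι) (σ : Fin a → Equiv.Perm (Fin b)) (i : ι) :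
    letterCount (colsOf fun l j => w l (σ l j)) i = letterCount (rowsOf w) i := by
  rw [colsOf_eq_rowsOf, letterCount_rowsOf, letterCount_rowsOf]
  have h1 : ∀ v : Fin a → Fin b → ι,
      ∑ j, (univ.filter fun l => v l j = i).card = ∑ l, (univ.filter fun j => v l j = i).card := by
    intro v
    simp only [Finset.card_filter]
    exact Finset.sum_comm
  refine (h1 (fun l j => w l (σ l j))).trans ?_
  exact Finset.sum_congr rfl fun l _ => count_rearr w σ l i

variable {Ψ : (Sym (Sym ι b) a →₀ ℂ) →ₗ[ℂ] (Sym (Sym ι a) b →₀ ℂ)}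

lemma upd_rearrange (w : Fin a → Fin b → ι) (σ : Fin a → Equiv.Perm (Fin b)) (l : Fin a) (j : Fin b)
    (x : ι) : (fun l' j' => upd w l (σ l j) x l' (σ l' j')) = upd (fun l j => w l (σ l j)) l j x := by
  funext l' j'
  unfold upd
  by_cases hl : l' = l
  · subst hl
    simp only [Function.update_self]
    by_cases hj : j' = j
    · subst hj
      simp
    · rw [Function.update_of_ne hj, Function.update_of_ne ((σ l').injective.ne hj)]
  · simp [Function.update_of_ne hl]

omit [DecidableEq ι] in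
lemma colsOf_upd [DecidableEq ι] (v : Fin a → Fin b → ι) (l : Fin a) (j : Fin b) (x : ι) :
    rowsOf (Function.update (tr' v) j (Function.update (tr' v j) l x)) = colsOf (upd v l j x) := by
  rw [colsOf_eq_rowsOf]
  congr 1
  funext j' l'
  unfold tr' upd
  by_cases hj : j' = j
  · subst hj
    simp only [Function.update_self]
    by_cases hl : l' = l
    · subst hl; simp
    · simp [Function.update_of_ne hl]
  · rw [Function.update_of_ne hj]
    by_cases hl : l' = l
    · subst hl
      simp [Function.update_of_ne hj]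
    · simp [Function.update_of_ne hl]

theorem commute_raising (hΨ : IsFoulkesHowe Ψ) {x y : ι}
    {E : (Sym (Sym ι b) a →₀ ℂ) →ₗ[ℂ] (Sym (Sym ι b) a →₀ ℂ)}
    {E' : (Sym (Sym ι a) b →₀ ℂ) →ₗ[ℂ] (Sym (Sym ι a) b →₀ ℂ)}
    (hE : IsRaising x y E) (hE' : IsRaising x y E') (f : Sym (Sym ι b) a →₀ ℂ) :
    E' (Ψ f) = Ψ (E f) := by
  have key : E' ∘ₗ Ψ = Ψ ∘ₗ E := by
    apply Finsupp.lhom_ext
    intro s c
    obtain ⟨w, rfl⟩ := exists_rows s
    have h1 : Finsupp.single (rowsOf w) c = c • Finsupp.single (rowsOf w) (1 : ℂ) := by simp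
    simp only [LinearMap.comp_apply]
    rw [h1, map_smul, map_smul, map_smul, map_smul]
    congr 1
    rw [hΨ w, hE w, map_sum, map_sum]
    -- left side
    have hL : ∀ σ : Fin a → Equiv.Perm (Fin b),
        E' (Finsupp.single (colsOf fun l j => w l (σ l j)) (1 : ℂ))
          = ∑ l, ∑ j, if w l (σ l j) = y then
              Finsupp.single (colsOf (upd (fun l j => w l (σ l j)) l j x)) (1 : ℂ) else 0 := by
      intro σ
      rw [colsOf_eq_rowsOf, hE']
      conv_lhs => rw [Finset.sum_comm]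
      refine Finset.sum_congr rfl fun l _ => Finset.sum_congr rfl fun j _ => ?_
      rw [colsOf_upd]
      rfl
    simp only [hL]
    -- right side
    have hR : ∀ l j, Ψ (if w l j = y then
        Finsupp.single (rowsOf (Function.update w l (Function.update (w l) j x))) (1 : ℂ) else 0)
        = ∑ σ : Fin a → Equiv.Perm (Fin b), if w l j = y then
          Finsupp.single (colsOf fun l' j' => upd w l j x l' (σ l' j')) (1 : ℂ) else 0 := by
      intro l j
      by_cases h : w l j = y
      · simp only [if_pos h]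
        exact hΨ (upd w l j x)
      · simp [if_neg h]
    simp only [map_sum, hR]
    -- reorganise
    conv_lhs => rw [Finset.sum_comm]
    refine Finset.sum_congr rfl fun l _ => ?_
    conv_rhs => rw [Finset.sum_comm]
    refine Finset.sum_congr rfl fun σ _ => ?_
    conv_rhs => rw [← Equiv.sum_comp (σ l)]
    refine Finset.sum_congr rfl fun j _ => ?_
    rw [upd_rearrange]
  exact LinearMap.congr_fun key f

lemma Psi_expand (hΨ : IsFoulkesHowe Ψ) (rep : Sym (Sym ι b) a → Fin a → Fin b → ι)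
    (hrep : ∀ s, rowsOf (rep s) = s) (f : Sym (Sym ι b) a →₀ ℂ) (t : Sym (Sym ι a) b) :
    (Ψ f) t = ∑ s ∈ f.support, f s *
        ((univ.filter fun σ : Fin a → Equiv.Perm (Fin b) => colsOf (rearr (rep s) σ) = t).card : ℂ) := by
  conv_lhs => rw [← Finsupp.sum_single f]
  rw [Finsupp.sum, map_sum, Finsupp.finsetSum_apply]
  refine Finset.sum_congr rfl fun s _ => ?_
  have h1 : Finsupp.single s (f s) = f s • Finsupp.single s (1 : ℂ) := by simp
  rw [h1, map_smul, Finsupp.smul_apply, smul_eq_mul]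
  have := coeff_PsiCol hΨ (rep s) t
  rw [hrep s] at this
  rw [this]

lemma weight_Psi (hΨ : IsFoulkesHowe Ψ) (lam : ι → ℕ) (f : Sym (Sym ι b) a →₀ ℂ)
    (hf : ∀ s ∈ f.support, ∀ i, letterCount s i = lam i) :
    ∀ t ∈ (Ψ f).support, ∀ i, letterCount t i = lam i := by
  classical
  choose rep hrep using (exists_rows (ι := ι) (a := a) (b := b))
  intro t ht i
  by_contra hne
  apply Finsupp.mem_support_iff.mp ht
  rw [Psi_expand hΨ rep hrep]
  refine Finset.sum_eq_zero fun s hs => ?_
  have h0 : (univ.filter fun σ : Fin a → Equiv.Perm (Fin b) => colsOf (rearr (rep s) σ) = t) = ∅ := by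
    rw [Finset.filter_eq_empty_iff]
    intro σ _ hσ
    apply hne
    rw [← hσ]
    have h1 := letterCount_cols (rep s) σ i
    rw [hrep s] at h1
    rw [show rearr (rep s) σ = fun l j => rep s l (σ l j) from rfl, h1]
    exact hf s hs i
  rw [h0]
  simp

/-- The multiplicity inequality. -/
theorem hw_inequality {ι : Type*} [Fintype ι] [LinearOrder ι]
    {a b : ℕ} (E : ι → ι → (Sym (Sym ι b) a →₀ ℂ) →ₗ[ℂ] (Sym (Sym ι b) a →₀ ℂ))
    (E' : ι → ι → (Sym (Sym ι a) b →₀ ℂ) →ₗ[ℂ] (Sym (Sym ι a) b →₀ ℂ))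
    (hE : ∀ x y, IsRaising x y (E x y)) (hE' : ∀ x y, IsRaising x y (E' x y))
    (lam : ι → ℕ) (i₀ : ι) (h : a * b ≤ lam i₀ + b) :
    Module.finrank ℂ (hwSpace E lam) ≤ Module.finrank ℂ (hwSpace E' lam) := by
  classical
  obtain ⟨Ψ, hΨ⟩ := exists_foulkesHowe (ι := ι) (a := a) (b := b)
  have hmaps : ∀ f ∈ hwSpace E lam, Ψ f ∈ hwSpace E' lam := by
    intro f hf
    refine ⟨weight_Psi hΨ lam f hf.1, fun x y hxy => ?_⟩
    rw [commute_raising hΨ (hE x y) (hE' x y), hf.2 x y hxy, map_zero]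
  refine LinearMap.finrank_le_finrank_of_injective (f := Ψ.restrict hmaps) ?_
  refine (injective_iff_map_eq_zero _).mpr ?_
  rintro ⟨f, hf⟩ hzero
  have hz : Ψ f = 0 := congrArg Subtype.val hzero
  apply Subtype.ext
  show f = 0
  ext s
  by_contra hne
  have hs : s ∈ f.support := Finsupp.mem_support_iff.mpr hne
  have hc := hf.1 s hs i₀
  exact hne (kernel_support hΨ f hz s i₀ (by rw [hc]; exact h))

end Vale.Agent.helper5.Foulkes
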