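import Vale.Agent.helper5.GSHDfa

/-!
Functions all of whose fibers have generalized star height at most one, and the counting machine:
count the letters of `A` read while the number of letters of `S` read so far is divisible by `d`.
-/

namespace Vale.Agent.helper5.GSH

universe u v w

variable {α : Type u} {β : Type v} {γ : Type w}

/-- All fibers of `f` have generalized star height at most one. -/
def Acc (f : List α → β) : Prop := ∀ v, GshLe 1 {w | f w = v}

lemma Acc.comp [Finite β] {f : List α → β} (hf : Acc f) (g : β → γ) : Acc (fun w => g (f w)) := by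
  classical
  intro c
  have : {w | g (f w) = c} = ⋃ v : {v : β // g v = c}, {w | f w = v.1} := by
    ext w
    simp only [Set.mem_setOf_eq, Set.mem_iUnion, Subtype.exists, exists_prop]
    constructor
    · intro h
      exact ⟨f w, h, rfl⟩
    · rintro ⟨v, h1, h2⟩
      rw [h2]
      exact h1
  rw [this]
  exact GshLe.iUnion_finite fun v => hf v.1

lemma Acc.pair {f : List α → β} {g : List α → γ} (hf : Acc f) (hg : Acc g) :
    Acc (fun w => (f w, g w)) := by
  rintro ⟨b, c⟩
  have : {w | (f w, g w) = (b, c)} = {w | f w = b} ∩ {w | g w = c} := by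
    ext w
    simp [Prod.ext_iff]
  rw [this]
  exact (hf b).inter (hg c)

lemma Acc.const (c : β) : Acc (fun _ : List α => c) := by
  classical
  intro v
  by_cases h : c = v
  · simpa [h] using gshLe_univ
  · simpa [h] using gshLe_empty

lemma Acc.factor [Finite β] {f : List α → β} {g : List α → γ} (hf : Acc f)
    (h : ∀ w w', f w = f w' → g w = g w') : Acc g := by
  classical
  intro c
  have : {w | g w = c} = ⋃ v : {v : β // ∃ w, f w = v ∧ g w = c}, {w | f w = v.1} := by
    ext w
    simp only [Set.mem_setOf_eq, Set.mem_iUnion, Subtype.exists, exists_prop]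
    constructor
    · intro hw
      exact ⟨f w, ⟨w, rfl, hw⟩, rfl⟩
    · rintro ⟨v, ⟨w', h1, h2⟩, h3⟩
      rw [h w w' (h3.trans h1.symm)]
      exact h2
  rw [this]
  exact GshLe.iUnion_finite fun v => hf v.1

lemma Acc.pi {ι : Type*} [Fintype ι] {β' : ι → Type v} {f : ∀ i, List α → β' i}
    (hf : ∀ i, Acc (f i)) : Acc (fun w i => f i w) := by
  intro c
  have : {w | (fun i => f i w) = c} = ⋂ i, {w | f i w = c i} := by
    ext w
    simp [funext_iff]
  rw [this]
  exact GshLe.iInter_fintype fun i => hf i (c i)

lemma Acc.reverse {f : List α → β} (hf : Acc f) : Acc (fun w => f w.reverse) := by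
  intro c
  exact (hf c).reverse

section ring
variable {R : Type v} [Finite R] [CommRing R]

lemma Acc.add {f g : List α → R} (hf : Acc f) (hg : Acc g) : Acc (fun w => f w + g w) :=
  have : Finite (R × R) := inferInstance
  (hf.pair hg).comp (fun p : R × R => p.1 + p.2)

lemma Acc.sub {f g : List α → R} (hf : Acc f) (hg : Acc g) : Acc (fun w => f w - g w) :=
  have : Finite (R × R) := inferInstance
  (hf.pair hg).comp (fun p : R × R => p.1 - p.2)

lemma Acc.mul {f g : List α → R} (hf : Acc f) (hg : Acc g) : Acc (fun w => f w * g w) :=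
  have : Finite (R × R) := inferInstance
  (hf.pair hg).comp (fun p : R × R => p.1 * p.2)

lemma Acc.finset_sum {ι : Type*} (s : Finset ι) {f : ι → List α → R} (hf : ∀ i ∈ s, Acc (f i)) :
    Acc (fun w => ∑ i ∈ s, f i w) := by
  classical
  induction s using Finset.induction_on with
  | empty => simpa using Acc.const (0 : R)
  | insert a s ha ih =>
    have h1 := hf a (Finset.mem_insert_self _ _)
    have h2 := ih (fun i hi => hf i (Finset.mem_insert_of_mem hi))
    have := h1.add h2
    simpa [Finset.sum_insert ha] using this

end ring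

variable [DecidableEq α]

/-- The number of letters of `S` in a word. -/
def cnt (S : Finset α) : List α → ℕ
  | [] => 0
  | x :: w => (if x ∈ S then 1 else 0) + cnt S w

/-- The number of letters of `A` read while the number of letters of `S` read so far,
plus the start value `q`, is divisible by `d`. -/
def hitCount (d : ℕ) (S A : Finset α) : ℕ → List α → ℕ
  | _, [] => 0
  | q, x :: w => (if x ∈ A ∧ d ∣ q then 1 else 0) + hitCount d S A (q + if x ∈ S then 1 else 0) w

/-- The sum over the letters of `A` of `g` at the number of letters of `S` read before,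
plus the start value `q`. -/
def wsum {R : Type v} [AddCommMonoid R] (g : ℕ → R) (S A : Finset α) : ℕ → List α → R
  | _, [] => 0
  | q, x :: w => (if x ∈ A then g q else 0) + wsum g S A (q + if x ∈ S then 1 else 0) w

lemma hitCount_add_period (d : ℕ) (S A : Finset α) (q : ℕ) (w : List α) :
    hitCount d S A (q + d) w = hitCount d S A q w := by
  induction w generalizing q with
  | nil => rfl
  | cons x w ih =>
    simp only [hitCount]
    have h1 : (d ∣ q + d) ↔ d ∣ q := by simp
    have h2 : q + d + (if x ∈ S then 1 else 0) = (q + (if x ∈ S then 1 else 0)) + d := by omega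
    rw [h2, ih]
    simp only [h1]

/-- One step of the counting machine on `Fin N`. -/
def stepFn (N d : ℕ) (hN : 0 < N) (S A : Finset α) (t : Fin N) (x : α) : Fin N :=
  if x ∈ S then ⟨(t.val + 1) % N, Nat.mod_lt _ hN⟩
  else if x ∈ A ∧ d ∣ t.val then ⟨(t.val + d) % N, Nat.mod_lt _ hN⟩
  else t

lemma stepFn_upOutside (N d : ℕ) (hN : 0 < N) (hd : 0 < d) (hdN : d ∣ N) (S A : Finset α) :
    UpOutside (stepFn N d hN S A) (⟨0, hN⟩ : Fin N) (fun t => t.val) := by
  intro t ht x
  have ht0 : 0 < t.val := by
    rcases Nat.eq_zero_or_pos t.val with h | h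
    · exact absurd (Fin.ext h) ht
    · exact h
  unfold stepFn
  split_ifs with h1 h2
  · by_cases h3 : t.val + 1 < N
    · right; right
      simp [Nat.mod_eq_of_lt h3]
    · left
      have : t.val + 1 = N := by have := t.isLt; omega
      apply Fin.ext
      simp [this]
  · obtain ⟨_, h4⟩ := h2
    by_cases h3 : t.val + d < N
    · right; right
      simp [Nat.mod_eq_of_lt h3, hd]
    · left
      have h5 : d ∣ t.val + d := by simpa using h4
      have h6 : t.val + d = N := by
        obtain ⟨a, ha⟩ := h4
        obtain ⟨c, hc⟩ := hdN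
        have h7 := t.isLt
        rw [ha, hc] at h7
        have h8 : a < c := Nat.lt_of_mul_lt_mul_left h7
        have h9 : d * (a + 1) ≤ d * c := Nat.mul_le_mul_left _ h8
        have h10 : t.val + d ≤ N := by rw [ha, hc]; nlinarith
        omega
      apply Fin.ext
      simp [h6]
  · right; left; rfl

lemma run_stepFn (N d : ℕ) (hN : 0 < N) (hd : 0 < d) (hdN : d ∣ N) {S A : Finset α}
    (hSA : Disjoint S A) (q : ℕ) (w : List α) :
    (run (stepFn N d hN S A) (⟨q % N, Nat.mod_lt _ hN⟩ : Fin N) w).val =
      (q + cnt S w + d * hitCount d S A q w) % N := by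
  induction w generalizing q with
  | nil => simp [run, cnt, hitCount]
  | cons x w ih =>
    simp only [run_cons, cnt, hitCount]
    by_cases h1 : x ∈ S
    · have h2 : x ∉ A := Finset.disjoint_left.mp hSA h1
      have h3 : stepFn N d hN S A (⟨q % N, Nat.mod_lt _ hN⟩ : Fin N) x =
          ⟨(q + 1) % N, Nat.mod_lt _ hN⟩ := by
        apply Fin.ext
        simp [stepFn, h1, Nat.add_mod]
      rw [h3, ih]
      simp only [h1, h2, if_true, false_and, if_false]
      congr 1
      ring
    · by_cases h2 : x ∈ A ∧ d ∣ q
      · have h4 : d ∣ (q % N) := (Nat.dvd_mod_iff hdN).mpr h2.2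
        have h3 : stepFn N d hN S A (⟨q % N, Nat.mod_lt _ hN⟩ : Fin N) x =
            ⟨(q + d) % N, Nat.mod_lt _ hN⟩ := by
          apply Fin.ext
          simp [stepFn, h1, h2.1, h4, Nat.add_mod]
        rw [h3, ih, hitCount_add_period]
        simp only [h1, if_false, h2, and_self, if_true]
        congr 1
        ring
      · have h3 : stepFn N d hN S A (⟨q % N, Nat.mod_lt _ hN⟩ : Fin N) x =
            ⟨q % N, Nat.mod_lt _ hN⟩ := by
          have h4 : ¬ (x ∈ A ∧ d ∣ (q % N)) := by
            rintro ⟨h5, h6⟩
            exact h2 ⟨h5, (Nat.dvd_mod_iff hdN).mp h6⟩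
          simp [stepFn, h1, h4]
        rw [h3, ih]
        simp only [h1, if_false, h2, add_zero, zero_add]

lemma acc_run_value [Fintype α] (N d : ℕ) (hN : 0 < N) (hd : 0 < d) (hdN : d ∣ N) {S A : Finset α}
    (hSA : Disjoint S A) (q : ℕ) :
    Acc (fun w : List α => (q + cnt S w + d * hitCount d S A q w) % N) := by
  haveI : NeZero N := ⟨hN.ne'⟩
  have h1 : Acc (fun w : List α => run (stepFn N d hN S A) (⟨q % N, Nat.mod_lt _ hN⟩ : Fin N) w) :=
    fun v => gshLe_fiber (stepFn_upOutside N d hN hd hdN S A) _ v
  have h2 := h1.comp (fun t : Fin N => t.val)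
  simpa only [run_stepFn N d hN hd hdN hSA q] using h2

lemma hitCount_empty (d : ℕ) (S : Finset α) (q : ℕ) (w : List α) :
    hitCount d S ∅ q w = 0 := by
  induction w generalizing q with
  | nil => rfl
  | cons x w ih => simp [hitCount, ih]

lemma acc_cnt_mod [Fintype α] (N : ℕ) (hN : 0 < N) (S : Finset α) :
    Acc (fun w : List α => cnt S w % N) := by
  have := acc_run_value N 1 hN one_pos (one_dvd N) (S := S) (A := ∅) (Finset.disjoint_empty_right S) 0
  simpa [hitCount_empty] using this

lemma acc_hitCount_mod [Fintype α] (d s : ℕ) (hd : 0 < d) (hs : 0 < s) {S A : Finset α}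
    (hSA : Disjoint S A) (q : ℕ) :
    Acc (fun w : List α => hitCount d S A q w % s) := by
  have hN : 0 < d * s := Nat.mul_pos hd hs
  have h1 := acc_run_value (d * s) d hN hd (Dvd.intro s rfl) hSA q
  have h2 := acc_cnt_mod (α := α) (d * s) hN S
  -- use values in `Fin`
  have h1' : Acc (fun w : List α =>
      (⟨(q + cnt S w + d * hitCount d S A q w) % (d * s), Nat.mod_lt _ hN⟩ : Fin (d * s))) := by
    intro v
    have := h1 v.val
    convert this using 1
    ext w
    simp [Fin.ext_iff]
  have h2' : Acc (fun w : List α => (⟨cnt S w % (d * s), Nat.mod_lt _ hN⟩ : Fin (d * s))) := by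
    intro v
    have := h2 v.val
    convert this using 1
    ext w
    simp [Fin.ext_iff]
  have h3 := (h1'.pair h2').comp
    (fun p : Fin (d * s) × Fin (d * s) =>
      ((p.1.val + (d * s) - (q + p.2.val) % (d * s)) % (d * s)) / d)
  convert h3 using 2 with w
  simp only
  set F := hitCount d S A q w
  set c := cnt S w
  set N := d * s with hNdef
  have h4 : (q + c % N) % N = (q + c) % N := by simp [Nat.add_mod]
  rw [h4]
  have h5 : (q + c) % N < N := Nat.mod_lt _ hN
  have h6 : ((q + c + d * F) % N + N - (q + c) % N) % N = (d * F) % N := by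
    have h7 : (q + c + d * F) % N = ((q + c) % N + (d * F) % N) % N := by rw [Nat.add_mod]
    have h8 : (d * F) % N < N := Nat.mod_lt _ hN
    rw [h7]
    by_cases h9 : (q + c) % N + (d * F) % N < N
    · rw [Nat.mod_eq_of_lt h9]
      have : (q + c) % N + d * F % N + N - (q + c) % N = d * F % N + N := by omega
      rw [this]
      simp
    · have h10 : ((q + c) % N + d * F % N) % N = (q + c) % N + d * F % N - N := by
        rw [Nat.mod_eq_sub_mod (by omega), Nat.mod_eq_of_lt (by omega)]
      rw [h10]
      have : (q + c) % N + d * F % N - N + N - (q + c) % N = d * F % N := by omega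
      rw [this, Nat.mod_mod]
  rw [h6, hNdef, Nat.mul_mod_mul_left, Nat.mul_div_cancel_left _ hd]

section zmod

variable (n : ℕ) [NeZero n]

lemma acc_natCast_of_mod {f : List α → ℕ} (hf : Acc (fun w => f w % n)) :
    Acc (fun w => (f w : ZMod n)) := by
  intro v
  have := hf v.val
  convert this using 1
  ext w
  simp only [Set.mem_setOf_eq]
  rw [← ZMod.val_natCast]
  constructor
  · rintro rfl; rfl
  · intro h; exact ZMod.val_injective n h

lemma acc_cnt_zmod [Fintype α] (S : Finset α) : Acc (fun w : List α => (cnt S w : ZMod n)) :=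
  acc_natCast_of_mod n (acc_cnt_mod n (NeZero.pos n) S)

lemma acc_hitCount_zmod [Fintype α] (d : ℕ) (hd : 0 < d) {S A : Finset α} (hSA : Disjoint S A)
    (q : ℕ) : Acc (fun w : List α => (hitCount d S A q w : ZMod n)) :=
  acc_natCast_of_mod n (acc_hitCount_mod d n hd (NeZero.pos n) hSA q)

end zmod

lemma wsum_eq_sum_hitCount {R : Type v} [CommRing R] (g : ℕ → R) (d : ℕ) (hd : 0 < d)
    (hg : ∀ c, g (c + d) = g c) (S A : Finset α) (q : ℕ) (w : List α) :
    wsum g S A q w =
      ∑ r ∈ Finset.range d, (hitCount d S A (q + d - r) w : R) * g r := by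
  have hmod : ∀ c, g c = g (c % d) := by
    intro c
    induction c using Nat.strong_induction_on with
    | _ c ih =>
      by_cases h : c < d
      · rw [Nat.mod_eq_of_lt h]
      · have h1 : c = (c - d) + d := by omega
        rw [h1, hg, ih (c - d) (by omega)]
        congr 1
        simp [Nat.add_mod_right]
  induction w generalizing q with
  | nil => simp [wsum, hitCount]
  | cons x w ih =>
    simp only [wsum, hitCount]
    rw [ih]
    have h1 : ∀ r ∈ Finset.range d, (q + (if x ∈ S then 1 else 0)) + d - r =
        q + d - r + (if x ∈ S then 1 else 0) := by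
      intro r hr
      have := Finset.mem_range.mp hr
      omega
    have h2 : (if x ∈ A then g q else 0) =
        ∑ r ∈ Finset.range d, ((if x ∈ A ∧ d ∣ q + d - r then 1 else 0 : ℕ) : R) * g r := by
      by_cases hx : x ∈ A
      · simp only [hx, if_true, true_and]
        have h3 : q % d ∈ Finset.range d := Finset.mem_range.mpr (Nat.mod_lt _ hd)
        rw [Finset.sum_eq_single (q % d)]
        · have h4 : d ∣ q + d - q % d := by
            have h5 : q + d - q % d = d * (q / d) + d := by
              have := Nat.div_add_mod q d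
              have h6 := Nat.mod_lt q hd
              omega
            rw [h5]
            exact Dvd.dvd.add (Dvd.intro _ rfl) (dvd_refl d)
          simp [h4, ← hmod q]
        · intro r hr hne
          have hr' := Finset.mem_range.mp hr
          have h4 : ¬ d ∣ q + d - r := by
            intro h5
            apply hne
            have h6 : (q + d - r) % d = 0 := Nat.mod_eq_zero_of_dvd h5
            have h7 : (q + d) % d = r % d := by
              have : q + d = (q + d - r) + r := by omega
              rw [this, Nat.add_mod, h6]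
              simp
            simp only [Nat.add_mod_right] at h7
            rw [Nat.mod_eq_of_lt hr'] at h7
            exact h7.symm
          simp [h4]
        · intro h; exact absurd h3 h
      · simp [hx]
    rw [h2, ← Finset.sum_add_distrib]
    apply Finset.sum_congr rfl
    intro r hr
    rw [h1 r hr]
    push_cast
    ring

lemma acc_wsum_zmod [Fintype α] (n : ℕ) [NeZero n] (g : ℕ → ZMod n) (d : ℕ) (hd : 0 < d)
    (hg : ∀ c, g (c + d) = g c) {S A : Finset α} (hSA : Disjoint S A) (q : ℕ) :
    Acc (fun w : List α => wsum g S A q w) := by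
  have := Acc.finset_sum (Finset.range d)
    (f := fun r (w : List α) => (hitCount d S A (q + d - r) w : ZMod n) * g r)
    (fun r _ => (acc_hitCount_zmod n d hd hSA _).mul (Acc.const (g r)))
  simpa only [wsum_eq_sum_hitCount g d hd hg S A q] using this

end Vale.Agent.helper5.GSH
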