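import Vale.Agent.helper5.GSHMachine

/-!
Counting scattered subwords of length at most three modulo `n`.
-/

namespace Vale.Agent.helper5.GSH

universe u v

variable {α : Type u} [DecidableEq α]

/-- The number of occurrences of `u` in `w` as a scattered subword. -/
def sw : List α → List α → ℕ
  | _, [] => 1
  | [], _ :: _ => 0
  | x :: w, y :: u => sw w (y :: u) + if x = y then sw w u else 0

@[simp] lemma sw_nil_right (w : List α) : sw w [] = 1 := by cases w <;> rfl
@[simp] lemma sw_nil_left (y : α) (u : List α) : sw [] (y :: u) = 0 := rfl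
lemma sw_cons_cons (x y : α) (w u : List α) :
    sw (x :: w) (y :: u) = sw w (y :: u) + if x = y then sw w u else 0 := rfl

lemma count_sublists'_eq_sw (w u : List α) : (w.sublists').count u = sw w u := by
  induction w generalizing u with
  | nil =>
    cases u with
    | nil => simp
    | cons y u => simp [sw]
  | cons x w ih =>
    rw [List.sublists'_cons, List.count_append]
    cases u with
    | nil =>
      rw [ih]
      have : (List.map (List.cons x) w.sublists').count [] = 0 := by
        apply List.count_eq_zero.mpr
        simp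
      rw [this]
      simp
    | cons y u =>
      rw [ih, sw_cons_cons]
      congr 1
      by_cases hxy : x = y
      · subst hxy
        rw [if_pos rfl, ← ih u]
        exact List.count_map_of_injective _ _ (List.cons_injective) _
      · rw [if_neg hxy]
        apply List.count_eq_zero.mpr
        simp only [List.mem_map, not_exists, not_and]
        intro a _ h
        exact hxy (List.cons.inj h).1

lemma sw_nil_snoc (t : List α) (y : α) : sw [] (t ++ [y]) = 0 := by
  cases t <;> rfl

lemma sw_snoc (s t : List α) (x y : α) :
    sw (s ++ [x]) (t ++ [y]) = sw s (t ++ [y]) + if x = y then sw s t else 0 := by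
  induction s generalizing t with
  | nil =>
    cases t with
    | nil => simp [sw]
    | cons a t => simp [sw, sw_nil_snoc]
  | cons c s ih =>
    cases t with
    | nil =>
      simp only [List.cons_append, List.nil_append, sw_cons_cons, sw_nil_right]
      have := ih []
      simp only [List.nil_append, sw_nil_right] at this
      rw [this]
      ring
    | cons a t =>
      simp only [List.cons_append, sw_cons_cons]
      have h1 := ih (a :: t)
      have h2 := ih t
      simp only [List.cons_append] at h1
      rw [h1, h2]
      by_cases hca : c = a <;> by_cases hxy : x = y <;> simp [hca, hxy] <;> ring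

lemma sw_reverse (w u : List α) : sw w.reverse u.reverse = sw w u := by
  induction w generalizing u with
  | nil =>
    cases u with
    | nil => simp
    | cons y u => simp [sw_nil_snoc]
  | cons x w ih =>
    cases u with
    | nil => simp
    | cons y u =>
      simp only [List.reverse_cons]
      rw [sw_snoc, sw_cons_cons, ih]
      have h := ih (y :: u)
      simp only [List.reverse_cons] at h
      rw [h]

lemma cnt_singleton (x : α) (w : List α) : cnt {x} w = sw w [x] := by
  induction w with
  | nil => rfl
  | cons y w ih =>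
    simp only [cnt, sw_cons_cons, ih, Finset.mem_singleton, sw_nil_right]
    by_cases h : y = x <;> simp [h, add_comm]

lemma wsum_id_singleton {x y : α} (hxy : x ≠ y) (q : ℕ) (w : List α) :
    wsum (fun c => c) {x} {y} q w = q * sw w [y] + sw w [x, y] := by
  induction w generalizing q with
  | nil => simp [wsum, sw]
  | cons a w ih =>
    simp only [wsum, ih, sw_cons_cons, sw_nil_right, Finset.mem_singleton]
    by_cases h1 : a = x
    · subst h1
      simp [hxy]
      ring
    · by_cases h2 : a = y
      · subst h2
        simp [h1]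
        ring
      · simp [h1, h2]

lemma choose_two_succ (q : ℕ) : (q + 1).choose 2 = q.choose 2 + q := by
  rw [Nat.choose_succ_succ' q 1]
  simp [add_comm]

lemma wsum_choose_singleton {x y : α} (hxy : x ≠ y) (q : ℕ) (w : List α) :
    wsum (fun c => c.choose 2) {x} {y} q w =
      q.choose 2 * sw w [y] + q * sw w [x, y] + sw w [x, x, y] := by
  induction w generalizing q with
  | nil => simp [wsum, sw]
  | cons a w ih =>
    simp only [wsum, ih, sw_cons_cons, sw_nil_right, Finset.mem_singleton]
    by_cases h1 : a = x
    · subst h1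
      simp [hxy, choose_two_succ]
      ring
    · by_cases h2 : a = y
      · subst h2
        simp [h1]
        ring
      · simp [h1, h2]

lemma wsum_choose_pair {x z y : α} (hxz : x ≠ z) (hxy : x ≠ y) (hzy : z ≠ y) (q : ℕ)
    (w : List α) :
    wsum (fun c => c.choose 2) {x, z} {y} q w =
      q.choose 2 * sw w [y] + q * (sw w [x, y] + sw w [z, y]) +
        (sw w [x, x, y] + sw w [z, z, y] + sw w [x, z, y] + sw w [z, x, y]) := by
  induction w generalizing q with
  | nil => simp [wsum, sw]
  | cons a w ih =>
    simp only [wsum, ih, sw_cons_cons, sw_nil_right, Finset.mem_singleton, Finset.mem_insert]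
    by_cases h1 : a = x
    · subst h1
      simp [hxy, hxz, choose_two_succ]
      ring
    · by_cases h2 : a = z
      · subst h2
        simp [h1, hzy, hxz.symm, choose_two_succ]
        ring
      · by_cases h3 : a = y
        · subst h3
          simp [h1, h2]
          ring
        · simp [h1, h2, h3]

lemma sw_mul_singles {x y : α} (hxy : x ≠ y) (w : List α) :
    sw w [x] * sw w [y] = sw w [x, y] + sw w [y, x] := by
  induction w with
  | nil => simp [sw]
  | cons a w ih =>
    simp only [sw_cons_cons, sw_nil_right]
    by_cases h1 : a = x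
    · subst h1
      simp [hxy]
      nlinarith [ih]
    · by_cases h2 : a = y
      · subst h2
        simp [h1]
        nlinarith [ih]
      · simp [h1, h2]
        nlinarith [ih]

lemma sw_mul_distinct {x y z : α} (hxy : x ≠ y) (hxz : x ≠ z) (hyz : y ≠ z) (w : List α) :
    sw w [z] * sw w [x, y] = sw w [z, x, y] + sw w [x, z, y] + sw w [x, y, z] := by
  induction w with
  | nil => simp [sw]
  | cons a w ih =>
    simp only [sw_cons_cons, sw_nil_right]
    by_cases h1 : a = x
    · subst h1
      simp [hxy, hxz, hxz.symm]
      nlinarith [ih, sw_mul_singles hyz.symm w]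
    · by_cases h2 : a = y
      · subst h2
        simp [h1, hyz, Ne.symm hyz]
        nlinarith [ih]
      · by_cases h3 : a = z
        · subst h3
          simp [h1, h2]
          nlinarith [ih]
        · simp [h1, h2, h3]
          nlinarith [ih]

lemma sw_mul_repeat {x y : α} (hxy : x ≠ y) (w : List α) :
    sw w [x] * sw w [x, y] = 2 * sw w [x, x, y] + sw w [x, y] + sw w [x, y, x] := by
  induction w with
  | nil => simp [sw]
  | cons a w ih =>
    simp only [sw_cons_cons, sw_nil_right]
    by_cases h1 : a = x
    · subst h1
      simp [hxy]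
      nlinarith [ih, sw_mul_singles hxy w]
    · by_cases h2 : a = y
      · subst h2
        simp [h1, Ne.symm h1]
        nlinarith [ih]
      · simp [h1, h2]
        nlinarith [ih]

lemma sw_double (x : α) (w : List α) : sw w [x, x] = (sw w [x]).choose 2 := by
  induction w with
  | nil => simp [sw]
  | cons a w ih =>
    simp only [sw_cons_cons, sw_nil_right]
    by_cases h1 : a = x
    · subst h1
      simp [ih, choose_two_succ]
    · simp [h1, ih]

lemma sw_triple (x : α) (w : List α) : sw w [x, x, x] = (sw w [x]).choose 3 := by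
  induction w with
  | nil => simp [sw]
  | cons a w ih =>
    simp only [sw_cons_cons, sw_nil_right]
    by_cases h1 : a = x
    · subst h1
      have h2 := sw_double a w
      simp only [if_true, h2, ih]
      have : sw w [a] + 1 = (sw w [a]) + 1 := rfl
      rw [Nat.choose_succ_succ' (sw w [a]) 2, add_comm]
    · simp [h1, ih]

section periodic

variable (n : ℕ)

lemma choose_two_add (c m : ℕ) : (c + m).choose 2 = c.choose 2 + c * m + m.choose 2 := by
  induction c with
  | zero => simp
  | succ c ih =>
    have h1 : c + 1 + m = (c + m) + 1 := by ring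
    rw [h1, choose_two_succ, ih, choose_two_succ]
    ring

lemma choose_three_add (c m : ℕ) :
    (c + m).choose 3 = c.choose 3 + c.choose 2 * m + c * m.choose 2 + m.choose 3 := by
  induction c with
  | zero => simp
  | succ c ih =>
    have h1 : c + 1 + m = (c + m) + 1 := by ring
    rw [h1, Nat.choose_succ_succ' (c + m) 2, ih, Nat.choose_succ_succ' c 2, choose_two_add,
      choose_two_succ]
    ring

lemma choose_two_period (c : ℕ) :
    (((c + 2 * n).choose 2 : ℕ) : ZMod n) = ((c.choose 2 : ℕ) : ZMod n) := by
  have h6 : ((2 * n).choose 2 : ℕ) = n * (2 * n - 1) := by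
    rw [Nat.choose_two_right, mul_assoc, Nat.mul_div_cancel_left _ (by norm_num)]
  rw [choose_two_add, h6]
  have h8 : ((n : ℕ) : ZMod n) = 0 := ZMod.natCast_self n
  push_cast
  rw [h8]
  simp

lemma choose_three_period (c : ℕ) :
    (((c + 6 * n).choose 3 : ℕ) : ZMod n) = ((c.choose 3 : ℕ) : ZMod n) := by
  have h6 : ((6 * n).choose 2 : ℕ) = n * (3 * (6 * n - 1)) := by
    rw [Nat.choose_two_right]
    have : 6 * n * (6 * n - 1) = 2 * (n * (3 * (6 * n - 1))) := by ring
    rw [this, Nat.mul_div_cancel_left _ (by norm_num)]
  have h7 : ((6 * n).choose 3 : ℕ) = n * ((6 * n - 1) * (6 * n - 2)) := by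
    have h1 : (6 * n).choose 3 * 6 = (n * ((6 * n - 1) * (6 * n - 2))) * 6 := by
      have h2 := Nat.descFactorial_eq_factorial_mul_choose (6 * n) 3
      have h3 : (6 * n).descFactorial 3 = (6 * n) * (6 * n - 1) * (6 * n - 2) := by
        simp only [Nat.descFactorial_succ, Nat.descFactorial_zero]
        simp only [Nat.sub_zero]
        ring
      rw [h3] at h2
      have h4 : Nat.factorial 3 = 6 := rfl
      rw [h4] at h2
      have h5 : (6 * n).choose 3 * 6 = 6 * (6 * n).choose 3 := by ring
      rw [h5, ← h2]
      ring
    exact Nat.eq_of_mul_eq_mul_right (by norm_num) h1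
  rw [choose_three_add, h6, h7]
  have h8 : ((n : ℕ) : ZMod n) = 0 := ZMod.natCast_self n
  push_cast
  rw [h8]
  simp

end periodic

variable [Fintype α] (n : ℕ) [NeZero n]

lemma acc_sw_one (x : α) : Acc (fun w : List α => (sw w [x] : ZMod n)) := by
  simpa only [cnt_singleton] using acc_cnt_zmod n ({x} : Finset α)

lemma wsum_cast {R : Type v} [CommRing R] (g : ℕ → ℕ) (S A : Finset α) (q : ℕ) (w : List α) :
    ((wsum g S A q w : ℕ) : R) = wsum (fun c => ((g c : ℕ) : R)) S A q w := by
  induction w generalizing q with
  | nil => simp [wsum]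
  | cons a w ih =>
    simp only [wsum, Nat.cast_add, ih]
    congr 1
    split_ifs <;> simp

lemma acc_sw_two_ne {x y : α} (hxy : x ≠ y) : Acc (fun w : List α => (sw w [x, y] : ZMod n)) := by
  have h1 := acc_wsum_zmod (α := α) n (fun c => ((c : ℕ) : ZMod n)) n (NeZero.pos n)
    (fun c => by simp) (S := {x}) (A := {y}) (by simpa using hxy) 0
  have h2 : ∀ w : List α, wsum (fun c => ((c : ℕ) : ZMod n)) {x} {y} 0 w = (sw w [x, y] : ZMod n) := by
    intro w
    have := wsum_cast (R := ZMod n) (fun c => c) ({x} : Finset α) {y} 0 w
    rw [← this, wsum_id_singleton hxy]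
    simp
  simpa only [h2] using h1

lemma acc_choose2_wsum {S A : Finset α} (hSA : Disjoint S A) :
    Acc (fun w : List α => ((wsum (fun c => c.choose 2) S A 0 w : ℕ) : ZMod n)) := by
  have h1 := acc_wsum_zmod (α := α) n (fun c => ((c.choose 2 : ℕ) : ZMod n)) (2 * n)
    (Nat.mul_pos (by norm_num) (NeZero.pos n)) (fun c => choose_two_period n c) hSA 0
  have h2 : ∀ w : List α, ((wsum (fun c => c.choose 2) S A 0 w : ℕ) : ZMod n) =
      wsum (fun c => ((c.choose 2 : ℕ) : ZMod n)) S A 0 w := fun w => wsum_cast _ _ _ _ _
  simpa only [h2] using h1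

lemma acc_sw_xxy {x y : α} (hxy : x ≠ y) : Acc (fun w : List α => (sw w [x, x, y] : ZMod n)) := by
  have h1 := acc_choose2_wsum (α := α) n (S := {x}) (A := {y}) (by simpa using hxy)
  have h2 : ∀ w : List α, wsum (fun c => c.choose 2) {x} {y} 0 w = sw w [x, x, y] := by
    intro w
    rw [wsum_choose_singleton hxy]
    simp
  simpa only [h2] using h1

lemma acc_sw_yxx {x y : α} (hxy : x ≠ y) : Acc (fun w : List α => (sw w [y, x, x] : ZMod n)) := by
  have h1 := (acc_sw_xxy (α := α) n hxy).reverse
  have h2 : ∀ w : List α, sw w.reverse [x, x, y] = sw w [y, x, x] := by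
    intro w
    have := sw_reverse w [y, x, x]
    simpa using this
  simpa only [h2] using h1

lemma acc_of_periodic {k : ℕ} (f : ℕ → ZMod n) (hk : 0 < k) (hf : ∀ c, f (c + k) = f c) {g : List α → ℕ}
    (hg : Acc (fun w => g w % k)) : Acc (fun w => f (g w)) := by
  have hmod : ∀ c, f c = f (c % k) := by
    intro c
    induction c using Nat.strong_induction_on with
    | _ c ih =>
      by_cases h : c < k
      · rw [Nat.mod_eq_of_lt h]
      · have h1 : c = (c - k) + k := by omega
        rw [h1, hf, ih (c - k) (by omega)]
        congr 1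
        simp [Nat.add_mod_right]
  have h1 : Acc (fun w => (⟨g w % k, Nat.mod_lt _ hk⟩ : Fin k)) := by
    intro v
    have := hg v.val
    convert this using 1
    ext w
    simp [Fin.ext_iff]
  have h2 := h1.comp (fun v : Fin k => f v.val)
  simpa only [← hmod] using h2

lemma acc_sw_xx (x : α) : Acc (fun w : List α => (sw w [x, x] : ZMod n)) := by
  have hk : 0 < 2 * n := Nat.mul_pos (by norm_num) (NeZero.pos n)
  have h1 := acc_of_periodic (α := α) n (fun c => ((c.choose 2 : ℕ) : ZMod n)) hk
    (fun c => choose_two_period n c) (g := fun w => cnt {x} w) (acc_cnt_mod (2 * n) hk {x})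
  simpa only [cnt_singleton, ← sw_double] using h1

lemma acc_sw_xxx (x : α) : Acc (fun w : List α => (sw w [x, x, x] : ZMod n)) := by
  have hk : 0 < 6 * n := Nat.mul_pos (by norm_num) (NeZero.pos n)
  have h1 := acc_of_periodic (α := α) n (fun c => ((c.choose 3 : ℕ) : ZMod n)) hk
    (fun c => choose_three_period n c) (g := fun w => cnt {x} w) (acc_cnt_mod (6 * n) hk {x})
  simpa only [cnt_singleton, ← sw_triple] using h1

lemma acc_sw_xyx {x y : α} (hxy : x ≠ y) : Acc (fun w : List α => (sw w [x, y, x] : ZMod n)) := by
  have h1 := (((acc_sw_one (α := α) n x).mul (acc_sw_two_ne n hxy)).sub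
    ((Acc.const (2 : ZMod n)).mul (acc_sw_xxy n hxy))).sub (acc_sw_two_ne n hxy)
  convert h1 using 2 with w
  have := sw_mul_repeat hxy w
  have h2 : ((sw w [x] * sw w [x, y] : ℕ) : ZMod n) =
      ((2 * sw w [x, x, y] + sw w [x, y] + sw w [x, y, x] : ℕ) : ZMod n) := by rw [this]
  push_cast at h2
  rw [h2]
  ring

lemma acc_sw_distinct {x y z : α} (hxy : x ≠ y) (hxz : x ≠ z) (hyz : y ≠ z) :
    Acc (fun w : List α => (sw w [x, y, z] : ZMod n)) := by
  have hd1 : Disjoint ({x, z} : Finset α) {y} := by
    simp [hxy.symm, hyz]
  have h3 := ((acc_choose2_wsum (α := α) n hd1).sub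
    (acc_sw_xxy n hxy)).sub (acc_sw_xxy n hyz.symm)
  have h1 := ((acc_sw_one (α := α) n z).mul (acc_sw_two_ne n hxy)).sub h3
  convert h1 using 2 with w
  have e1 := sw_mul_distinct hxy hxz hyz w
  have e2 := wsum_choose_pair hxz hxy hyz.symm 0 w
  simp only [Nat.choose_zero_succ, zero_mul, zero_add] at e2
  have e3 : ((sw w [z] * sw w [x, y] : ℕ) : ZMod n) =
      ((sw w [z, x, y] + sw w [x, z, y] + sw w [x, y, z] : ℕ) : ZMod n) := by rw [e1]
  push_cast at e3
  rw [e3, e2]
  push_cast
  ring

/-- Every subword count of length at most three, modulo `n`, is accessible. -/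
theorem acc_sw_le_three (u : List α) (hu : u.length ≤ 3) :
    Acc (fun w : List α => (sw w u : ZMod n)) := by
  match u, hu with
  | [], _ =>
    simpa using Acc.const (1 : ZMod n)
  | [x], _ => exact acc_sw_one n x
  | [x, y], _ =>
    by_cases hxy : x = y
    · subst hxy
      exact acc_sw_xx n x
    · exact acc_sw_two_ne n hxy
  | [x, y, z], _ =>
    by_cases hxy : x = y
    · subst hxy
      by_cases hxz : x = z
      · subst hxz
        exact acc_sw_xxx n x
      · exact acc_sw_xxy n hxz
    · by_cases hyz : y = z
      · subst hyz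
        exact acc_sw_yxx n (Ne.symm hxy)
      · by_cases hxz : x = z
        · subst hxz
          exact acc_sw_xyx n hxy
        · exact acc_sw_distinct n hxy hxz hyz
  | a :: b :: c :: d :: u, hu => simp at hu; omega

end Vale.Agent.helper5.GSH
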