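import Mathlib

/-!
Elementary multisymmetric generation: products of at most `d` elementary multisymmetric
elements span every multisymmetric element of total degree `d` (characteristic zero).
-/

namespace Vale.Agent.helper5.Foulkes

open Finset

variable {K A ι : Type*} [Field K] [CharZero K] [CommRing A] [Algebra K A] {a : ℕ}

/-- The monomial with letters `C` in the variables of row `l`. -/
def zm (z : Fin a → ι → A) (l : Fin a) (C : Multiset ι) : A := (C.map (z l)).prod

omit [Field K] in
@[simp] lemma zm_zero (z : Fin a → ι → A) (l : Fin a) : zm z l 0 = 1 := by simp [zm]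

lemma zm_add (z : Fin a → ι → A) (l : Fin a) (C D : Multiset ι) :
    zm z l (C + D) = zm z l C * zm z l D := by simp [zm]

@[simp] lemma zm_singleton (z : Fin a → ι → A) (l : Fin a) (x : ι) :
    zm z l {x} = z l x := by simp [zm]

/-- Power sum of the monomial `C` over all rows. -/
def pw (z : Fin a → ι → A) (C : Multiset ι) : A := ∑ l, zm z l C

/-- The orbit sum attached to blocks `P`: blocks go into distinct rows. -/
noncomputable def TT (z : Fin a → ι → A) {r : ℕ} (P : Fin r → Multiset ι) : A :=
  ∑ f : Fin r ↪ Fin a, ∏ i, zm z (f i) (P i)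

lemma TT_zero (z : Fin a → ι → A) (P : Fin 0 → Multiset ι) : TT z P = 1 := by
  unfold TT
  have : Unique (Fin 0 ↪ Fin a) := ⟨⟨Function.Embedding.ofIsEmpty⟩, fun f => by
    ext i; exact i.elim0⟩
  simp

lemma TT_cons (z : Fin a → ι → A) {r : ℕ} (C : Multiset ι) (P : Fin r → Multiset ι) :
    TT z (Fin.cons C P : Fin (r + 1) → Multiset ι)
      = TT z P * pw z C - ∑ i, TT z (Function.update P i (P i + C)) := by
  classical
  unfold TT
  -- left side
  have hL : (∑ f : Fin (r + 1) ↪ Fin a,
        ∏ i, zm z (f i) ((Fin.cons C P : Fin (r + 1) → Multiset ι) i))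
      = ∑ e : Fin r ↪ Fin a, (∏ i, zm z (e i) (P i)) *
          ∑ l : {l : Fin a // l ∉ Set.range e}, zm z l.1 C := by
    rw [← (Equiv.embeddingFinSucc r (Fin a)).symm.sum_comp]
    rw [Fintype.sum_sigma]
    refine Finset.sum_congr rfl fun e _ => ?_
    rw [Finset.mul_sum]
    refine Finset.sum_congr rfl fun l _ => ?_
    rw [Fin.prod_univ_succ]
    simp [mul_comm]
  rw [hL]
  -- the sum over rows avoiding the range
  have hS : ∀ e : Fin r ↪ Fin a, ∑ l : {l : Fin a // l ∉ Set.range e}, zm z l.1 C
      = pw z C - ∑ i, zm z (e i) C := by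
    intro e
    unfold pw
    have h1 : ∑ l : Fin a, zm z l C
        = ∑ l ∈ Finset.univ.filter (fun l => l ∈ Set.range e), zm z l C
          + ∑ l ∈ Finset.univ.filter (fun l => l ∉ Set.range e), zm z l C :=
      (Finset.sum_filter_add_sum_filter_not _ _ _).symm
    have h2 : ∑ l ∈ Finset.univ.filter (fun l => l ∈ Set.range e), zm z l C
        = ∑ i, zm z (e i) C := by
      symm
      refine Finset.sum_bij (fun i _ => e i) (by simp) (fun _ _ _ _ h => e.injective h) ?_ (by simp)
      intro l hl
      simp only [Finset.mem_filter, Finset.mem_univ, true_and, Set.mem_range] at hl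
      obtain ⟨i, rfl⟩ := hl
      exact ⟨i, Finset.mem_univ _, rfl⟩
    have h3 : ∑ l : {l : Fin a // l ∉ Set.range e}, zm z l.1 C
        = ∑ l ∈ Finset.univ.filter (fun l => l ∉ Set.range e), zm z l C := by
      exact (Finset.sum_subtype (p := fun l => l ∉ Set.range e)
        (Finset.univ.filter (fun l => l ∉ Set.range e)) (by simp) (fun l => zm z l C)).symm
    rw [h3, h1, h2]; ring
  simp only [hS]
  -- right side
  rw [Finset.sum_mul]
  have hR : ∑ i, ∑ f : Fin r ↪ Fin a, ∏ k, zm z (f k) (Function.update P i (P i + C) k)
      = ∑ e : Fin r ↪ Fin a, (∏ k, zm z (e k) (P k)) * ∑ i, zm z (e i) C := by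
    rw [Finset.sum_comm]
    refine Finset.sum_congr rfl fun e _ => ?_
    rw [Finset.mul_sum]
    refine Finset.sum_congr rfl fun i _ => ?_
    rw [← Finset.mul_prod_erase _ _ (Finset.mem_univ i), ← Finset.mul_prod_erase _ _ (Finset.mem_univ i)]
    have : ∏ x ∈ Finset.univ.erase i, zm z (e x) (Function.update P i (P i + C) x)
        = ∏ x ∈ Finset.univ.erase i, zm z (e x) (P x) := by
      refine Finset.prod_congr rfl fun x hx => ?_
      rw [Function.update_of_ne (Finset.ne_of_mem_erase hx)]
    rw [this, Function.update_self, zm_add]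
    ring
  rw [hR, ← Finset.sum_sub_distrib]
  refine Finset.sum_congr rfl fun e _ => ?_
  ring

/-- Span of products of `d` elementary multisymmetric elements. -/
def VV (K : Type*) [Field K] [CharZero K] [Algebra K A] (z : Fin a → ι → A) (d : ℕ) :
    Submodule K A :=
  Submodule.span K {x | ∃ u : Fin d → Fin a → ι, x = ∏ j, TT z (fun l => ({u j l} : Multiset ι))}

lemma VV_mul (z : Fin a → ι → A) {d e : ℕ} {x y : A} (hx : x ∈ VV K z d) (hy : y ∈ VV K z e) :
    x * y ∈ VV K z (d + e) := by
  unfold VV at hx hy ⊢
  induction hx using Submodule.span_induction with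
  | zero => simp
  | add p q _ _ hp hq => rw [add_mul]; exact add_mem hp hq
  | smul c p _ hp => rw [smul_mul_assoc]; exact Submodule.smul_mem _ _ hp
  | mem x hx =>
    induction hy using Submodule.span_induction with
    | zero => simp
    | add p q _ _ hp hq => rw [mul_add]; exact add_mem hp hq
    | smul c p _ hp => rw [mul_smul_comm]; exact Submodule.smul_mem _ _ hp
    | mem y hy =>
      obtain ⟨u, rfl⟩ := hx
      obtain ⟨v, rfl⟩ := hy
      refine Submodule.subset_span ⟨Fin.append u v, ?_⟩
      rw [Fin.prod_univ_add]
      simp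

lemma one_mem_VV (z : Fin a → ι → A) : (1 : A) ∈ VV K z 0 :=
  Submodule.subset_span ⟨Fin.elim0, by simp⟩

lemma single_mem_VV (z : Fin a → ι → A) (c : Fin a → ι) :
    TT z (fun l => ({c l} : Multiset ι)) ∈ VV K z 1 :=
  Submodule.subset_span ⟨fun _ => c, by simp⟩

lemma TT_const (z : Fin a → ι → A) {i₀ : ι} (hz : ∀ l, z l i₀ = 1) :
    TT z (fun _ : Fin a => ({i₀} : Multiset ι)) = ((a.factorial : K) • (1 : A)) := by
  unfold TT
  simp only [zm_singleton, hz, Finset.prod_const_one, Finset.sum_const, Finset.card_univ]
  rw [Fintype.card_embedding_eq]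
  simp [Nat.descFactorial_self, Nat.cast_smul_eq_nsmul]

lemma VV_succ (z : Fin a → ι → A) {i₀ : ι} (hz : ∀ l, z l i₀ = 1) {d : ℕ} {x : A}
    (hx : x ∈ VV K z d) : x ∈ VV K z (d + 1) := by
  have h1 := VV_mul (K := K) z hx (single_mem_VV z (fun _ => i₀))
  rw [TT_const (K := K) z hz, mul_smul_comm, mul_one] at h1
  have hne : (a.factorial : K) ≠ 0 := by exact_mod_cast a.factorial_ne_zero
  have := Submodule.smul_mem _ ((a.factorial : K)⁻¹) h1
  rwa [smul_smul, inv_mul_cancel₀ hne, one_smul] at this

lemma VV_mono (z : Fin a → ι → A) {i₀ : ι} (hz : ∀ l, z l i₀ = 1) {d e : ℕ} (h : d ≤ e) {x : A}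
    (hx : x ∈ VV K z d) : x ∈ VV K z e := by
  induction e, h using Nat.le_induction with
  | base => exact hx
  | succ e _ ih => exact VV_succ z hz ih

lemma pw_eq_TT (z : Fin a → ι → A) (C : Multiset ι) : pw z C = TT z (fun _ : Fin 1 => C) := by
  have := TT_cons z C (Fin.elim0 : Fin 0 → Multiset ι)
  have h0 : (Fin.cons C (Fin.elim0 : Fin 0 → Multiset ι) : Fin 1 → Multiset ι) = fun _ => C := by
    ext1 i
    fin_cases i
    rfl
  rw [h0, TT_zero] at this
  simpa using this.symm

lemma TT_single_mem (z : Fin a → ι → A) {i₀ : ι} (hz : ∀ l, z l i₀ = 1) :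
    ∀ (n r : ℕ), r + n = a → ∀ x : Fin r → ι, TT z (fun i => ({x i} : Multiset ι)) ∈ VV K z 1 := by
  intro n
  induction n with
  | zero =>
    intro r hr x
    subst hr
    exact single_mem_VV z x
  | succ n ih =>
    intro r hr x
    have hcons := TT_cons z ({i₀} : Multiset ι) (fun i => ({x i} : Multiset ι))
    have h1 : (Fin.cons ({i₀} : Multiset ι) (fun i => ({x i} : Multiset ι)) :
        Fin (r + 1) → Multiset ι) = fun i => ({(Fin.cons i₀ x : Fin (r + 1) → ι) i} : Multiset ι) := by
      ext1 i
      refine Fin.cases ?_ ?_ i <;> simp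
    have hmem := ih (r + 1) (by omega) (Fin.cons i₀ x)
    rw [← h1, hcons] at hmem
    have h2 : pw z ({i₀} : Multiset ι) = (a : A) := by simp [pw, hz]
    have h3 : ∀ i, TT z (Function.update (fun i => ({x i} : Multiset ι)) i ({x i} + {i₀}))
        = TT z (fun i => ({x i} : Multiset ι)) := by
      intro i
      unfold TT
      refine Finset.sum_congr rfl fun e _ => Finset.prod_congr rfl fun k _ => ?_
      by_cases hk : k = i
      · subst hk
        rw [Function.update_self, zm_add]
        simp [hz]
      · simp [Function.update_of_ne hk]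
    simp only [h3, h2, Finset.sum_const, Finset.card_univ, Fintype.card_fin, nsmul_eq_mul] at hmem
    have h4 : TT z (fun i => ({x i} : Multiset ι)) * (a : A)
        - (r : A) * TT z (fun i => ({x i} : Multiset ι))
        = ((n + 1 : ℕ) : K) • TT z (fun i => ({x i} : Multiset ι)) := by
      have : (a : A) = (r : A) + ((n + 1 : ℕ) : A) := by rw [← hr]; push_cast; ring
      rw [this]
      rw [Nat.cast_smul_eq_nsmul, nsmul_eq_mul]
      ring
    rw [h4] at hmem
    have hne : ((n + 1 : ℕ) : K) ≠ 0 := by exact_mod_cast Nat.succ_ne_zero n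
    have := Submodule.smul_mem _ (((n + 1 : ℕ) : K)⁻¹) hmem
    rwa [smul_smul, inv_mul_cancel₀ hne, one_smul] at this

lemma TT_eq_zero_of_lt (z : Fin a → ι → A) {r : ℕ} (h : a < r) (P : Fin r → Multiset ι) :
    TT z P = 0 := by
  unfold TT
  have : IsEmpty (Fin r ↪ Fin a) :=
    Function.Embedding.isEmpty_of_card_lt (by simpa using h)
  simp

lemma exists_fun_of_card (n : ℕ) : ∀ (C : Multiset ι), Multiset.card C = n →
    ∃ ξ : Fin n → ι, ∑ i, ({ξ i} : Multiset ι) = C := by
  induction n with
  | zero =>
    intro C hC
    refine ⟨Fin.elim0, ?_⟩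
    simp [Multiset.card_eq_zero.mp hC]
  | succ n ih =>
    intro C hC
    obtain ⟨x, hx⟩ := Multiset.card_pos_iff_exists_mem.mp (by omega : 0 < Multiset.card C)
    obtain ⟨D, rfl⟩ := Multiset.exists_cons_of_mem hx
    obtain ⟨ξ, hξ⟩ := ih D (by simpa using hC)
    refine ⟨Fin.cons x ξ, ?_⟩
    rw [Fin.sum_univ_succ]
    simp [hξ, Multiset.singleton_add]

/-- A multisymmetric orbit sum of total degree `d` is in the span of products of `d` elementary
multisymmetric elements. -/
theorem TT_mem (z : Fin a → ι → A) {i₀ : ι} (hz : ∀ l, z l i₀ = 1) :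
    ∀ (d r : ℕ) (P : Fin r → Multiset ι), ∑ i, Multiset.card (P i) = d → TT z P ∈ VV K z d := by
  intro d
  induction d using Nat.strong_induction_on with
  | _ d IH =>
  -- the constants
  let κ : ℕ → K := fun r => (-1) ^ r * (r.factorial : K)
  have hκ : ∀ r, κ r ≠ 0 := by
    intro r
    simp only [κ]
    refine mul_ne_zero (pow_ne_zero _ (by norm_num)) ?_
    exact_mod_cast r.factorial_ne_zero
  have hκs : ∀ r : ℕ, κ (r + 1) = - ((r + 1 : ℕ) : K) * κ r := by
    intro r
    simp only [κ, Nat.factorial_succ, pow_succ]
    push_cast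
    ring
  -- step Q
  have hQ : ∀ (r : ℕ) (P : Fin (r + 1) → Multiset ι), (∀ i, P i ≠ 0) →
      ∑ i, Multiset.card (P i) = d → TT z P - κ r • pw z (∑ i, P i) ∈ VV K z d := by
    intro r
    induction r with
    | zero =>
      intro P _ _
      have h1 : (fun _ : Fin 1 => P 0) = P := by
        ext1 i
        fin_cases i
        rfl
      have : TT z P = pw z (P 0) := by
        rw [pw_eq_TT, h1]
      simp [this, κ]
    | succ r ih =>
      intro P hP hd
      have hPcons : (Fin.cons (P 0) (Fin.tail P) : Fin (r + 2) → Multiset ι) = P :=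
        Fin.cons_self_tail P
      set C := P 0 with hC
      set P' := Fin.tail P with hP'
      have hP'i : ∀ i, P' i ≠ 0 := fun i => hP i.succ
      have hCpos : 0 < Multiset.card C := Multiset.card_pos.mpr (hP 0)
      have hsum : Multiset.card C + ∑ i, Multiset.card (P' i) = d := by
        rw [← hd, Fin.sum_univ_succ (fun i => Multiset.card (P i))]
        rfl
      have hP'pos : 0 < ∑ i, Multiset.card (P' i) := by
        refine Finset.sum_pos' (fun _ _ => Nat.zero_le _) ⟨0, Finset.mem_univ _, ?_⟩
        exact Multiset.card_pos.mpr (hP'i 0)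
      have h1 : TT z P' * pw z C ∈ VV K z d := by
        have h1a := IH _ (by omega) _ P' rfl
        have h1b : pw z C ∈ VV K z (Multiset.card C) := by
          rw [pw_eq_TT]
          exact IH _ (by omega) _ _ (by simp)
        have := VV_mul (K := K) z h1a h1b
        rwa [show (∑ i, Multiset.card (P' i)) + Multiset.card C = d by omega] at this
      have hD : ∑ i, P i = C + ∑ i, P' i := by
        rw [Fin.sum_univ_succ (fun i => P i)]; rfl
      have h2 : ∀ i, TT z (Function.update P' i (P' i + C))
          - κ r • pw z (∑ i, P i) ∈ VV K z d := by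
        intro i
        have := ih (Function.update P' i (P' i + C)) ?_ ?_
        · have hsumeq : ∑ k, Function.update P' i (P' i + C) k = ∑ i, P i := by
            rw [hD, ← Finset.add_sum_erase _ _ (Finset.mem_univ i),
              Function.update_self, ← Finset.add_sum_erase (a := i) (Finset.univ) P' (Finset.mem_univ i)]
            have : ∑ x ∈ Finset.univ.erase i, Function.update P' i (P' i + C) x
                = ∑ x ∈ Finset.univ.erase i, P' x := by
              refine Finset.sum_congr rfl fun x hx => ?_
              rw [Function.update_of_ne (Finset.ne_of_mem_erase hx)]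
            rw [this]
            abel
          rwa [hsumeq] at this
        · intro k
          by_cases hk : k = i
          · subst hk
            rw [Function.update_self]
            intro h
            have h0 : P' k = 0 := by
              have := congrArg Multiset.card h
              simp only [Multiset.card_add, Multiset.card_zero] at this
              exact Multiset.card_eq_zero.mp (by omega)
            exact hP'i k h0
          · rw [Function.update_of_ne hk]
            exact hP'i k
        · have : ∑ k, Multiset.card (Function.update P' i (P' i + C) k)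
              = ∑ k, Multiset.card (P' k) + Multiset.card C := by
            rw [← Finset.add_sum_erase _ _ (Finset.mem_univ i),
              Function.update_self, ← Finset.add_sum_erase (a := i) (Finset.univ) (fun k => Multiset.card (P' k)) (Finset.mem_univ i)]
            have : ∑ x ∈ Finset.univ.erase i, Multiset.card (Function.update P' i (P' i + C) x)
                = ∑ x ∈ Finset.univ.erase i, Multiset.card (P' x) := by
              refine Finset.sum_congr rfl fun x hx => ?_
              rw [Function.update_of_ne (Finset.ne_of_mem_erase hx)]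
            rw [this, Multiset.card_add]
            omega
          rw [this]; omega
      rw [← hPcons, TT_cons]
      have hsumP : ∑ i, (Fin.cons (P 0) (Fin.tail P) : Fin (r + 2) → Multiset ι) i = ∑ i, P i := by
        rw [hPcons]
      rw [hsumP]
      have hh : TT z P' * pw z C - ∑ i, TT z (Function.update P' i (P' i + C))
            - κ (r + 1) • pw z (∑ i, P i)
          = TT z P' * pw z C
            - ∑ i, (TT z (Function.update P' i (P' i + C)) - κ r • pw z (∑ i, P i)) := by
        rw [Finset.sum_sub_distrib, hκs]
        simp only [Finset.sum_const, Finset.card_univ, Fintype.card_fin]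
        rw [neg_mul, neg_smul, mul_smul, Nat.cast_smul_eq_nsmul]
        abel
      rw [hh]
      exact sub_mem h1 (sum_mem fun i _ => h2 i)
  -- key: power sums
  have hkey : ∀ C : Multiset ι, Multiset.card C = d → 0 < d → pw z C ∈ VV K z d := by
    intro C hC hd
    obtain ⟨r, rfl⟩ : ∃ r, d = r + 1 := ⟨d - 1, by omega⟩
    obtain ⟨ξ, hξ⟩ := exists_fun_of_card (r + 1) C hC
    have h1 := hQ r (fun i => ({ξ i} : Multiset ι)) (by simp) (by simp)
    rw [hξ] at h1
    have h2 : TT z (fun i => ({ξ i} : Multiset ι)) ∈ VV K z (r + 1) := by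
      by_cases hr : r + 1 ≤ a
      · exact VV_mono z hz (by omega) (TT_single_mem (K := K) z hz (a - (r + 1)) (r + 1) (by omega) ξ)
      · rw [TT_eq_zero_of_lt z (by omega)]
        exact zero_mem _
    have h3 := sub_mem h2 h1
    rw [sub_sub_cancel] at h3
    have := Submodule.smul_mem _ (κ r)⁻¹ h3
    rwa [smul_smul, inv_mul_cancel₀ (hκ r), one_smul] at this
  -- step B
  intro r
  induction r with
  | zero =>
    intro P hd
    have : d = 0 := by rw [← hd]; simp
    subst this
    rw [TT_zero]
    exact one_mem_VV z
  | succ r ih =>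
    intro P hd
    have hPcons : (Fin.cons (P 0) (Fin.tail P) : Fin (r + 1) → Multiset ι) = P :=
      Fin.cons_self_tail P
    set C := P 0 with hC
    set P' := Fin.tail P with hP'
    have hsum : Multiset.card C + ∑ i, Multiset.card (P' i) = d := by
      rw [← hd, Fin.sum_univ_succ (fun i => Multiset.card (P i))]
      rfl
    rw [← hPcons, TT_cons]
    -- updates
    have h2 : ∀ i, TT z (Function.update P' i (P' i + C)) ∈ VV K z d := by
      intro i
      refine ih _ ?_
      have : ∑ k, Multiset.card (Function.update P' i (P' i + C) k)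
          = ∑ k, Multiset.card (P' k) + Multiset.card C := by
        rw [← Finset.add_sum_erase _ _ (Finset.mem_univ i),
          Function.update_self, ← Finset.add_sum_erase (a := i) (Finset.univ) (fun k => Multiset.card (P' k)) (Finset.mem_univ i)]
        have : ∑ x ∈ Finset.univ.erase i, Multiset.card (Function.update P' i (P' i + C) x)
            = ∑ x ∈ Finset.univ.erase i, Multiset.card (P' x) := by
          refine Finset.sum_congr rfl fun x hx => ?_
          rw [Function.update_of_ne (Finset.ne_of_mem_erase hx)]
        rw [this, Multiset.card_add]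
        omega
      rw [this]; omega
    refine sub_mem ?_ (sum_mem fun i _ => h2 i)
    by_cases hC0 : C = 0
    · -- empty block
      have h3 : TT z P' ∈ VV K z d := ih _ (by rw [hC0] at hsum; simpa using hsum)
      rw [hC0]
      have : pw z (0 : Multiset ι) = ((a : K) • (1 : A)) := by
        simp [pw, Nat.cast_smul_eq_nsmul]
      rw [this, mul_smul_comm, mul_one]
      exact Submodule.smul_mem _ _ h3
    · have hCpos : 0 < Multiset.card C := Multiset.card_pos.mpr hC0
      have h1a : TT z P' ∈ VV K z (∑ i, Multiset.card (P' i)) := IH _ (by omega) _ P' rfl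
      have h1b : pw z C ∈ VV K z (Multiset.card C) := by
        by_cases hlt : Multiset.card C < d
        · rw [pw_eq_TT]
          exact IH _ hlt _ _ (by simp)
        · have : Multiset.card C = d := by omega
          rw [this]
          exact hkey C this (by omega)
      have := VV_mul (K := K) z h1a h1b
      rwa [show (∑ i, Multiset.card (P' i)) + Multiset.card C = d by omega] at this

end Vale.Agent.helper5.Foulkes
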