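import Vale.Agent.helper5.FoulkesCount

namespace Vale.Agent.helper5.Foulkes

open Finset

variable {ι : Type*} [DecidableEq ι] {a b : ℕ}

lemma card_pi_perm {m n : ℕ} (g h : Fin m → Fin n → ι) :
    (univ.filter fun σ : Fin m → Equiv.Perm (Fin n) => ∀ i, g i ∘ σ i = h i).card
      = if ∀ i, ∃ ρ : Equiv.Perm (Fin n), g i ∘ ρ = h i then ∏ i, st (g i) else 0 := by
  have h1 : (univ.filter fun σ : Fin m → Equiv.Perm (Fin n) => ∀ i, g i ∘ σ i = h i)
      = Fintype.piFinset (fun i => univ.filter fun ρ : Equiv.Perm (Fin n) => g i ∘ ρ = h i) := by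
    ext σ
    simp [Fintype.mem_piFinset]
  rw [h1, Fintype.card_piFinset]
  split_ifs with hh
  · exact Finset.prod_congr rfl fun i _ => card_perm_of_exists _ _ (hh i)
  · push Not at hh
    obtain ⟨i, hi⟩ := hh
    exact Finset.prod_eq_zero (Finset.mem_univ i)
      (card_perm_of_not_exists _ _ (by push Not; exact hi))

/-- Rearranged array. -/
def rearr (w : Fin a → Fin b → ι) (σ : Fin a → Equiv.Perm (Fin b)) : Fin a → Fin b → ι :=
  fun l j => w l (σ l j)

/-- Column of an array. -/
def colOf (v : Fin a → Fin b → ι) (j : Fin b) : Fin a → ι := fun l => v l j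

/-- Transpose. -/
def tr (u : Fin b → Fin a → ι) : Fin a → Fin b → ι := fun l j => u j l

/-- Rearrangements of `w` whose columns match those of `u`, in order. -/
def XX (w : Fin a → Fin b → ι) (u : Fin b → Fin a → ι) : Finset (Fin a → Equiv.Perm (Fin b)) :=
  univ.filter fun σ => ∀ j, ∃ ρ : Equiv.Perm (Fin a), u j ∘ ρ = colOf (rearr w σ) j

/-- Pairs of rearrangements making `w` and `u` agree. -/
def NN (w : Fin a → Fin b → ι) (u : Fin b → Fin a → ι) : ℕ :=
  (univ.filter fun p : (Fin a → Equiv.Perm (Fin b)) × (Fin b → Equiv.Perm (Fin a)) =>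
    ∀ l j, w l (p.1 l j) = u j (p.2 j l)).card

/-- Array built from the columns `u` rearranged by `τ`. -/
def AA (u : Fin b → Fin a → ι) (τ : Fin b → Equiv.Perm (Fin a)) : Fin a → Fin b → ι :=
  fun r j => u j (τ j r)

lemma NN_eq_X (w : Fin a → Fin b → ι) (u : Fin b → Fin a → ι) :
    NN w u = (XX w u).card * ∏ j, st (u j) := by
  unfold NN
  rw [Finset.card_filter, Fintype.sum_prod_type]
  have h1 : ∀ σ : Fin a → Equiv.Perm (Fin b),
      (∑ τ : Fin b → Equiv.Perm (Fin a), if ∀ l j, w l (σ l j) = u j (τ j l) then 1 else 0)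
        = if σ ∈ XX w u then ∏ j, st (u j) else 0 := by
    intro σ
    rw [← Finset.card_filter]
    have h2 : (univ.filter fun τ : Fin b → Equiv.Perm (Fin a) => ∀ l j, w l (σ l j) = u j (τ j l))
        = univ.filter fun τ : Fin b → Equiv.Perm (Fin a) => ∀ j, u j ∘ τ j = colOf (rearr w σ) j := by
      ext τ
      simp only [mem_filter, mem_univ, true_and]
      constructor
      · intro h j
        funext l
        exact (h l j).symm
      · intro h l j
        exact (congrFun (h j) l).symm
    rw [h2, card_pi_perm]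
    simp [XX]
  simp only [h1]
  rw [Finset.sum_ite, Finset.sum_const_zero, add_zero, Finset.sum_const, smul_eq_mul]
  congr 2
  ext σ
  simp

lemma NN_eq_tau (w : Fin a → Fin b → ι) (u : Fin b → Fin a → ι) :
    NN w u = (univ.filter fun τ : Fin b → Equiv.Perm (Fin a) =>
        ∀ l, ∃ ρ : Equiv.Perm (Fin b), w l ∘ ρ = AA u τ l).card * ∏ l, st (w l) := by
  unfold NN
  rw [Finset.card_filter, Fintype.sum_prod_type_right]
  have h1 : ∀ τ : Fin b → Equiv.Perm (Fin a),
      (∑ σ : Fin a → Equiv.Perm (Fin b), if ∀ l j, w l (σ l j) = u j (τ j l) then 1 else 0)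
        = if ∀ l, ∃ ρ : Equiv.Perm (Fin b), w l ∘ ρ = AA u τ l then ∏ l, st (w l) else 0 := by
    intro τ
    rw [← Finset.card_filter]
    have h2 : (univ.filter fun σ : Fin a → Equiv.Perm (Fin b) => ∀ l j, w l (σ l j) = u j (τ j l))
        = univ.filter fun σ : Fin a → Equiv.Perm (Fin b) => ∀ l, w l ∘ σ l = AA u τ l := by
      ext σ
      simp only [mem_filter, mem_univ, true_and]
      constructor
      · intro h l
        funext j
        exact h l j
      · intro h l j
        exact congrFun (h l) j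
    rw [h2, card_pi_perm]
  simp only [h1]
  rw [Finset.sum_ite, Finset.sum_const_zero, add_zero, Finset.sum_const, smul_eq_mul]

lemma XX_comp (w : Fin a → Fin b → ι) (u : Fin b → Fin a → ι) (π : Equiv.Perm (Fin b)) :
    (XX w (u ∘ π)).card = (XX w u).card := by
  symm
  refine Finset.card_bij (fun σ _ => fun l => σ l * π) ?_ ?_ ?_
  · intro σ hσ
    simp only [XX, mem_filter, mem_univ, true_and] at hσ ⊢
    intro j
    obtain ⟨ρ, hρ⟩ := hσ (π j)
    refine ⟨ρ, ?_⟩
    have e : colOf (rearr w fun l => σ l * π) j = colOf (rearr w σ) (π j) := rfl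
    rw [e]
    exact hρ
  · intro σ _ σ' _ h
    funext l
    exact mul_right_cancel (congrFun h l)
  · intro σ hσ
    refine ⟨fun l => σ l * π⁻¹, ?_, by simp⟩
    simp only [XX, mem_filter, mem_univ, true_and] at hσ ⊢
    intro j
    obtain ⟨ρ, hρ⟩ := hσ (π⁻¹ j)
    refine ⟨ρ, ?_⟩
    have : (u ∘ π) (π⁻¹ j) = u j := by simp
    rw [this] at hρ
    have e : colOf (rearr w fun l => σ l * π⁻¹) j = colOf (rearr w σ) (π⁻¹ j) := rfl
    rw [e]
    exact hρ

lemma sum_XX (w : Fin a → Fin b → ι) (u : Fin b → Fin a → ι) :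
    ∑ π : Equiv.Perm (Fin b), (XX w (u ∘ π)).card
      = (univ.filter fun σ : Fin a → Equiv.Perm (Fin b) =>
          colsOf (rearr w σ) = colsOf (tr u)).card * st (fun j => symOf (u j)) := by
  have h1 : ∀ π : Equiv.Perm (Fin b), (XX w (u ∘ π)).card
      = ∑ σ : Fin a → Equiv.Perm (Fin b), if (fun j => symOf (u j)) ∘ π
          = fun j => symOf (colOf (rearr w σ) j) then 1 else 0 := by
    intro π
    unfold XX
    rw [Finset.card_filter]
    refine Finset.sum_congr rfl fun σ _ => ?_
    have : (∀ j, ∃ ρ : Equiv.Perm (Fin a), (u ∘ π) j ∘ ρ = colOf (rearr w σ) j)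
        ↔ (fun j => symOf (u j)) ∘ π = fun j => symOf (colOf (rearr w σ) j) := by
      constructor
      · intro h
        funext j
        exact (symOf_eq_iff _ _).mpr (h j)
      · intro h j
        exact (symOf_eq_iff _ _).mp (congrFun h j)
    simp only [this]
  simp only [h1]
  rw [Finset.sum_comm]
  have h2 : ∀ σ : Fin a → Equiv.Perm (Fin b),
      (∑ π : Equiv.Perm (Fin b), if (fun j => symOf (u j)) ∘ π
          = fun j => symOf (colOf (rearr w σ) j) then 1 else 0)
        = if colsOf (rearr w σ) = colsOf (tr u) then st (fun j => symOf (u j)) else 0 := by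
    intro σ
    rw [← Finset.card_filter]
    have hiff : colsOf (rearr w σ) = colsOf (tr u) ↔ ∃ π : Equiv.Perm (Fin b),
        (fun j => symOf (u j)) ∘ π = fun j => symOf (colOf (rearr w σ) j) := by
      rw [eq_comm]
      exact symOf_eq_iff _ _
    split_ifs with hc
    · exact card_perm_of_exists _ _ (hiff.mp hc)
    · exact card_perm_of_not_exists _ _ (fun h => hc (hiff.mpr h))
  simp only [h2]
  rw [Finset.sum_ite, Finset.sum_const_zero, add_zero, Finset.sum_const, smul_eq_mul]

/-- The adjointness relation. -/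
lemma adjoint_count (w : Fin a → Fin b → ι) (u : Fin b → Fin a → ι) :
    (univ.filter fun σ : Fin a → Equiv.Perm (Fin b) =>
          colsOf (rearr w σ) = colsOf (tr u)).card * (st (fun j => symOf (u j)) * ∏ j, st (u j))
      = b.factorial * ((univ.filter fun τ : Fin b → Equiv.Perm (Fin a) =>
        ∀ l, ∃ ρ : Equiv.Perm (Fin b), w l ∘ ρ = AA u τ l).card * ∏ l, st (w l)) := by
  rw [← mul_assoc, ← sum_XX, ← NN_eq_tau, NN_eq_X]
  simp only [XX_comp]
  rw [Finset.sum_const, smul_eq_mul, Finset.card_univ, Fintype.card_perm, Fintype.card_fin, mul_assoc]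

end Vale.Agent.helper5.Foulkes
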