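import Vale.Agent.helper5.FoulkesDefs
import Vale.Agent.helper5.FoulkesAlg

namespace Vale.Agent.helper5.Foulkes

open Finset

section perms

variable {α : Type*} {n : ℕ}

lemma symOf_perm (g : Fin n → α) (ρ : Equiv.Perm (Fin n)) : symOf (g ∘ ρ) = symOf g := by
  apply Subtype.ext
  show Multiset.map (g ∘ ρ) Finset.univ.val = Multiset.map g Finset.univ.val
  rw [← Multiset.map_map, Multiset.map_univ_val_equiv]

lemma exists_perm_of_counts [DecidableEq α] (g h : Fin n → α)
    (hc : ∀ i, (univ.filter fun j => g j = i).card = (univ.filter fun j => h j = i).card) :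
    ∃ ρ : Equiv.Perm (Fin n), g ∘ ρ = h := by
  classical
  have hfib : ∀ i, Nonempty ({j // h j = i} ≃ {j // g j = i}) := by
    intro i
    apply Fintype.card_eq.mp
    rw [Fintype.card_subtype, Fintype.card_subtype]
    convert (hc i).symm
  let e := fun i => (hfib i).some
  let ρ : Fin n ≃ Fin n :=
    (Equiv.sigmaFiberEquiv h).symm.trans
      ((Equiv.sigmaCongrRight e).trans (Equiv.sigmaFiberEquiv g))
  refine ⟨ρ, ?_⟩
  funext j
  show g ((e (h j)) ⟨j, rfl⟩).1 = h j
  exact ((e (h j)) ⟨j, rfl⟩).2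

lemma count_map_univ [DecidableEq α] (g : Fin n → α) (i : α) :
    Multiset.count i (Multiset.map g Finset.univ.val) = (univ.filter fun j => g j = i).card := by
  rw [Multiset.count_map]
  show Multiset.card _ = Multiset.card _
  congr 1
  apply Multiset.filter_congr
  intro x _
  exact eq_comm

lemma symOf_eq_iff (g h : Fin n → α) : symOf g = symOf h ↔ ∃ ρ : Equiv.Perm (Fin n), g ∘ ρ = h := by
  classical
  constructor
  · intro e
    apply exists_perm_of_counts
    intro i
    have h1 := congrArg (Multiset.count i) (congrArg Subtype.val e)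
    simp only [symOf] at h1
    rwa [count_map_univ, count_map_univ] at h1
  · rintro ⟨ρ, rfl⟩
    exact (symOf_perm g ρ).symm

lemma symOf_surj (n : ℕ) (s : Sym α n) : ∃ g : Fin n → α, symOf g = s := by
  classical
  rcases s with ⟨C, hC⟩
  induction n generalizing C with
  | zero =>
    refine ⟨Fin.elim0, Subtype.ext ?_⟩
    simp [symOf, Multiset.card_eq_zero.mp hC]
  | succ n ih =>
    obtain ⟨x, hx⟩ := Multiset.card_pos_iff_exists_mem.mp (by omega : 0 < Multiset.card C)
    obtain ⟨D, rfl⟩ := Multiset.exists_cons_of_mem hx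
    obtain ⟨g, hg⟩ := ih D (by simpa using hC)
    refine ⟨Fin.cons x g, Subtype.ext ?_⟩
    have hg' : Multiset.map g Finset.univ.val = D := congrArg Subtype.val hg
    show Multiset.map (Fin.cons x g : Fin (n + 1) → α) Finset.univ.val = x ::ₘ D
    rw [← hg', Fin.univ_succ]
    simp [Function.comp_def]

/-- The number of permutations fixing `g`. -/
def st [DecidableEq α] (g : Fin n → α) : ℕ :=
  (univ.filter fun ρ : Equiv.Perm (Fin n) => g ∘ ρ = g).card

lemma st_pos [DecidableEq α] (g : Fin n → α) : 0 < st g :=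
  Finset.card_pos.mpr ⟨1, by simp⟩

lemma card_perm_of_exists [DecidableEq α] (g h : Fin n → α) (hh : ∃ ρ : Equiv.Perm (Fin n), g ∘ ρ = h) :
    (univ.filter fun ρ : Equiv.Perm (Fin n) => g ∘ ρ = h).card = st g := by
  obtain ⟨ρ₀, rfl⟩ := hh
  unfold st
  refine Finset.card_bij (fun ρ _ => ρ * ρ₀⁻¹) ?_ ?_ ?_
  · intro ρ hρ
    simp only [mem_filter, mem_univ, true_and] at hρ ⊢
    funext x
    have := congrFun hρ (ρ₀⁻¹ x)
    simpa using this
  · intro ρ _ ρ' _ h
    exact mul_right_cancel h
  · intro ρ hρ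
    refine ⟨ρ * ρ₀, ?_, by simp⟩
    simp only [mem_filter, mem_univ, true_and] at hρ ⊢
    funext x
    have := congrFun hρ (ρ₀ x)
    simpa using this

lemma card_perm_of_not_exists [DecidableEq α] (g h : Fin n → α) (hh : ¬ ∃ ρ : Equiv.Perm (Fin n), g ∘ ρ = h) :
    (univ.filter fun ρ : Equiv.Perm (Fin n) => g ∘ ρ = h).card = 0 := by
  rw [Finset.card_eq_zero, Finset.filter_eq_empty_iff]
  exact fun ρ _ hρ => hh ⟨ρ, hρ⟩

end perms

end Vale.Agent.helper5.Foulkes
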