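import Mathlib

/-!
Plain definitions for the Foulkes-Howe map in the monomial basis.
`Sym α n` is Mathlib's type of unordered `n`-tuples.  For letters `ι` (a basis of `V`) the type
`Sym ι b` is the monomial basis of `Sym^b V`, and `Sym (Sym ι b) a` is the monomial basis of
`Sym^a (Sym^b V)`.
-/

namespace Vale.Agent.helper5.Foulkes

/-- The unordered tuple of the values of `g`. -/
def symOf {α : Type*} {n : ℕ} (g : Fin n → α) : Sym α n :=
  ⟨Multiset.map g Finset.univ.val, by simp⟩

variable {ι : Type*} {a b : ℕ}

/-- Basis monomial of `Sym^a (Sym^b V)`: the product over the `a` rows of the array `w`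
of the product of the `b` letters in that row. -/
def rowsOf (w : Fin a → Fin b → ι) : Sym (Sym ι b) a :=
  symOf fun l => symOf (w l)

/-- Basis monomial of `Sym^b (Sym^a V)`: the product over the `b` columns of the array `w`
of the product of the `a` letters in that column. -/
def colsOf (w : Fin a → Fin b → ι) : Sym (Sym ι a) b :=
  symOf fun j => symOf fun l => w l j

/-- The defining formula of the Foulkes-Howe map on basis monomials: arrange the letters in
`a` rows of length `b`, permute inside each row, and multiply along columns. -/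
def IsFoulkesHowe (Ψ : (Sym (Sym ι b) a →₀ ℂ) →ₗ[ℂ] (Sym (Sym ι a) b →₀ ℂ)) : Prop :=
  ∀ w : Fin a → Fin b → ι, Ψ (Finsupp.single (rowsOf w) 1) =
    ∑ σ : Fin a → Equiv.Perm (Fin b), Finsupp.single (colsOf fun l j => w l (σ l j)) (1 : ℂ)

/-- Total number of occurrences of the letter `i` in a basis monomial of `Sym^a (Sym^b V)`. -/
def letterCount [DecidableEq ι] (s : Sym (Sym ι b) a) (i : ι) : ℕ :=
  ((s : Multiset (Sym ι b)).map fun m : Sym ι b => (m : Multiset ι).count i).sum

/-- The action on `Sym^a (Sym^b V)` of the elementary matrix sending the basis vector `y` to the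
basis vector `x`: it acts as a derivation, replacing one occurrence of the letter `y` by `x`. -/
def IsRaising [DecidableEq ι] (x y : ι) (E : (Sym (Sym ι b) a →₀ ℂ) →ₗ[ℂ] (Sym (Sym ι b) a →₀ ℂ)) :
    Prop :=
  ∀ w : Fin a → Fin b → ι, E (Finsupp.single (rowsOf w) 1) =
    ∑ l, ∑ j, if w l j = y then
      Finsupp.single (rowsOf (Function.update w l (Function.update (w l) j x))) (1 : ℂ) else 0

/-- Highest weight vectors of weight `lam` in `Sym^a (Sym^b V)`, for letters with a linear order:
vectors of weight `lam` killed by all the elementary matrices `E x y` with `x < y`. -/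
def hwSpace [LinearOrder ι]
    (E : ι → ι → (Sym (Sym ι b) a →₀ ℂ) →ₗ[ℂ] (Sym (Sym ι b) a →₀ ℂ)) (lam : ι → ℕ) :
    Submodule ℂ (Sym (Sym ι b) a →₀ ℂ) where
  carrier := {f | (∀ s ∈ f.support, ∀ i, letterCount s i = lam i) ∧ ∀ x y, x < y → E x y f = 0}
  add_mem' := by
    intro f g hf hg
    refine ⟨fun s hs i => ?_, fun x y hxy => ?_⟩
    · rcases Finset.mem_union.mp (Finsupp.support_add hs) with h | h
      · exact hf.1 s h i
      · exact hg.1 s h i
    · rw [map_add, hf.2 x y hxy, hg.2 x y hxy, add_zero]
  zero_mem' := by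
    refine ⟨fun s hs _ => ?_, fun x y _ => map_zero _⟩
    simp at hs
  smul_mem' := by
    intro c f hf
    refine ⟨fun s hs i => hf.1 s (Finsupp.support_smul hs) i, fun x y hxy => ?_⟩
    rw [map_smul, hf.2 x y hxy, smul_zero]

end Vale.Agent.helper5.Foulkes
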