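import Vale.Agent.helper5.FoulkesArr

namespace Vale.Agent.helper5.Foulkes

open Finset MvPolynomial

variable {ι : Type*} [DecidableEq ι] {a b : ℕ}

/-- The row variables, with the letter `i₀` set to `1`. -/
noncomputable def zz (i₀ : ι) : Fin a → ι → MvPolynomial (Fin a × ι) ℂ :=
  fun l i => if i = i₀ then 1 else X (l, i)

/-- Exponent of the monomial of an array. -/
noncomputable def ex (i₀ : ι) (w : Fin a → Fin b → ι) : (Fin a × ι) →₀ ℕ :=
  ∑ l, ∑ j, if w l j = i₀ then 0 else Finsupp.single (l, w l j) 1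

lemma zz_eq (i₀ : ι) (l : Fin a) (i : ι) :
    zz i₀ l i = monomial (if i = i₀ then 0 else Finsupp.single (l, i) 1) (1 : ℂ) := by
  unfold zz
  split_ifs with h
  · simp
  · rfl

lemma prod_zz (i₀ : ι) (w : Fin a → Fin b → ι) :
    ∏ l, ∏ j, zz i₀ l (w l j) = monomial (ex i₀ w) (1 : ℂ) := by
  unfold ex
  simp only [zz_eq]
  simp only [← MvPolynomial.monomial_sum_one]

lemma ex_apply (i₀ : ι) (w : Fin a → Fin b → ι) (l₀ : Fin a) (i : ι) (hi : i ≠ i₀) :
    ex i₀ w (l₀, i) = (univ.filter fun j => w l₀ j = i).card := by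
  unfold ex
  simp only [Finsupp.coe_finsetSum, Finset.sum_apply]
  rw [Finset.sum_eq_single l₀]
  · rw [Finset.card_filter]
    refine Finset.sum_congr rfl fun j _ => ?_
    by_cases hji : w l₀ j = i
    · rw [hji]
      simp [hi]
    · by_cases hj : w l₀ j = i₀
      · simp [hj, hi.symm]
      · simp [hj, hji, Finsupp.single_apply]
  · intro l _ hl
    refine Finset.sum_eq_zero fun j _ => ?_
    split_ifs
    · simp
    · simp [Finsupp.single_apply, hl]
  · simp

lemma counts_i₀ (g h : Fin b → ι) (i₀ : ι)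
    (hc : ∀ i, i ≠ i₀ → (univ.filter fun j => g j = i).card = (univ.filter fun j => h j = i).card) :
    (univ.filter fun j => g j = i₀).card = (univ.filter fun j => h j = i₀).card := by
  let T : Finset ι := (univ.image g) ∪ (univ.image h) ∪ {i₀}
  have hg : b = ∑ i ∈ T, (univ.filter fun j => g j = i).card := by
    have := Finset.card_eq_sum_card_fiberwise (f := g) (s := univ) (t := T)
      (fun j _ => by simp [T])
    simpa using this
  have hh : b = ∑ i ∈ T, (univ.filter fun j => h j = i).card := by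
    have := Finset.card_eq_sum_card_fiberwise (f := h) (s := univ) (t := T)
      (fun j _ => by simp [T])
    simpa using this
  have hi₀ : i₀ ∈ T := by simp [T]
  rw [← Finset.add_sum_erase _ _ hi₀] at hg hh
  have : ∑ i ∈ T.erase i₀, (univ.filter fun j => g j = i).card
      = ∑ i ∈ T.erase i₀, (univ.filter fun j => h j = i).card :=
    Finset.sum_congr rfl fun i hi => hc i (Finset.ne_of_mem_erase hi)
  omega

lemma ex_eq_iff (i₀ : ι) (w w' : Fin a → Fin b → ι) :
    ex i₀ w = ex i₀ w' ↔ ∀ l, ∃ ρ : Equiv.Perm (Fin b), w l ∘ ρ = w' l := by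
  constructor
  · intro h l
    apply exists_perm_of_counts
    have h1 : ∀ i, i ≠ i₀ → (univ.filter fun j => w l j = i).card
        = (univ.filter fun j => w' l j = i).card := by
      intro i hi
      rw [← ex_apply i₀ w l i hi, ← ex_apply i₀ w' l i hi, h]
    intro i
    by_cases hi : i = i₀
    · subst hi
      exact counts_i₀ _ _ _ h1
    · exact h1 i hi
  · intro h
    choose ρ hρ using h
    unfold ex
    refine Finset.sum_congr rfl fun l _ => ?_
    rw [← hρ l]
    simp only [Function.comp_apply]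
    exact (Equiv.sum_comp (ρ l) (fun j => if w l j = i₀ then 0 else Finsupp.single (l, w l j) 1)).symm

/-- The sum over permutations form of the orbit sum. -/
lemma TT_perm (z : Fin a → ι → MvPolynomial (Fin a × ι) ℂ) (P : Fin a → Multiset ι) :
    TT z P = ∑ τ : Equiv.Perm (Fin a), ∏ r, zm z r (P (τ r)) := by
  unfold TT
  refine Fintype.sum_equiv ((Equiv.embeddingEquivOfFinite (Fin a)).trans (Equiv.inv _)) _ _ ?_
  intro f
  set τ₀ := Equiv.embeddingEquivOfFinite (Fin a) f with hτ₀
  have hτ : ∀ i, τ₀ i = f i := fun i => rfl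
  show _ = ∏ r, zm z r (P (τ₀⁻¹ r))
  rw [← Equiv.prod_comp τ₀ (fun r => zm z r (P (τ₀⁻¹ r)))]
  refine Finset.prod_congr rfl fun i _ => ?_
  have h3 : τ₀⁻¹ (τ₀ i) = i := by simp
  rw [h3, hτ]

lemma TT_singleton (i₀ : ι) (c : Fin a → ι) :
    TT (zz i₀) (fun l => ({c l} : Multiset ι))
      = ∑ τ : Equiv.Perm (Fin a), ∏ r, zz i₀ r (c (τ r)) := by
  rw [TT_perm]
  simp

lemma prod_E (i₀ : ι) (u : Fin b → Fin a → ι) :
    ∏ j, TT (zz i₀) (fun l => ({u j l} : Multiset ι))
      = ∑ τ : Fin b → Equiv.Perm (Fin a), monomial (ex i₀ (AA u τ)) (1 : ℂ) := by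
  simp only [TT_singleton]
  rw [Finset.prod_univ_sum, Fintype.piFinset_univ]
  refine Finset.sum_congr rfl fun τ _ => ?_
  rw [← prod_zz, Finset.prod_comm]
  rfl

lemma zm_filter (i₀ : ι) (r : Fin a) (C : Multiset ι) :
    zm (zz i₀) r (C.filter (· ≠ i₀)) = zm (zz i₀) r C := by
  induction C using Multiset.induction_on with
  | empty => simp
  | cons x C ih =>
    by_cases hx : x = i₀
    · have : Multiset.filter (· ≠ i₀) (x ::ₘ C) = Multiset.filter (· ≠ i₀) C := by
        rw [Multiset.filter_cons_of_neg]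
        simpa using hx
      rw [this, ih]
      simp [zm, zz, hx]
    · rw [Multiset.filter_cons_of_pos _ (by simpa using hx)]
      simp only [zm, Multiset.map_cons, Multiset.prod_cons] at ih ⊢
      rw [ih]

/-- The stripped rows of an array. -/
def stripped (i₀ : ι) (w : Fin a → Fin b → ι) (l : Fin a) : Multiset ι :=
  (Multiset.map (w l) Finset.univ.val).filter (· ≠ i₀)

lemma orbit_eq (i₀ : ι) (w : Fin a → Fin b → ι) :
    TT (zz i₀) (stripped i₀ w)
      = ∑ τ : Equiv.Perm (Fin a), monomial (ex i₀ (fun r => w (τ r))) (1 : ℂ) := by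
  rw [TT_perm]
  refine Finset.sum_congr rfl fun τ _ => ?_
  rw [← prod_zz]
  refine Finset.prod_congr rfl fun r _ => ?_
  unfold stripped
  rw [zm_filter]
  show ((Multiset.map (w (τ r)) Finset.univ.val).map (zz i₀ r)).prod = _
  rw [Multiset.map_map]
  rfl

lemma card_stripped (i₀ : ι) (w : Fin a → Fin b → ι) (l : Fin a) :
    Multiset.card (stripped i₀ w l) + (univ.filter fun j => w l j = i₀).card = b := by
  have h1 : Multiset.card (stripped i₀ w l) = (univ.filter fun j => w l j ≠ i₀).card := by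
    unfold stripped
    rw [Multiset.filter_map, Multiset.card_map]
    rfl
  rw [h1]
  have := Finset.card_filter_add_card_filter_not (s := (univ : Finset (Fin b))) (fun j => w l j ≠ i₀)
  simp only [not_not] at this
  simpa using this

lemma letterCount_rowsOf (w : Fin a → Fin b → ι) (i : ι) :
    letterCount (rowsOf w) i = ∑ l, (univ.filter fun j => w l j = i).card := by
  unfold letterCount rowsOf
  show (Multiset.map (fun m : Sym ι b => Multiset.count i (m : Multiset ι))
      (Multiset.map (fun l => symOf (w l)) Finset.univ.val)).sum = _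
  rw [Multiset.map_map]
  refine Finset.sum_congr rfl fun l _ => ?_
  exact count_map_univ (w l) i

lemma exists_rows (s : Sym (Sym ι b) a) : ∃ w : Fin a → Fin b → ι, rowsOf w = s := by
  obtain ⟨g, hg⟩ := symOf_surj a s
  choose w hw using fun l => symOf_surj b (g l)
  refine ⟨w, ?_⟩
  unfold rowsOf
  rw [← hg]
  congr 1
  funext l
  exact hw l

lemma rowsOf_eq_of_ex (i₀ : ι) (w w' : Fin a → Fin b → ι) (τ : Equiv.Perm (Fin a))
    (h : ex i₀ (fun r => w (τ r)) = ex i₀ w') : rowsOf w = rowsOf w' := by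
  rw [ex_eq_iff] at h
  unfold rowsOf
  rw [symOf_eq_iff]
  refine ⟨τ, ?_⟩
  funext l
  exact (symOf_eq_iff _ _).mpr (h l)

variable {Ψ : (Sym (Sym ι b) a →₀ ℂ) →ₗ[ℂ] (Sym (Sym ι a) b →₀ ℂ)}

lemma coeff_PsiCol (hΨ : IsFoulkesHowe Ψ) (w : Fin a → Fin b → ι) (t : Sym (Sym ι a) b) :
    (Ψ (Finsupp.single (rowsOf w) 1)) t
      = ((univ.filter fun σ : Fin a → Equiv.Perm (Fin b) => colsOf (rearr w σ) = t).card : ℂ) := by
  rw [hΨ w, Finsupp.finsetSum_apply, Finset.card_filter]
  push_cast
  refine Finset.sum_congr rfl fun σ _ => ?_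
  rw [Finsupp.single_apply]
  rfl

/-- Main statement. -/
theorem kernel_support (hΨ : IsFoulkesHowe Ψ) (f : Sym (Sym ι b) a →₀ ℂ) (hf : Ψ f = 0)
    (s₀ : Sym (Sym ι b) a) (i₀ : ι) (hcount : a * b ≤ letterCount s₀ i₀ + b) : f s₀ = 0 := by
  classical
  choose rep hrep using (exists_rows (ι := ι) (a := a) (b := b))
  -- the functional
  let A : Sym (Sym ι b) a → ℂ := fun s => ((∏ l, st (rep s l) : ℕ) : ℂ)
  have hA : ∀ s, A s ≠ 0 := by
    intro s
    simp only [A]
    exact_mod_cast (Finset.prod_pos fun l _ => st_pos _).ne'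
  let L : MvPolynomial (Fin a × ι) ℂ → ℂ :=
    fun Q => ∑ s ∈ f.support, f s * A s * coeff (ex i₀ (rep s)) Q
  have hLadd : ∀ x y, L (x + y) = L x + L y := by
    intro x y
    simp only [L, coeff_add, mul_add, Finset.sum_add_distrib]
  have hLsmul : ∀ (c : ℂ) x, L (c • x) = c * L x := by
    intro c x
    simp only [L, coeff_smul, smul_eq_mul, Finset.mul_sum]
    refine Finset.sum_congr rfl fun s _ => ?_
    ring
  have hLzero : L 0 = 0 := by simp [L]
  -- expansion of `Ψ f`
  have hexp : ∀ t : Sym (Sym ι a) b,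
      (Ψ f) t = ∑ s ∈ f.support, f s *
        ((univ.filter fun σ : Fin a → Equiv.Perm (Fin b) => colsOf (rearr (rep s) σ) = t).card : ℂ) := by
    intro t
    conv_lhs => rw [← Finsupp.sum_single f]
    rw [Finsupp.sum, map_sum, Finsupp.finsetSum_apply]
    refine Finset.sum_congr rfl fun s _ => ?_
    have h1 : Finsupp.single s (f s) = f s • Finsupp.single s (1 : ℂ) := by simp
    rw [h1, map_smul, Finsupp.smul_apply, smul_eq_mul]
    have := coeff_PsiCol hΨ (rep s) t
    rw [hrep s] at this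
    rw [this]
  -- vanishing on products of elementary elements
  have hgen : ∀ u : Fin b → Fin a → ι,
      L (∏ j, TT (zz i₀) (fun l => ({u j l} : Multiset ι))) = 0 := by
    intro u
    have h0 := hexp (colsOf (tr u))
    rw [hf] at h0
    simp only [Finsupp.zero_apply] at h0
    have hcoef : ∀ s, coeff (ex i₀ (rep s)) (∏ j, TT (zz i₀) (fun l => ({u j l} : Multiset ι)))
        = ((univ.filter fun τ : Fin b → Equiv.Perm (Fin a) =>
            ∀ l, ∃ ρ : Equiv.Perm (Fin b), rep s l ∘ ρ = AA u τ l).card : ℂ) := by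
      intro s
      rw [prod_E, coeff_sum, Finset.card_filter]
      push_cast
      refine Finset.sum_congr rfl fun τ _ => ?_
      rw [coeff_monomial]
      by_cases hh : ∀ l, ∃ ρ : Equiv.Perm (Fin b), rep s l ∘ ρ = AA u τ l
      · rw [if_pos hh, if_pos ((ex_eq_iff i₀ _ _).mpr hh).symm]
      · rw [if_neg hh, if_neg (fun e => hh ((ex_eq_iff i₀ _ _).mp e.symm))]
    let B : ℂ := ((st (fun j => symOf (u j)) * ∏ j, st (u j) : ℕ) : ℂ)
    have hb : (b.factorial : ℂ) ≠ 0 := by exact_mod_cast b.factorial_ne_zero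
    have h1 : (b.factorial : ℂ) * L (∏ j, TT (zz i₀) (fun l => ({u j l} : Multiset ι))) = 0 := by
      have h2 : (∑ s ∈ f.support, f s *
          ((univ.filter fun σ : Fin a → Equiv.Perm (Fin b) =>
            colsOf (rearr (rep s) σ) = colsOf (tr u)).card : ℂ)) * B = 0 := by
        rw [← h0, zero_mul]
      rw [← h2, Finset.sum_mul]
      simp only [L, Finset.mul_sum]
      refine Finset.sum_congr rfl fun s _ => ?_
      have h3 := adjoint_count (rep s) u
      have h4 := congrArg (fun n : ℕ => (n : ℂ)) h3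
      simp only [Nat.cast_mul] at h4
      rw [hcoef s]
      simp only [A, B]
      push_cast at h4 ⊢
      linear_combination (- f s) * h4
    exact (mul_eq_zero.mp h1).resolve_left hb
  have hspan : ∀ x ∈ VV ℂ (zz (a := a) i₀) b, L x = 0 := by
    intro x hx
    unfold VV at hx
    induction hx using Submodule.span_induction with
    | zero => exact hLzero
    | add p q _ _ hp hq => rw [hLadd, hp, hq, add_zero]
    | smul c p _ hp => rw [hLsmul, hp, mul_zero]
    | mem x hx =>
      obtain ⟨u, rfl⟩ := hx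
      exact hgen u
  -- the orbit sum
  by_contra hne
  have hs₀ : s₀ ∈ f.support := Finsupp.mem_support_iff.mpr hne
  set w₀ := rep s₀ with hw₀
  have hz1 : ∀ l : Fin a, zz i₀ l i₀ = 1 := fun l => by simp [zz]
  have hk : ∑ l, Multiset.card (stripped i₀ w₀ l) ≤ b := by
    have h1 : ∑ l, (Multiset.card (stripped i₀ w₀ l) + (univ.filter fun j => w₀ l j = i₀).card)
        = a * b := by
      simp only [card_stripped]
      simp
    rw [Finset.sum_add_distrib, ← letterCount_rowsOf, hrep s₀] at h1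
    omega
  have hO : TT (zz i₀) (stripped i₀ w₀) ∈ VV ℂ (zz (a := a) i₀) b :=
    VV_mono (zz i₀) hz1 hk (TT_mem (K := ℂ) (zz i₀) hz1 _ _ _ rfl)
  have hLO := hspan _ hO
  rw [orbit_eq] at hLO
  -- evaluate
  have hval : L (∑ τ : Equiv.Perm (Fin a), monomial (ex i₀ (fun r => w₀ (τ r))) (1 : ℂ))
      = f s₀ * A s₀ * ((univ.filter fun τ : Equiv.Perm (Fin a) =>
          ex i₀ (fun r => w₀ (τ r)) = ex i₀ w₀).card : ℂ) := by
    simp only [L]
    rw [Finset.sum_eq_single s₀]
    · rw [hw₀, coeff_sum, Finset.card_filter]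
      push_cast
      congr 1
      refine Finset.sum_congr rfl fun τ _ => ?_
      rw [coeff_monomial]
    · intro s _ hs
      have : coeff (ex i₀ (rep s)) (∑ τ : Equiv.Perm (Fin a), monomial (ex i₀ (fun r => w₀ (τ r))) (1 : ℂ)) = 0 := by
        rw [coeff_sum]
        refine Finset.sum_eq_zero fun τ _ => ?_
        rw [coeff_monomial, if_neg]
        intro h
        have h5 := rowsOf_eq_of_ex i₀ w₀ (rep s) τ h
        rw [hrep s, hw₀, hrep s₀] at h5
        exact hs h5.symm
      rw [this, mul_zero]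
    · intro h
      exact absurd hs₀ h
  rw [hval] at hLO
  have hpos : ((univ.filter fun τ : Equiv.Perm (Fin a) =>
      ex i₀ (fun r => w₀ (τ r)) = ex i₀ w₀).card : ℂ) ≠ 0 := by
    have : 0 < (univ.filter fun τ : Equiv.Perm (Fin a) =>
        ex i₀ (fun r => w₀ (τ r)) = ex i₀ w₀).card :=
      Finset.card_pos.mpr ⟨1, by simp⟩
    exact_mod_cast this.ne'
  have := mul_ne_zero (mul_ne_zero hne (hA s₀)) hpos
  exact this hLO

/-- Existence: the formula defines a linear map. -/
theorem exists_foulkesHowe : ∃ Ψ : (Sym (Sym ι b) a →₀ ℂ) →ₗ[ℂ] (Sym (Sym ι a) b →₀ ℂ),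
    IsFoulkesHowe Ψ := by
  classical
  choose rep hrep using (exists_rows (ι := ι) (a := a) (b := b))
  refine ⟨Finsupp.lift _ ℂ _ (fun s => ∑ σ : Fin a → Equiv.Perm (Fin b),
      Finsupp.single (colsOf fun l j => rep s l (σ l j)) (1 : ℂ)), ?_⟩
  intro w
  simp only [Finsupp.lift_apply]
  rw [Finsupp.sum_single_index (by simp), one_smul]
  -- well-definedness
  set w' := rep (rowsOf w) with hw'
  have hrows : rowsOf w' = rowsOf w := hrep _
  obtain ⟨τ, hτ⟩ := (symOf_eq_iff _ _).mp hrows
  have hτ' : ∀ l, ∃ ρ : Equiv.Perm (Fin b), w' (τ l) ∘ ρ = w l := by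
    intro l
    exact (symOf_eq_iff _ _).mp (congrFun hτ l)
  choose ρ hρ using hτ'
  -- reindex the sum
  refine Fintype.sum_equiv
    ({ toFun := fun σ => fun l => (ρ l)⁻¹ * σ (τ l)
       invFun := fun σ => fun l => ρ (τ⁻¹ l) * σ (τ⁻¹ l)
       left_inv := by
         intro σ
         funext l
         simp
       right_inv := by
         intro σ
         funext l
         simp } : (Fin a → Equiv.Perm (Fin b)) ≃ (Fin a → Equiv.Perm (Fin b))) _ _ ?_
  intro σ
  congr 1
  -- the two column classes agree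
  unfold colsOf
  congr 1
  funext j
  have h1 : (fun l => w l (((ρ l)⁻¹ * σ (τ l)) j)) = (fun l => w' l (σ l j)) ∘ τ := by
    funext l
    have h2 := congrFun (hρ l) (((ρ l)⁻¹ * σ (τ l)) j)
    have h3 : (ρ l) (((ρ l)⁻¹ * σ (τ l)) j) = σ (τ l) j := by simp
    simp only [Function.comp_apply, h3] at h2
    exact h2.symm
  show symOf (fun l => w' l (σ l j)) = symOf (fun l => w l (((ρ l)⁻¹ * σ (τ l)) j))
  rw [h1, symOf_perm]

end Vale.Agent.helper5.Foulkes
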