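import Vale.Agent.helper5.GSHNilpotent

/-!
Languages recognised by finite groups of nilpotency class at most three have generalized star
height at most one.
-/

namespace Vale.Agent.helper5.GSH

section telescope

variable {α : Type} [DecidableEq α] {G : Type} [Group G] (g : α → G)

/-- The count vector after reading a word. -/
def cntv (q : α → ℕ) (w : List α) : α → ℕ := fun a => q a + sw w [a]

lemma cntv_nil (q : α → ℕ) : cntv q [] = q := by
  funext a
  simp [cntv]

lemma cntv_cons (q : α → ℕ) (x : α) (w : List α) : cntv q (x :: w) = cntv (bump q x) w := by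
  funext a
  simp only [cntv, bump, sw_cons_cons, sw_nil_right]
  by_cases h : x = a
  · subst h
    simp
    ring
  · have h2 : a ≠ x := Ne.symm h
    simp [h, h2]

/-- Telescoping of the word product along the sorted products. -/
lemma telescope (ls : List α) (F : α → (α → ℕ) → commutator G)
    (hF : ∀ l q, (F l q : G) = tL g ls q * g l * (tL g ls (bump q l))⁻¹)
    (q : α → ℕ) (w : List α) :
    tL g ls q * (w.map g).prod = ((Phi F q w : commutator G) : G) * tL g ls (cntv q w) := by
  induction w generalizing q with
  | nil => simp [Phi, cntv_nil]
  | cons x w ih =>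
    have h1 : ((Phi F q (x :: w) : commutator G) : G) =
        (F x q : G) * ((Phi F (bump q x) w : commutator G) : G) := by
      simp [Phi]
    rw [h1, cntv_cons, hF, List.map_cons, List.prod_cons]
    calc tL g ls q * (g x * (w.map g).prod)
        = tL g ls q * g x * (tL g ls (bump q x))⁻¹ * (tL g ls (bump q x) * (w.map g).prod) := by
          group
      _ = _ := by rw [ih, mul_assoc (tL g ls q * g x * (tL g ls (bump q x))⁻¹)]

lemma tL_zero (ls : List α) : tL g ls (fun _ => 0) = 1 := by
  induction ls with
  | nil => rfl
  | cons a L ih => simp [tL_cons, ih]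

lemma tL_congr {n : ℕ} (hn : ∀ a : G, a ^ n = 1) (ls : List α) {w w' : List α}
    (h : DataEq n w w') :
    tL g ls (cntv (fun _ => 0) w) = tL g ls (cntv (fun _ => 0) w') := by
  induction ls with
  | nil => rfl
  | cons a L ih =>
    rw [tL_cons, tL_cons, ih]
    congr 1
    have := h [a] (by simp)
    simp only [cntv, zero_add]
    exact pow_congr_of_cast hn _ this

/-- In a finite group of class at most three the value of a word is determined by its subword
counts of length at most three modulo the order of the group. -/
theorem prod_congr_of_dataEq [Fintype α] [Finite G] (hC : ClassThree G) {w w' : List α}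
    (h : DataEq (Nat.card G) w w') : (w.map g).prod = (w'.map g).prod := by
  classical
  have hP : ∀ l : α, IsPoly (fun q : α → ℕ =>
      tL g Finset.univ.toList q * g l * (tL g Finset.univ.toList (bump q l))⁻¹) := fun l =>
    isPoly_increment g hC (Finset.nodup_toList _) (by simp)
  choose F hF hF2 using hP
  have hn : ∀ a : G, a ^ Nat.card G = 1 := fun a => pow_card_eq_one'
  have hn2 : ∀ m : commutator G, m ^ Nat.card G = 1 := fun m =>
    Subtype.ext (by simpa using hn (m : G))
  have hcomm : ∀ a b : commutator G, a * b = b * a := fun a b =>
    Subtype.ext (by simpa using hC.comm a a.2 b b.2)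
  have h1 := telescope g Finset.univ.toList F (fun l q => hF2 l q) (fun _ => 0) w
  have h2 := telescope g Finset.univ.toList F (fun l q => hF2 l q) (fun _ => 0) w'
  rw [tL_zero, one_mul] at h1 h2
  rw [h1, h2, phi_congr hn2 hcomm h hF, tL_congr g hn _ h]

/-- All fibres of the word map to a finite group of class at most three have generalized star
height at most one. -/
theorem acc_prod [Fintype α] [Finite G] (hC : ClassThree G) :
    Acc (fun w : List α => (w.map g).prod) := by
  classical
  haveI : NeZero (Nat.card G) := ⟨Nat.card_pos.ne'⟩
  haveI : Finite {u : List α // u.length ≤ 3} := (List.finite_length_le α 3).to_subtype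
  haveI : Fintype {u : List α // u.length ≤ 3} := Fintype.ofFinite _
  have h1 : Acc (fun (w : List α) (u : {u : List α // u.length ≤ 3}) =>
      (sw w u.1 : ZMod (Nat.card G))) :=
    Acc.pi (fun u => acc_sw_le_three (Nat.card G) u.1 u.2)
  refine h1.factor ?_
  intro w w' h
  apply prod_congr_of_dataEq g hC
  intro u hu
  exact congrFun h ⟨u, hu⟩

end telescope

/-- A language recognised by a finite group of class at most three has generalized star height
at most one. -/
theorem gshLe_of_classThree {α : Type} [Fintype α] [DecidableEq α] {G : Type} [Group G] [Finite G]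
    (hG : (⊤ : Subgroup G).lowerCentralSeries 3 = ⊥) (φ : FreeMonoid α →* G) (S : Set G) :
    GshLe 1 {w : List α | φ (FreeMonoid.ofList w) ∈ S} := by
  classical
  have hC := classThree_of_lcs hG
  have h1 := acc_prod (fun a => φ (FreeMonoid.of a)) hC
  have e : ∀ w : List α, φ (FreeMonoid.ofList w) = (w.map fun a => φ (FreeMonoid.of a)).prod := by
    intro w
    induction w with
    | nil => simp [FreeMonoid.ofList_nil]
    | cons x w ih =>
      rw [FreeMonoid.ofList_cons, map_mul, ih]
      simp
  have h2 := (h1.comp (fun x => x ∈ S)) True
  convert h2 using 1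
  ext w
  simp [e]

end Vale.Agent.helper5.GSH
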