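import Vale.Agent.helper5.GSHDefs

/-!
Closure properties of the classes of languages of generalized star height at most `h`.
-/

namespace Vale.Agent.helper5.GSH

universe u

variable {α : Type u}

/-- Concatenation of two languages. -/
def conc (A B : Set (List α)) : Set (List α) := {w | ∃ u ∈ A, ∃ v ∈ B, w = u ++ v}

lemma mem_conc {A B : Set (List α)} {w : List α} :
    w ∈ conc A B ↔ ∃ u ∈ A, ∃ v ∈ B, w = u ++ v := Iff.rfl

/-- Kleene star of a language. -/
def kstar (A : Set (List α)) : Set (List α) :=
  {w | ∃ l : List (List α), (∀ x ∈ l, x ∈ A) ∧ w = l.flatten}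

variable {h : ℕ} {A B : Set (List α)}

lemma GshLe.mono {h h' : ℕ} (hh : h ≤ h') (hA : GshLe h A) : GshLe h' A := by
  obtain ⟨e, he, hh2⟩ := hA
  exact ⟨e, he, hh2.trans hh⟩

lemma gshLe_empty : GshLe h (∅ : Set (List α)) := ⟨GExp.zero, rfl, Nat.zero_le _⟩

lemma gshLe_nil : GshLe h ({[]} : Set (List α)) := ⟨GExp.one, rfl, Nat.zero_le _⟩

lemma gshLe_letter (a : α) : GshLe h ({[a]} : Set (List α)) := ⟨GExp.lit a, rfl, Nat.zero_le _⟩

lemma GshLe.union (hA : GshLe h A) (hB : GshLe h B) : GshLe h (A ∪ B) := by
  obtain ⟨e, rfl, he⟩ := hA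
  obtain ⟨f, rfl, hf⟩ := hB
  exact ⟨GExp.add e f, rfl, max_le he hf⟩

lemma GshLe.compl (hA : GshLe h A) : GshLe h (Aᶜ) := by
  obtain ⟨e, rfl, he⟩ := hA
  exact ⟨GExp.compl e, rfl, he⟩

lemma GshLe.conc (hA : GshLe h A) (hB : GshLe h B) : GshLe h (conc A B) := by
  obtain ⟨e, rfl, he⟩ := hA
  obtain ⟨f, rfl, hf⟩ := hB
  exact ⟨GExp.mul e f, rfl, max_le he hf⟩

lemma GshLe.star (hA : GshLe h A) : GshLe (h + 1) (kstar A) := by
  obtain ⟨e, rfl, he⟩ := hA
  exact ⟨GExp.star e, rfl, Nat.succ_le_succ he⟩

lemma GshLe.inter (hA : GshLe h A) (hB : GshLe h B) : GshLe h (A ∩ B) := by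
  have := (hA.compl.union hB.compl).compl
  simpa [Set.compl_union] using this

lemma gshLe_univ : GshLe h (Set.univ : Set (List α)) := by
  have := (gshLe_empty (h := h) (α := α)).compl
  simpa using this

lemma GshLe.diff (hA : GshLe h A) (hB : GshLe h B) : GshLe h (A \ B) := by
  have := hA.inter hB.compl
  simpa [Set.diff_eq] using this

lemma GshLe.iUnion_finset {ι : Type*} (s : Finset ι) {f : ι → Set (List α)}
    (hf : ∀ i ∈ s, GshLe h (f i)) : GshLe h (⋃ i ∈ s, f i) := by
  classical
  induction s using Finset.induction_on with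
  | empty => simpa using gshLe_empty
  | insert a s _ ih =>
    have h1 := hf a (Finset.mem_insert_self _ _)
    have h2 := ih (fun i hi => hf i (Finset.mem_insert_of_mem hi))
    have := h1.union h2
    simpa [Finset.set_biUnion_insert] using this

lemma GshLe.iUnion_fintype {ι : Type*} [Fintype ι] {f : ι → Set (List α)}
    (hf : ∀ i, GshLe h (f i)) : GshLe h (⋃ i, f i) := by
  have := GshLe.iUnion_finset (h := h) (Finset.univ : Finset ι) (f := f) (fun i _ => hf i)
  simpa using this

lemma GshLe.iUnion_finite {ι : Type*} [Finite ι] {f : ι → Set (List α)}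
    (hf : ∀ i, GshLe h (f i)) : GshLe h (⋃ i, f i) := by
  classical
  haveI := Fintype.ofFinite ι
  exact GshLe.iUnion_fintype hf

lemma GshLe.iInter_finset {ι : Type*} (s : Finset ι) {f : ι → Set (List α)}
    (hf : ∀ i ∈ s, GshLe h (f i)) : GshLe h (⋂ i ∈ s, f i) := by
  classical
  induction s using Finset.induction_on with
  | empty => simpa using gshLe_univ
  | insert a s _ ih =>
    have h1 := hf a (Finset.mem_insert_self _ _)
    have h2 := ih (fun i hi => hf i (Finset.mem_insert_of_mem hi))
    have := h1.inter h2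
    simpa [Finset.set_biInter_insert] using this

lemma GshLe.iInter_fintype {ι : Type*} [Fintype ι] {f : ι → Set (List α)}
    (hf : ∀ i, GshLe h (f i)) : GshLe h (⋂ i, f i) := by
  have := GshLe.iInter_finset (h := h) (Finset.univ : Finset ι) (f := f) (fun i _ => hf i)
  simpa using this

/-! Reversal -/

/-- Reversal of a generalized regular expression. -/
def GExp.rev : GExp α → GExp α
  | GExp.zero => GExp.zero
  | GExp.one => GExp.one
  | GExp.lit a => GExp.lit a
  | GExp.add p q => GExp.add p.rev q.rev
  | GExp.mul p q => GExp.mul q.rev p.rev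
  | GExp.compl p => GExp.compl p.rev
  | GExp.star p => GExp.star p.rev

lemma GExp.height_rev (e : GExp α) : e.rev.height = e.height := by
  induction e with
  | zero => rfl
  | one => rfl
  | lit a => rfl
  | add p q hp hq => simp [GExp.rev, GExp.height, hp, hq]
  | mul p q hp hq => simp [GExp.rev, GExp.height, hp, hq, max_comm]
  | compl p hp => simp [GExp.rev, GExp.height, hp]
  | star p hp => simp [GExp.rev, GExp.height, hp]

lemma GExp.mem_denote_rev (e : GExp α) (w : List α) : w ∈ e.rev.denote ↔ w.reverse ∈ e.denote := by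
  induction e generalizing w with
  | zero => simp [GExp.rev, GExp.denote]
  | one => simp [GExp.rev, GExp.denote]
  | lit a =>
    simp only [GExp.rev, GExp.denote, Set.mem_singleton_iff]
    constructor
    · rintro rfl; rfl
    · intro h
      have := congrArg List.reverse h
      simpa using this
  | add p q hp hq => simp [GExp.rev, GExp.denote, hp, hq]
  | mul p q hp hq =>
    simp only [GExp.rev, GExp.denote, Set.mem_setOf_eq]
    constructor
    · rintro ⟨u, hu, v, hv, rfl⟩
      refine ⟨v.reverse, (hq u).mp hu |> fun _ => (hp v).mp hv, u.reverse, (hq u).mp hu, ?_⟩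
      simp
    · rintro ⟨u, hu, v, hv, huv⟩
      refine ⟨v.reverse, (hq _).mpr (by simpa using hv), u.reverse, (hp _).mpr (by simpa using hu), ?_⟩
      have := congrArg List.reverse huv
      simpa using this
  | compl p hp =>
    simp only [GExp.rev, GExp.denote, Set.mem_compl_iff, hp]
  | star p hp =>
    simp only [GExp.rev, GExp.denote, Set.mem_setOf_eq]
    constructor
    · rintro ⟨l, hl, rfl⟩
      refine ⟨(l.map List.reverse).reverse, ?_, ?_⟩
      · intro x hx
        simp only [List.mem_reverse, List.mem_map] at hx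
        obtain ⟨y, hy, rfl⟩ := hx
        exact (hp _).mp (hl y hy)
      · simp [List.reverse_flatten]
    · rintro ⟨l, hl, hw⟩
      refine ⟨(l.map List.reverse).reverse, ?_, ?_⟩
      · intro x hx
        simp only [List.mem_reverse, List.mem_map] at hx
        obtain ⟨y, hy, rfl⟩ := hx
        exact (hp _).mpr (by simpa using hl y hy)
      · have := congrArg List.reverse hw
        simp only [List.reverse_reverse] at this
        rw [this]
        simp [List.reverse_flatten]

lemma GshLe.reverse (hA : GshLe h A) : GshLe h {w : List α | w.reverse ∈ A} := by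
  obtain ⟨e, rfl, he⟩ := hA
  refine ⟨e.rev, ?_, by simpa [GExp.height_rev] using he⟩
  ext w
  exact GExp.mem_denote_rev e w

end Vale.Agent.helper5.GSH
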