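import Mathlib

/-!
Generalized regular expressions and generalized star height (problem P329).
-/

namespace Vale.Agent.helper5.GSH

universe u

/-- Generalized regular expressions over the alphabet `α`. -/
inductive GExp (α : Type u) : Type u
  | zero : GExp α
  | one : GExp α
  | lit (a : α) : GExp α
  | add (p q : GExp α) : GExp α
  | mul (p q : GExp α) : GExp α
  | compl (p : GExp α) : GExp α
  | star (p : GExp α) : GExp α

variable {α : Type u}

/-- The language denoted by a generalized regular expression; complement is taken in all words. -/
def GExp.denote : GExp α → Set (List α)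
  | GExp.zero => ∅
  | GExp.one => {[]}
  | GExp.lit a => {[a]}
  | GExp.add p q => p.denote ∪ q.denote
  | GExp.mul p q => {w | ∃ u ∈ p.denote, ∃ v ∈ q.denote, w = u ++ v}
  | GExp.compl p => (p.denote)ᶜ
  | GExp.star p => {w | ∃ l : List (List α), (∀ x ∈ l, x ∈ p.denote) ∧ w = l.flatten}

/-- The star height of a generalized regular expression. -/
def GExp.height : GExp α → ℕ
  | GExp.zero => 0
  | GExp.one => 0
  | GExp.lit _ => 0
  | GExp.add p q => max p.height q.height
  | GExp.mul p q => max p.height q.height
  | GExp.compl p => p.height
  | GExp.star p => p.height + 1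

/-- `L` has generalized star height at most `h`. -/
def GshLe (h : ℕ) (L : Set (List α)) : Prop :=
  ∃ e : GExp α, e.denote = L ∧ e.height ≤ h

end Vale.Agent.helper5.GSH
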