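import Vale.Agent.helper5.GSHClosure

/-!
Deterministic automata with one base state such that all other states are only left upwards:
all their fibers have generalized star height at most one.
-/

namespace Vale.Agent.helper5.GSH

universe u v

variable {α : Type u} {Q : Type v}

/-- The words all of whose letters satisfy `p`. -/
def onlyLetters (p : α → Prop) : Set (List α) := {w | ∀ x ∈ w, p x}

lemma gshLe_onlyLetters [Fintype α] {h : ℕ} (p : α → Prop) :
    GshLe h (onlyLetters p) := by
  classical
  have h1 : GshLe h (⋃ x ∈ (Finset.univ.filter fun x => ¬ p x), ({[x]} : Set (List α))) :=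
    GshLe.iUnion_finset _ (fun i _ => gshLe_letter i)
  have h2 := ((gshLe_univ (h := h) (α := α)).conc (h1.conc (gshLe_univ (h := h) (α := α)))).compl
  convert h2 using 1
  ext w
  simp only [onlyLetters, Set.mem_setOf_eq, Set.mem_compl_iff, mem_conc, Set.mem_univ, true_and,
    Set.mem_iUnion, Set.mem_singleton_iff, Finset.mem_filter, Finset.mem_univ, exists_prop]
  constructor
  · intro hw
    rintro ⟨u, v, ⟨u', ⟨x, hx, rfl⟩, v', rfl⟩, rfl⟩
    exact hx (hw x (by simp))
  · intro hw x hx
    by_contra hpx
    apply hw
    obtain ⟨s, t, rfl⟩ := List.append_of_mem hx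
    exact ⟨s, x :: t, ⟨[x], ⟨x, hpx, rfl⟩, t, rfl⟩, rfl⟩

variable (δ : Q → α → Q) (b : Q)

/-- The state reached from `q` after reading `w`. -/
def run (q : Q) (w : List α) : Q := w.foldl δ q

@[simp] lemma run_nil (q : Q) : run δ q [] = q := rfl
@[simp] lemma run_cons (q : Q) (x : α) (w : List α) : run δ q (x :: w) = run δ (δ q x) w := rfl
lemma run_append (q : Q) (u v : List α) : run δ q (u ++ v) = run δ (run δ q u) v := by
  simp [run, List.foldl_append]

/-- The run from `q` on `w` never visits the base state `b`. -/
def Avoids : Q → List α → Prop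
  | q, [] => q ≠ b
  | q, x :: w => q ≠ b ∧ Avoids (δ q x) w

variable {δ b}

lemma Avoids.ne {q : Q} {w : List α} (h : Avoids δ b q w) : q ≠ b := by
  cases w with
  | nil => exact h
  | cons x w => exact h.1

variable (δ b)

/-- The words leading from `q` to `q'` without visiting the base state. -/
def pathSet (q q' : Q) : Set (List α) := {w | Avoids δ b q w ∧ run δ q w = q'}

/-- The words that leave `q` at most by letters that fix `q`. -/
def loopSet (q : Q) : Set (List α) := onlyLetters (fun x => δ q x = q)

variable {δ b}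

lemma run_of_mem_loop {q : Q} {u : List α} (hu : u ∈ loopSet δ q) : run δ q u = q := by
  induction u with
  | nil => rfl
  | cons x u ih =>
    have hx : δ q x = q := hu x (by simp)
    simp only [run_cons, hx]
    exact ih (fun y hy => hu y (by simp [hy]))

lemma avoids_append_loop {q : Q} {u v : List α} (hu : u ∈ loopSet δ q) (hv : Avoids δ b q v) :
    Avoids δ b q (u ++ v) := by
  induction u with
  | nil => simpa using hv
  | cons x u ih =>
    have hx : δ q x = q := hu x (by simp)
    refine ⟨hv.ne, ?_⟩
    rw [hx]
    exact ih (fun y hy => hu y (by simp [hy]))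

lemma pathSet_eq [Fintype α] (q q' : Q) (hq : q ≠ b) :
    pathSet δ b q q' =
      {w | q = q' ∧ w ∈ loopSet δ q} ∪
        ⋃ x : α, {w | δ q x ≠ q ∧ δ q x ≠ b ∧
          w ∈ conc (loopSet δ q) (conc {[x]} (pathSet δ b (δ q x) q'))} := by
  ext w
  simp only [Set.mem_union, Set.mem_setOf_eq, Set.mem_iUnion]
  constructor
  · rintro ⟨hav, hrun⟩
    induction w with
    | nil =>
      left
      exact ⟨hrun, fun x hx => by simp at hx⟩
    | cons y w ih =>
      by_cases hy : δ q y = q
      · have hav' : Avoids δ b q w := by simpa [hy] using hav.2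
        have hrun' : run δ q w = q' := by simpa [hy] using hrun
        rcases ih hav' hrun' with ⟨h1, h2⟩ | ⟨x, h1, h2, u, hu, v, hv, rfl⟩
        · left
          refine ⟨h1, ?_⟩
          intro x hx
          rcases List.mem_cons.mp hx with rfl | hx
          · exact hy
          · exact h2 x hx
        · right
          refine ⟨x, h1, h2, y :: u, ?_, v, hv, rfl⟩
          intro z hz
          rcases List.mem_cons.mp hz with rfl | hz
          · exact hy
          · exact hu z hz
      · right
        refine ⟨y, hy, hav.2.ne, [], ?_, y :: w, ?_, rfl⟩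
        · intro z hz; simp at hz
        · exact ⟨[y], rfl, w, ⟨hav.2, hrun⟩, rfl⟩
  · rintro (⟨rfl, hw⟩ | ⟨x, _, _, u, hu, v, ⟨s, rfl, t, ⟨ht1, ht2⟩, rfl⟩, rfl⟩)
    · refine ⟨?_, run_of_mem_loop hw⟩
      have := avoids_append_loop (b := b) (v := []) hw hq
      simpa using this
    · refine ⟨avoids_append_loop hu ⟨hq, ht1⟩, ?_⟩
      rw [run_append, run_of_mem_loop hu]
      simpa using ht2

/-- The hypothesis on the automaton: outside the base state, a letter goes to the base state,
fixes the state or strictly increases the rank. -/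
def UpOutside (δ : Q → α → Q) (b : Q) (rank : Q → ℕ) : Prop :=
  ∀ q, q ≠ b → ∀ x, δ q x = b ∨ δ q x = q ∨ rank q < rank (δ q x)

lemma gshLe_pathSet [Fintype α] [Fintype Q] {rank : Q → ℕ} (hup : UpOutside δ b rank)
    (q q' : Q) (hq : q ≠ b) : GshLe 0 (pathSet δ b q q') := by
  classical
  set m := (Finset.univ : Finset Q).sup rank with hm
  have hle : ∀ r : Q, rank r ≤ m := fun r => Finset.le_sup (Finset.mem_univ r)
  have key : ∀ n : ℕ, ∀ q : Q, m - rank q ≤ n → q ≠ b → GshLe 0 (pathSet δ b q q') := by
    intro n
    induction n with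
    | zero =>
      intro q hn hq
      rw [pathSet_eq q q' hq]
      refine GshLe.union ?_ (GshLe.iUnion_fintype fun x => ?_)
      · by_cases hqq : q = q'
        · simpa [hqq, loopSet] using gshLe_onlyLetters (h := 0) (fun x => δ q' x = q')
        · simpa [hqq] using gshLe_empty (h := 0) (α := α)
      · have : {w | δ q x ≠ q ∧ δ q x ≠ b ∧
            w ∈ conc (loopSet δ q) (conc {[x]} (pathSet δ b (δ q x) q'))} = ∅ := by
          ext w
          simp only [Set.mem_setOf_eq, Set.mem_empty_iff_false, iff_false]
          rintro ⟨h1, h2, _⟩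
          rcases hup q hq x with h3 | h3 | h3
          · exact h2 h3
          · exact h1 h3
          · have := hle (δ q x)
            omega
        rw [this]
        exact gshLe_empty
    | succ n ih =>
      intro q hn hq
      rw [pathSet_eq q q' hq]
      refine GshLe.union ?_ (GshLe.iUnion_fintype fun x => ?_)
      · by_cases hqq : q = q'
        · simpa [hqq, loopSet] using gshLe_onlyLetters (h := 0) (fun x => δ q' x = q')
        · simpa [hqq] using gshLe_empty (h := 0) (α := α)
      · by_cases hx : δ q x ≠ q ∧ δ q x ≠ b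
        · have h3 : rank q < rank (δ q x) := by
            rcases hup q hq x with h3 | h3 | h3
            · exact absurd h3 hx.2
            · exact absurd h3 hx.1
            · exact h3
          have h4 := hle (δ q x)
          have h5 := ih (δ q x) (by omega) hx.2
          have h6 := (gshLe_onlyLetters (h := 0) (fun y => δ q y = q)).conc
            ((gshLe_letter (h := 0) x).conc h5)
          have : {w | δ q x ≠ q ∧ δ q x ≠ b ∧
              w ∈ conc (loopSet δ q) (conc {[x]} (pathSet δ b (δ q x) q'))} =
              conc (loopSet δ q) (conc {[x]} (pathSet δ b (δ q x) q')) := by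
            ext w
            simp [hx.1, hx.2]
          rw [this]
          exact h6
        · have : {w | δ q x ≠ q ∧ δ q x ≠ b ∧
              w ∈ conc (loopSet δ q) (conc {[x]} (pathSet δ b (δ q x) q'))} = ∅ := by
            ext w
            simp only [Set.mem_setOf_eq, Set.mem_empty_iff_false, iff_false]
            rintro ⟨h1, h2, _⟩
            exact hx ⟨h1, h2⟩
          rw [this]
          exact gshLe_empty
  exact key _ q le_rfl hq

variable (δ b)

/-- The words that lead from `q` to the base state and reach it only at their end. -/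
def reachSet (q : Q) : Set (List α) :=
  {w | ∃ u c, w = u ++ [c] ∧ Avoids δ b q u ∧ δ (run δ q u) c = b}

/-- The first-return words at the base state. -/
def returnCode : Set (List α) :=
  {w | ∃ x, w = [x] ∧ δ b x = b} ∪ {w | ∃ x u, w = x :: u ∧ δ b x ≠ b ∧ u ∈ reachSet δ b (δ b x)}

variable {δ b}

lemma gshLe_reachSet [Fintype α] [Fintype Q] {rank : Q → ℕ} (hup : UpOutside δ b rank)
    (q : Q) (hq : q ≠ b) : GshLe 0 (reachSet δ b q) := by
  classical
  have : reachSet δ b q = ⋃ q' : Q, ⋃ c : α,
      {w | δ q' c = b ∧ w ∈ conc (pathSet δ b q q') {[c]}} := by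
    ext w
    simp only [reachSet, Set.mem_setOf_eq, Set.mem_iUnion]
    constructor
    · rintro ⟨u, c, rfl, h1, h2⟩
      exact ⟨run δ q u, c, h2, u, ⟨h1, rfl⟩, [c], rfl, rfl⟩
    · rintro ⟨q', c, h1, u, ⟨h2, rfl⟩, _, rfl, rfl⟩
      exact ⟨u, c, rfl, h2, h1⟩
  rw [this]
  refine GshLe.iUnion_fintype fun q' => GshLe.iUnion_fintype fun c => ?_
  by_cases hc : δ q' c = b
  · have h6 := (gshLe_pathSet hup q q' hq).conc (gshLe_letter (h := 0) c)
    convert h6 using 1
    ext w
    simp [hc]
  · convert gshLe_empty (h := 0) (α := α) using 1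
    ext w
    simp [hc]

lemma gshLe_returnCode [Fintype α] [Fintype Q] {rank : Q → ℕ} (hup : UpOutside δ b rank) :
    GshLe 0 (returnCode δ b) := by
  classical
  refine GshLe.union ?_ ?_
  · have : {w | ∃ x, w = [x] ∧ δ b x = b} = ⋃ x : α, {w : List α | δ b x = b ∧ w = [x]} := by
      ext w
      simp only [Set.mem_setOf_eq, Set.mem_iUnion]
      constructor
      · rintro ⟨x, h1, h2⟩
        exact ⟨x, h2, h1⟩
      · rintro ⟨x, h1, h2⟩
        exact ⟨x, h2, h1⟩
    rw [this]
    refine GshLe.iUnion_fintype fun x => ?_
    by_cases hx : δ b x = b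
    · convert gshLe_letter (h := 0) x using 1
      ext w
      simp [hx]
    · convert gshLe_empty (h := 0) (α := α) using 1
      ext w
      simp [hx]
  · have : {w | ∃ x u, w = x :: u ∧ δ b x ≠ b ∧ u ∈ reachSet δ b (δ b x)} =
        ⋃ x : α, {w | δ b x ≠ b ∧ w ∈ conc {[x]} (reachSet δ b (δ b x))} := by
      ext w
      simp only [Set.mem_setOf_eq, Set.mem_iUnion]
      constructor
      · rintro ⟨x, u, rfl, h1, h2⟩
        exact ⟨x, h1, [x], rfl, u, h2, rfl⟩
      · rintro ⟨x, h1, _, rfl, u, h2, rfl⟩
        exact ⟨x, u, rfl, h1, h2⟩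
    rw [this]
    refine GshLe.iUnion_fintype fun x => ?_
    by_cases hx : δ b x = b
    · convert gshLe_empty (h := 0) (α := α) using 1
      ext w
      simp [hx]
    · have h6 := (gshLe_letter (h := 0) x).conc (gshLe_reachSet hup (δ b x) hx)
      convert h6 using 1
      ext w
      simp [hx]

lemma first_hit {q : Q} {w : List α} (hq : q ≠ b) (hw : run δ q w = b) :
    ∃ u c v, w = u ++ c :: v ∧ Avoids δ b q u ∧ δ (run δ q u) c = b ∧ run δ b v = b := by
  induction w generalizing q with
  | nil => exact absurd hw hq
  | cons y w ih =>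
    by_cases hy : δ q y = b
    · refine ⟨[], y, w, rfl, hq, hy, ?_⟩
      simpa [hy] using hw
    · obtain ⟨u, c, v, rfl, h1, h2, h3⟩ := ih hy hw
      exact ⟨y :: u, c, v, rfl, ⟨hq, h1⟩, h2, h3⟩

lemma run_of_mem_returnCode {w : List α} (hw : w ∈ returnCode δ b) : run δ b w = b := by
  rcases hw with ⟨x, rfl, hx⟩ | ⟨x, u, rfl, _, s, c, rfl, _, h2⟩
  · simpa using hx
  · simp only [run_cons]
    rw [run_append]
    simpa using h2

lemma return_eq_kstar : {w : List α | run δ b w = b} = kstar (returnCode δ b) := by
  ext w
  simp only [Set.mem_setOf_eq, kstar]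
  constructor
  · intro hw
    induction h : w.length using Nat.strong_induction_on generalizing w with
    | _ n ih =>
      cases w with
      | nil => exact ⟨[], by simp, rfl⟩
      | cons x w =>
        by_cases hx : δ b x = b
        · have hw' : run δ b w = b := by simpa [hx] using hw
          obtain ⟨l, hl, rfl⟩ := ih w.length (by simp at h; omega) w hw' rfl
          refine ⟨[x] :: l, ?_, rfl⟩
          intro y hy
          rcases List.mem_cons.mp hy with rfl | hy
          · exact Or.inl ⟨x, rfl, hx⟩
          · exact hl y hy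
        · obtain ⟨u, c, v, rfl, h1, h2, h3⟩ := first_hit hx (by simpa using hw)
          obtain ⟨l, hl, rfl⟩ := ih v.length (by simp at h; omega) v h3 rfl
          refine ⟨(x :: (u ++ [c])) :: l, ?_, by simp⟩
          intro y hy
          rcases List.mem_cons.mp hy with rfl | hy
          · exact Or.inr ⟨x, _, rfl, hx, u, c, rfl, h1, h2⟩
          · exact hl y hy
  · rintro ⟨l, hl, rfl⟩
    induction l with
    | nil => rfl
    | cons y l ih =>
      simp only [List.flatten_cons]
      rw [run_append, run_of_mem_returnCode (hl y (by simp))]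
      exact ih (fun z hz => hl z (by simp [hz]))

lemma gshLe_return [Fintype α] [Fintype Q] {rank : Q → ℕ} (hup : UpOutside δ b rank) :
    GshLe 1 {w : List α | run δ b w = b} := by
  rw [return_eq_kstar]
  exact (gshLe_returnCode hup).star

lemma last_visit {q1 : Q} (h1 : q1 ≠ b) {q : Q} {w : List α} (hw : run δ q w = q1) :
    Avoids δ b q w ∨ ∃ u x v, w = u ++ x :: v ∧ run δ q u = b ∧ δ b x ≠ b ∧
      Avoids δ b (δ b x) v ∧ run δ (δ b x) v = q1 := by
  induction w generalizing q with
  | nil =>
    left
    simpa [Avoids] using (show q ≠ b by simpa using (by rw [← hw] at h1; simpa using h1))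
  | cons y w ih =>
    rcases ih (q := δ q y) hw with hav | ⟨u, x, v, rfl, h2, h3, h4, h5⟩
    · by_cases hq : q = b
      · right
        subst hq
        exact ⟨[], y, w, rfl, rfl, hav.ne, hav, hw⟩
      · left
        exact ⟨hq, hav⟩
    · right
      exact ⟨y :: u, x, v, rfl, h2, h3, h4, h5⟩

/-- The main lemma: all fibers of such an automaton have generalized star height at most one. -/
theorem gshLe_fiber [Fintype α] [Fintype Q] {rank : Q → ℕ} (hup : UpOutside δ b rank)
    (q0 q1 : Q) : GshLe 1 {w : List α | run δ q0 w = q1} := by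
  classical
  -- the first part: from `q0` to the base state for the first time
  have hfirst : GshLe 1 {w : List α | run δ q0 w = b} := by
    by_cases hq0 : q0 = b
    · subst hq0
      exact gshLe_return hup
    · have h2 := ((gshLe_reachSet hup q0 hq0).mono (Nat.zero_le 1)).conc (gshLe_return hup)
      convert h2 using 1
      ext w
      simp only [Set.mem_setOf_eq, mem_conc]
      constructor
      · intro hw
        obtain ⟨u, c, v, rfl, h3, h4, h5⟩ := first_hit hq0 hw
        exact ⟨u ++ [c], ⟨u, c, rfl, h3, h4⟩, v, h5, by simp⟩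
      · rintro ⟨_, ⟨u, c, rfl, _, h4⟩, v, h5, rfl⟩
        rw [run_append, run_append]
        simpa [h4] using h5
  by_cases hq1 : q1 = b
  · subst hq1
    exact hfirst
  -- the last part: from the base state to `q1` without coming back
  have hlast : GshLe 0 (⋃ x : α, {w : List α | δ b x ≠ b ∧
      w ∈ conc {[x]} (pathSet δ b (δ b x) q1)}) := by
    refine GshLe.iUnion_fintype fun x => ?_
    by_cases hx : δ b x = b
    · convert gshLe_empty (h := 0) (α := α) using 1
      ext w
      simp [hx]
    · have h6 := (gshLe_letter (h := 0) x).conc (gshLe_pathSet hup (δ b x) q1 hx)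
      convert h6 using 1
      ext w
      simp [hx]
  have hav : GshLe 1 {w : List α | Avoids δ b q0 w ∧ run δ q0 w = q1} := by
    by_cases hq0 : q0 = b
    · convert gshLe_empty (h := 1) (α := α) using 1
      ext w
      simp only [Set.mem_setOf_eq, Set.mem_empty_iff_false, iff_false]
      rintro ⟨h1, _⟩
      exact h1.ne hq0
    · exact (gshLe_pathSet hup q0 q1 hq0).mono (Nat.zero_le 1)
  have h7 := hav.union (hfirst.conc (hlast.mono (Nat.zero_le 1)))
  convert h7 using 1
  ext w
  simp only [Set.mem_setOf_eq, Set.mem_union, mem_conc, Set.mem_iUnion]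
  constructor
  · intro hw
    rcases last_visit hq1 hw with h2 | ⟨u, x, v, rfl, h2, h3, h4, h5⟩
    · exact Or.inl ⟨h2, hw⟩
    · right
      exact ⟨u, h2, x :: v, ⟨x, h3, [x], rfl, v, ⟨h4, h5⟩, rfl⟩, rfl⟩
  · rintro (⟨_, h2⟩ | ⟨u, h2, v, ⟨x, _, _, rfl, t, ⟨_, h5⟩, rfl⟩, rfl⟩)
    · exact h2
    · rw [run_append, h2]
      simpa using h5

end Vale.Agent.helper5.GSH
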