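import Vale.Agent.helper5.GSHPoly

/-!
Words in a group of nilpotency class at most three: normal form through the subword counts of
length at most three.
-/

namespace Vale.Agent.helper5.GSH

universe u v

open scoped commutatorElement

section laws

variable {G : Type v} [Group G]

/-- The element `[x, [y, z]]`. -/
def tau (x y z : G) : G := ⁅x, ⁅y, z⁆⁆

lemma mem_commutator_of_comm (x y : G) : ⁅x, y⁆ ∈ commutator G := by
  rw [commutator_def]
  exact Subgroup.commutator_mem_commutator (Subgroup.mem_top x) (Subgroup.mem_top y)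

lemma lcs_three (hG : (⊤ : Subgroup G).lowerCentralSeries 3 = ⊥) :
    ⁅⁅commutator G, (⊤ : Subgroup G)⁆, (⊤ : Subgroup G)⁆ = ⊥ := by
  simpa [Subgroup.lowerCentralSeries_succ, Subgroup.lowerCentralSeries_zero, commutator_def]
    using hG

lemma commutator_comm_bot (hG : (⊤ : Subgroup G).lowerCentralSeries 3 = ⊥) :
    ⁅commutator G, commutator G⁆ = ⊥ := by
  have h := lcs_three hG
  have h1 : ⁅⁅(⊤ : Subgroup G), commutator G⁆, (⊤ : Subgroup G)⁆ = ⊥ := by
    rw [Subgroup.commutator_comm ⊤ (commutator G)]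
    exact h
  have := Subgroup.commutator_commutator_eq_bot_of_rotate (H₁ := (⊤ : Subgroup G))
    (H₂ := (⊤ : Subgroup G)) (H₃ := commutator G) h1 h
  rwa [← commutator_def] at this

/-- The group is of class at most three in terms of its elements. -/
structure ClassThree (G : Type v) [Group G] : Prop where
  /-- the commutator subgroup is abelian -/
  comm : ∀ a ∈ commutator G, ∀ b ∈ commutator G, a * b = b * a
  /-- commutators of elements of the commutator subgroup are central -/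
  cen : ∀ a ∈ commutator G, ∀ x y : G, ⁅a, x⁆ * y = y * ⁅a, x⁆

lemma classThree_of_lcs (hG : (⊤ : Subgroup G).lowerCentralSeries 3 = ⊥) : ClassThree G where
  comm := by
    intro a ha b hb
    have h := Subgroup.commutator_mem_commutator ha hb
    rw [commutator_comm_bot hG, Subgroup.mem_bot] at h
    exact commutatorElement_eq_one_iff_mul_comm.mp h
  cen := by
    intro a ha x y
    have h1 : ⁅a, x⁆ ∈ ⁅commutator G, (⊤ : Subgroup G)⁆ :=
      Subgroup.commutator_mem_commutator ha (Subgroup.mem_top x)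
    have h := Subgroup.commutator_mem_commutator h1 (Subgroup.mem_top y)
    rw [lcs_three hG, Subgroup.mem_bot] at h
    exact commutatorElement_eq_one_iff_mul_comm.mp h

variable (hC : ClassThree G)

include hC

lemma tau_central (x y z t : G) : tau x y z * t = t * tau x y z := by
  have h := hC.cen _ (mem_commutator_of_comm y z) x t⁻¹
  have h2 : tau x y z = ⁅⁅y, z⁆, x⁆⁻¹ := by
    rw [commutatorElement_inv]; rfl
  rw [h2]
  have h3 := hC.cen _ (mem_commutator_of_comm y z) x t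
  calc ⁅⁅y, z⁆, x⁆⁻¹ * t = ⁅⁅y, z⁆, x⁆⁻¹ * (t * ⁅⁅y, z⁆, x⁆) * ⁅⁅y, z⁆, x⁆⁻¹ := by group
    _ = ⁅⁅y, z⁆, x⁆⁻¹ * (⁅⁅y, z⁆, x⁆ * t) * ⁅⁅y, z⁆, x⁆⁻¹ := by rw [h3]
    _ = t * ⁅⁅y, z⁆, x⁆⁻¹ := by group

omit hC in
lemma comm_mul_left (x y z : G) : ⁅x * y, z⁆ = tau x y z * ⁅y, z⁆ * ⁅x, z⁆ := by
  simp only [tau, commutatorElement_def]
  group

lemma comm_central_right (x : G) {c u : G} (hc : ∀ t, c * t = t * c) : ⁅x, c * u⁆ = ⁅x, u⁆ := by
  have h1 : x * c = c * x := (hc x).symm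
  simp only [commutatorElement_def]
  calc x * (c * u) * x⁻¹ * (c * u)⁻¹ = (x * c) * u * x⁻¹ * u⁻¹ * c⁻¹ := by group
    _ = c * (x * u * x⁻¹ * u⁻¹) * c⁻¹ := by rw [h1]; group
    _ = (x * u * x⁻¹ * u⁻¹) * c * c⁻¹ := by
        rw [hc (x * u * x⁻¹ * u⁻¹)]
    _ = x * u * x⁻¹ * u⁻¹ := by group

lemma tau_mul_left (x x' y z : G) : tau (x * x') y z = tau x y z * tau x' y z := by
  have hmem := mem_commutator_of_comm y z
  have h1 : ⁅x * x', ⁅y, z⁆⁆ = tau x x' ⁅y, z⁆ * ⁅x', ⁅y, z⁆⁆ * ⁅x, ⁅y, z⁆⁆ :=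
    comm_mul_left x x' ⁅y, z⁆
  -- `⁅x', ⁅y, z⁆⁆` is central hence `tau x x' ⁅y, z⁆ = 1`
  have h2 : tau x x' ⁅y, z⁆ = 1 := by
    have hc : ∀ t, ⁅x', ⁅y, z⁆⁆ * t = t * ⁅x', ⁅y, z⁆⁆ := fun t => tau_central hC x' y z t
    have h3 : x * ⁅x', ⁅y, z⁆⁆ = ⁅x', ⁅y, z⁆⁆ * x := (hc x).symm
    exact commutatorElement_eq_one_iff_mul_comm.mpr h3
  show ⁅x * x', ⁅y, z⁆⁆ = ⁅x, ⁅y, z⁆⁆ * ⁅x', ⁅y, z⁆⁆
  rw [h1, h2, one_mul]
  exact (tau_central hC x' y z _)

lemma tau_mul_mid (x y y' z : G) : tau x (y * y') z = tau x y' z * tau x y z := by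
  show ⁅x, ⁅y * y', z⁆⁆ = ⁅x, ⁅y', z⁆⁆ * ⁅x, ⁅y, z⁆⁆
  rw [comm_mul_left y y' z, mul_assoc, comm_central_right hC x (fun t => tau_central hC y y' z t)]
  have hc : ∀ t, ⁅x, ⁅y, z⁆⁆ * t = t * ⁅x, ⁅y, z⁆⁆ := fun t => tau_central hC x y z t
  simp only [commutatorElement_def] at hc ⊢
  set m' := y' * z * y'⁻¹ * z⁻¹
  set m := y * z * y⁻¹ * z⁻¹
  calc x * (m' * m) * x⁻¹ * (m' * m)⁻¹
      = (x * m' * x⁻¹ * m'⁻¹) * (m' * (x * m * x⁻¹ * m⁻¹) * m'⁻¹) := by group
    _ = (x * m' * x⁻¹ * m'⁻¹) * ((x * m * x⁻¹ * m⁻¹) * m' * m'⁻¹) := by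
        rw [← hc m']
    _ = _ := by group

omit hC in
lemma tau_one_left (y z : G) : tau (1 : G) y z = 1 := by simp [tau]

omit hC in
lemma tau_one_mid (x z : G) : tau x (1 : G) z = 1 := by simp [tau]

lemma tau_pow_left (x y z : G) (k : ℕ) : tau (x ^ k) y z = (tau x y z) ^ k := by
  induction k with
  | zero => simp [tau_one_left]
  | succ k ih =>
    rw [pow_succ, tau_mul_left hC, ih, pow_succ]

lemma tau_pow_mid (x y z : G) (k : ℕ) : tau x (y ^ k) z = (tau x y z) ^ k := by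
  induction k with
  | zero => simp [tau_one_mid]
  | succ k ih =>
    rw [pow_succ', tau_mul_mid hC, ih, pow_succ]

lemma comm_pow_left (g z : G) (k : ℕ) :
    ⁅g ^ k, z⁆ = ⁅g, z⁆ ^ k * (tau g g z) ^ k.choose 2 := by
  induction k with
  | zero => simp
  | succ k ih =>
    have hc : ∀ (i : ℕ) (t : G), (tau g g z) ^ i * t = t * (tau g g z) ^ i := by
      intro i t
      induction i with
      | zero => simp
      | succ i ih2 =>
        rw [pow_succ, mul_assoc, tau_central hC, ← mul_assoc, ih2, mul_assoc]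
    have hs : ⁅g ^ (k + 1), z⁆ = tau g (g ^ k) z * ⁅g ^ k, z⁆ * ⁅g, z⁆ := by
      rw [pow_succ' g k, comm_mul_left]
    rw [hs, tau_pow_mid hC, ih, choose_two_succ,
      pow_succ ⁅g, z⁆ k, pow_add (tau g g z) (k.choose 2) k]
    calc tau g g z ^ k * (⁅g, z⁆ ^ k * tau g g z ^ k.choose 2) * ⁅g, z⁆
        = (⁅g, z⁆ ^ k * tau g g z ^ k.choose 2) * tau g g z ^ k * ⁅g, z⁆ := by rw [hc k]
      _ = ⁅g, z⁆ ^ k * (tau g g z ^ k.choose 2 * (tau g g z ^ k * ⁅g, z⁆)) := by group
      _ = ⁅g, z⁆ ^ k * (tau g g z ^ k.choose 2 * (⁅g, z⁆ * tau g g z ^ k)) := by rw [hc k]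
      _ = ⁅g, z⁆ ^ k * ((tau g g z ^ k.choose 2 * ⁅g, z⁆) * tau g g z ^ k) := by group
      _ = ⁅g, z⁆ ^ k * ((⁅g, z⁆ * tau g g z ^ k.choose 2) * tau g g z ^ k) := by rw [hc (k.choose 2)]
      _ = ⁅g, z⁆ ^ k * ⁅g, z⁆ * (tau g g z ^ k.choose 2 * tau g g z ^ k) := by group

end laws

section words

variable {α : Type u} [DecidableEq α] {G : Type v} [Group G] (g : α → G)

/-- The sorted product of powers of the letter images along the list `L`. -/
def tL (L : List α) (q : α → ℕ) : G := (L.map fun a => g a ^ q a).prod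

lemma tL_nil (q : α → ℕ) : tL g [] q = 1 := rfl

lemma tL_cons (a : α) (L : List α) (q : α → ℕ) : tL g (a :: L) q = g a ^ q a * tL g L q := by
  simp [tL]

lemma tL_append (L L' : List α) (q : α → ℕ) : tL g (L ++ L') q = tL g L q * tL g L' q := by
  simp [tL]

lemma tL_bump_of_notMem {L : List α} {l : α} (hl : l ∉ L) (q : α → ℕ) :
    tL g L (bump q l) = tL g L q := by
  induction L with
  | nil => rfl
  | cons a L ih =>
    have h1 : a ≠ l := fun h => hl (by simp [h])
    have h2 : l ∉ L := fun h => hl (by simp [h])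
    rw [tL_cons, tL_cons, ih h2]
    simp [bump, h1]

/-- A function of the count vector with values in the commutator subgroup of polynomial type. -/
def IsPoly (f : (α → ℕ) → G) : Prop :=
  ∃ F : (α → ℕ) → commutator G, Poly2 F ∧ ∀ q, (F q : G) = f q

lemma IsPoly.mul {f h : (α → ℕ) → G} (hf : IsPoly f) (hh : IsPoly h) :
    IsPoly (fun q => f q * h q) := by
  obtain ⟨F, hF, hF2⟩ := hf
  obtain ⟨H, hH, hH2⟩ := hh
  exact ⟨fun q => F q * H q, Poly2.mul _ _ hF hH, fun q => by simp [hF2, hH2]⟩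

lemma IsPoly.const {m : G} (hm : m ∈ commutator G) : IsPoly (fun _ : α → ℕ => m) :=
  ⟨fun _ => ⟨m, hm⟩, Poly2.const _, fun _ => rfl⟩

lemma IsPoly.lin (j : α) {m : G} (hm : m ∈ commutator G) : IsPoly (fun q : α → ℕ => m ^ q j) :=
  ⟨fun q => (⟨m, hm⟩ : commutator G) ^ q j, Poly2.lin j _, fun _ => by simp⟩

lemma IsPoly.quad {j k : α} (hjk : j ≠ k) {m : G} (hm : m ∈ commutator G) :
    IsPoly (fun q : α → ℕ => m ^ (q j * q k)) :=
  ⟨fun q => (⟨m, hm⟩ : commutator G) ^ (q j * q k), Poly2.quad j k hjk _, fun _ => by simp⟩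

lemma IsPoly.tri (j : α) {m : G} (hm : m ∈ commutator G) :
    IsPoly (fun q : α → ℕ => m ^ (q j).choose 2) :=
  ⟨fun q => (⟨m, hm⟩ : commutator G) ^ (q j).choose 2, Poly2.tri j _, fun _ => by simp⟩

variable (hC : ClassThree G)

include hC

lemma isPoly_tau_pow_tL (a : α) {L : List α} (ha : a ∉ L) (z : G) :
    IsPoly (fun q : α → ℕ => tau (g a ^ q a) (tL g L q) z) := by
  induction L with
  | nil =>
    have : (fun q : α → ℕ => tau (g a ^ q a) (tL g [] q) z) = fun _ => 1 := by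
      funext q
      simp [tL_nil, tau_one_mid]
    rw [this]
    exact IsPoly.const (Subgroup.one_mem _)
  | cons j L ih =>
    have h1 : a ≠ j := fun h => ha (by simp [h])
    have h2 : a ∉ L := fun h => ha (by simp [h])
    have e : (fun q : α → ℕ => tau (g a ^ q a) (tL g (j :: L) q) z) =
        fun q => tau (g a ^ q a) (tL g L q) z * (tau (g a) (g j) z) ^ (q a * q j) := by
      funext q
      have h : tau (g a ^ q a) (g j ^ q j) z = (tau (g a) (g j) z) ^ (q a * q j) := by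
        rw [tau_pow_mid hC, tau_pow_left hC, ← pow_mul, mul_comm]
      rw [tL_cons, tau_mul_mid hC, h]
    rw [e]
    exact (ih h2).mul (IsPoly.quad h1 (mem_commutator_of_comm _ _))

lemma isPoly_comm_tL {L : List α} (hL : L.Nodup) (z : G) :
    IsPoly (fun q : α → ℕ => ⁅tL g L q, z⁆) := by
  induction L with
  | nil =>
    have : (fun q : α → ℕ => ⁅tL g [] q, z⁆) = fun _ => 1 := by
      funext q
      simp [tL_nil]
    rw [this]
    exact IsPoly.const (Subgroup.one_mem _)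
  | cons a L ih =>
    have h1 := List.nodup_cons.mp hL
    have e : (fun q : α → ℕ => ⁅tL g (a :: L) q, z⁆) =
        fun q => tau (g a ^ q a) (tL g L q) z * ⁅tL g L q, z⁆ *
          (⁅g a, z⁆ ^ q a * (tau (g a) (g a) z) ^ (q a).choose 2) := by
      funext q
      rw [tL_cons, comm_mul_left, comm_pow_left hC]
    rw [e]
    exact ((isPoly_tau_pow_tL g hC a h1.1 z).mul (ih h1.2)).mul
      ((IsPoly.lin a (mem_commutator_of_comm _ _)).mul (IsPoly.tri a (mem_commutator_of_comm _ _)))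

lemma isPoly_tau_tL_tL {L L' : List α} (h : ∀ a ∈ L, a ∉ L') (z : G) :
    IsPoly (fun q : α → ℕ => tau (tL g L q) (tL g L' q) z) := by
  induction L with
  | nil =>
    have : (fun q : α → ℕ => tau (tL g [] q) (tL g L' q) z) = fun _ => 1 := by
      funext q
      simp [tL_nil, tau_one_left]
    rw [this]
    exact IsPoly.const (Subgroup.one_mem _)
  | cons a L ih =>
    have e : (fun q : α → ℕ => tau (tL g (a :: L) q) (tL g L' q) z) =
        fun q => tau (g a ^ q a) (tL g L' q) z * tau (tL g L q) (tL g L' q) z := by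
      funext q
      rw [tL_cons, tau_mul_left hC]
    rw [e]
    exact (isPoly_tau_pow_tL g hC a (h a (by simp)) z).mul
      (ih (fun b hb => h b (by simp [hb])))

/-- The increment of the sorted product along a letter is of polynomial type. -/
lemma isPoly_increment {ls : List α} (hls : ls.Nodup) {l : α} (hl : l ∈ ls) :
    IsPoly (fun q : α → ℕ => tL g ls q * g l * (tL g ls (bump q l))⁻¹) := by
  obtain ⟨L₁, L₂, rfl⟩ := List.append_of_mem hl
  have hnd := List.nodup_append.mp hls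
  have h1 : l ∉ L₁ := fun h => by
    have := hnd.2.2 l h l (by simp)
    exact this rfl
  have h2 : l ∉ L₂ := by
    have := (List.nodup_cons.mp hnd.2.1).1
    exact this
  have hdisj : ∀ a ∈ L₁ ++ [l], a ∉ L₂ := by
    intro a ha ha2
    rcases List.mem_append.mp ha with ha | ha
    · exact hnd.2.2 a ha a (by simp [ha2]) rfl
    · have : a = l := by simpa using ha
      exact h2 (this ▸ ha2)
  have hnd2 : L₂.Nodup := (List.nodup_cons.mp hnd.2.1).2
  have e : (fun q : α → ℕ => tL g (L₁ ++ l :: L₂) q * g l * (tL g (L₁ ++ l :: L₂) (bump q l))⁻¹) =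
      fun q => tau (tL g (L₁ ++ [l]) q) (tL g L₂ q) (g l) * ⁅tL g L₂ q, g l⁆ := by
    funext q
    have e1 : tL g (L₁ ++ l :: L₂) q = tL g (L₁ ++ [l]) q * tL g L₂ q := by
      rw [← tL_append]; simp
    have e2 : tL g (L₁ ++ l :: L₂) (bump q l) = tL g (L₁ ++ [l]) q * g l * tL g L₂ q := by
      rw [tL_append, tL_cons, tL_bump_of_notMem g h1, tL_bump_of_notMem g h2, tL_append, tL_cons,
        tL_nil]
      simp [bump, pow_succ, mul_assoc]
    rw [e1, e2]
    simp only [tau, commutatorElement_def]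
    group
  rw [e]
  exact (isPoly_tau_tL_tL g hC hdisj _).mul (isPoly_comm_tL g hC hnd2 _)

end words

end Vale.Agent.helper5.GSH
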