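import Vale.Agent.helper5.GSHSubword

/-!
Products along a word of elements of a commutative group that depend polynomially (degree two)
on the letter counts read so far are determined by the subword counts of length at most three.
-/

namespace Vale.Agent.helper5.GSH

universe u v

variable {α : Type u} [DecidableEq α] {M : Type v} [Group M]

/-- Add one to the coordinate `x` of a count vector. -/
def bump (q : α → ℕ) (x : α) : α → ℕ := fun j => q j + if j = x then 1 else 0

/-- Functions of the count vector of degree at most two in the coordinates. -/
inductive Poly2 : ((α → ℕ) → M) → Prop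
  | const (m : M) : Poly2 (fun _ => m)
  | lin (j : α) (m : M) : Poly2 (fun q => m ^ q j)
  | quad (j k : α) (hjk : j ≠ k) (m : M) : Poly2 (fun q => m ^ (q j * q k))
  | tri (j : α) (m : M) : Poly2 (fun q => m ^ (q j).choose 2)
  | mul (f h : (α → ℕ) → M) : Poly2 f → Poly2 h → Poly2 (fun q => f q * h q)

/-- The product along a word of the values of a family of functions of the count vector. -/
def Phi (C : α → (α → ℕ) → M) : (α → ℕ) → List α → M
  | _, [] => 1
  | q, x :: w => C x q * Phi C (bump q x) w

/-- The sum along a word, over the positions of the letter `l`, of `p` at the count vector. -/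
def expoSum (p : (α → ℕ) → ℕ) (l : α) : (α → ℕ) → List α → ℕ
  | _, [] => 0
  | q, x :: w => (if x = l then p q else 0) + expoSum p l (bump q x) w

/-- The family which is `f` at the letter `l` and trivial at the other letters. -/
def single (l : α) (f : (α → ℕ) → M) : α → (α → ℕ) → M :=
  fun x => if x = l then f else fun _ => 1

lemma phi_single_pow (l : α) (m : M) (p : (α → ℕ) → ℕ) (q : α → ℕ) (w : List α) :
    Phi (single l (fun q => m ^ p q)) q w = m ^ expoSum p l q w := by
  induction w generalizing q with
  | nil => simp [Phi, expoSum]
  | cons x w ih =>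
    simp only [Phi, expoSum, ih, single]
    by_cases h : x = l
    · simp [h, pow_add]
    · simp [h]

lemma phi_mul (hcomm : ∀ a b : M, a * b = b * a) (C C' : α → (α → ℕ) → M) (q : α → ℕ) (w : List α) :
    Phi (fun x q => C x q * C' x q) q w = Phi C q w * Phi C' q w := by
  induction w generalizing q with
  | nil => simp [Phi]
  | cons x w ih =>
    simp only [Phi, ih]
    rw [mul_assoc, mul_assoc, ← mul_assoc (C' x q), hcomm (C' x q), mul_assoc]

lemma expo_const (l : α) (q : α → ℕ) (w : List α) :
    expoSum (fun _ => 1) l q w = sw w [l] := by
  induction w generalizing q with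
  | nil => simp [expoSum]
  | cons x w ih =>
    simp only [expoSum, ih, sw_cons_cons, sw_nil_right]
    by_cases h : x = l <;> simp [h, add_comm]

lemma expo_lin (j l : α) (q : α → ℕ) (w : List α) :
    expoSum (fun q => q j) l q w = q j * sw w [l] + sw w [j, l] := by
  induction w generalizing q with
  | nil => simp [expoSum]
  | cons x w ih =>
    simp only [expoSum, ih, sw_cons_cons, sw_nil_right, bump]
    by_cases h2 : x = j
    · subst h2
      by_cases h1 : x = l
      · subst h1
        simp
        ring
      · simp [h1]
        ring
    · have h3 : j ≠ x := Ne.symm h2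
      by_cases h1 : x = l
      · subst h1
        simp [h2, h3]
        ring
      · simp [h1, h2, h3]

lemma expo_quad {j k : α} (hjk : j ≠ k) (l : α) (q : α → ℕ) (w : List α) :
    expoSum (fun q => q j * q k) l q w =
      q j * q k * sw w [l] + q j * sw w [k, l] + q k * sw w [j, l] +
        (sw w [j, k, l] + sw w [k, j, l]) := by
  induction w generalizing q with
  | nil => simp [expoSum]
  | cons x w ih =>
    simp only [expoSum, ih, sw_cons_cons, sw_nil_right, bump]
    by_cases h1 : x = j
    · subst h1
      by_cases h2 : x = l
      · subst h2
        simp [hjk, hjk.symm]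
        ring
      · simp [hjk, hjk.symm, h2]
        ring
    · by_cases h3 : x = k
      · subst h3
        by_cases h2 : x = l
        · subst h2
          simp [hjk, hjk.symm]
          ring
        · simp [hjk, hjk.symm, h2]
          ring
      · have h4 : j ≠ x := Ne.symm h1
        have h5 : k ≠ x := Ne.symm h3
        by_cases h2 : x = l
        · subst h2
          simp [h1, h3, h4, h5]
          ring
        · simp [h1, h2, h3, h4, h5]

lemma expo_tri (j l : α) (q : α → ℕ) (w : List α) :
    expoSum (fun q => (q j).choose 2) l q w =
      (q j).choose 2 * sw w [l] + q j * sw w [j, l] + sw w [j, j, l] := by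
  induction w generalizing q with
  | nil => simp [expoSum]
  | cons x w ih =>
    simp only [expoSum, ih, sw_cons_cons, sw_nil_right, bump]
    by_cases h1 : x = j
    · subst h1
      by_cases h2 : x = l
      · subst h2
        simp [choose_two_succ]
        ring
      · simp [h2, choose_two_succ]
        ring
    · have h4 : j ≠ x := Ne.symm h1
      by_cases h2 : x = l
      · subst h2
        simp [h1, h4]
        ring
      · simp [h1, h2, h4]

/-- Two words have the same subword counts of length at most three modulo `n`. -/
def DataEq (n : ℕ) (w w' : List α) : Prop :=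
  ∀ u : List α, u.length ≤ 3 → (sw w u : ZMod n) = (sw w' u : ZMod n)

lemma pow_congr_of_cast {n : ℕ} (hM : ∀ m : M, m ^ n = 1) (m : M) {a b : ℕ}
    (h : (a : ZMod n) = (b : ZMod n)) : m ^ a = m ^ b := by
  have h1 := (ZMod.natCast_eq_natCast_iff a b n).mp h
  rw [pow_eq_pow_mod a (hM m), pow_eq_pow_mod b (hM m), h1]

lemma phi_single_congr {n : ℕ} (hM : ∀ m : M, m ^ n = 1) (hcomm : ∀ a b : M, a * b = b * a)
    {w w' : List α} (hd : DataEq n w w') {f : (α → ℕ) → M} (hf : Poly2 f) (l : α) :
    Phi (single l f) (fun _ => 0) w = Phi (single l f) (fun _ => 0) w' := by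
  induction hf with
  | const m =>
    have h := phi_single_pow l m (fun _ => 1) (fun _ => 0)
    simp only [pow_one] at h
    rw [h, h, expo_const, expo_const]
    exact pow_congr_of_cast hM m (hd [l] (by simp))
  | lin j m =>
    have h := phi_single_pow l m (fun q => q j) (fun _ => 0)
    rw [h, h, expo_lin, expo_lin]
    simp only [zero_mul, zero_add]
    exact pow_congr_of_cast hM m (hd [j, l] (by simp))
  | quad j k hjk m =>
    have h := phi_single_pow l m (fun q => q j * q k) (fun _ => 0)
    rw [h, h, expo_quad hjk, expo_quad hjk]
    simp only [zero_mul, zero_add, mul_zero]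
    apply pow_congr_of_cast hM m
    push_cast
    rw [hd [j, k, l] (by simp), hd [k, j, l] (by simp)]
  | tri j m =>
    have h := phi_single_pow l m (fun q => (q j).choose 2) (fun _ => 0)
    rw [h, h, expo_tri, expo_tri]
    simp only [Nat.choose_zero_succ, zero_mul, zero_add]
    exact pow_congr_of_cast hM m (hd [j, j, l] (by simp))
  | mul f h _ _ ihf ihh =>
    have e : single l (fun q => f q * h q) = fun x q => single l f x q * single l h x q := by
      funext x q
      by_cases hx : x = l <;> simp [single, hx]
    rw [e, phi_mul hcomm, phi_mul hcomm, ihf, ihh]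

/-- The restriction of a family to the letters in `T`. -/
def restrictFam (T : Finset α) (C : α → (α → ℕ) → M) : α → (α → ℕ) → M :=
  fun x q => if x ∈ T then C x q else 1

lemma phi_restrict_congr {n : ℕ} (hM : ∀ m : M, m ^ n = 1) (hcomm : ∀ a b : M, a * b = b * a)
    {w w' : List α} (hd : DataEq n w w') {C : α → (α → ℕ) → M} (hC : ∀ l, Poly2 (C l))
    (T : Finset α) :
    Phi (restrictFam T C) (fun _ => 0) w = Phi (restrictFam T C) (fun _ => 0) w' := by
  classical
  induction T using Finset.induction_on with
  | empty =>
    have h : ∀ (q : α → ℕ) (v : List α), Phi (restrictFam ∅ C) q v = 1 := by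
      intro q v
      induction v generalizing q with
      | nil => rfl
      | cons x v ih => simp [Phi, restrictFam, ih]
    rw [h, h]
  | insert a T ha ih =>
    have e : restrictFam (insert a T) C =
        fun x q => restrictFam T C x q * single a (C a) x q := by
      funext x q
      by_cases h1 : x = a
      · subst h1
        simp [restrictFam, single, ha]
      · simp [restrictFam, single, h1]
    rw [e, phi_mul hcomm, phi_mul hcomm, ih, phi_single_congr hM hcomm hd (hC a) a]

/-- The product along a word is determined by the subword counts of length at most three. -/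
theorem phi_congr [Fintype α] {n : ℕ} (hM : ∀ m : M, m ^ n = 1) (hcomm : ∀ a b : M, a * b = b * a)
    {w w' : List α} (hd : DataEq n w w') {C : α → (α → ℕ) → M} (hC : ∀ l, Poly2 (C l)) :
    Phi C (fun _ => 0) w = Phi C (fun _ => 0) w' := by
  have e : restrictFam Finset.univ C = C := by
    funext x q
    simp [restrictFam]
  have := phi_restrict_congr hM hcomm hd hC Finset.univ
  rwa [e] at this

end Vale.Agent.helper5.GSH
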