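import Vale.Agent.helper5.LT2Rep

/-!
The one-dimensional real inequality behind the pointwise estimate, second order filter.
-/

open MeasureTheory Set Real
open scoped ENNReal

namespace LT

lemma integrable_comb_mul {κ : ℝ} (hκ : 0 < κ) (n : ℕ) (c d : ℝ) {r : ℝ → ℝ} (hrm : Measurable r)
    (hr : Integrable (fun t => r t ^ 2)) :
    Integrable (fun t => (c * ((κ + |t|) ^ (n + 1))⁻¹ + d * ((κ + |t|) ^ (n + 2))⁻¹) * r t) := by
  refine integrable_mul_of_sq (by fun_prop) hrm ?_ hr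
  have h1 : Integrable (fun t => ((κ + |t|) ^ (2 * n + 2))⁻¹) := integrable_inv_abs_pow hκ (by omega)
  have h2 : Integrable (fun t => ((κ + |t|) ^ (2 * n + 3))⁻¹) := integrable_inv_abs_pow hκ (by omega)
  have h3 : Integrable (fun t => ((κ + |t|) ^ (2 * n + 4))⁻¹) := integrable_inv_abs_pow hκ (by omega)
  have h := ((h1.const_mul (c ^ 2)).add (h2.const_mul (2 * c * d))).add (h3.const_mul (d ^ 2))
  refine h.congr (Filter.Eventually.of_forall fun t => ?_)
  simp only [Pi.add_apply]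
  have hu : κ + |t| ≠ 0 := by positivity
  field_simp
  ring

/-- Fubini for the Laplace transform of `(3 - a|t|) exp(-a|t|) r(t)`. -/
theorem laplace_abs2 (n : ℕ) {κ : ℝ} (hκ : 0 < κ) {r : ℝ → ℝ} (hrm : Measurable r)
    (hr : Integrable (fun t => r t ^ 2)) :
    IntegrableOn (fun a => a ^ n * exp (-(κ * a)) * ∫ t, (3 - a * |t|) * exp (-(a * |t|)) * r t)
      (Ioi 0) ∧
      ∫ a in Ioi (0:ℝ), a ^ n * exp (-(κ * a)) * ∫ t, (3 - a * |t|) * exp (-(a * |t|)) * r t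
        = ∫ t, (((2 - (n:ℝ)) * n.factorial) * ((κ + |t|) ^ (n + 1))⁻¹
            + (κ * (n + 1).factorial) * ((κ + |t|) ^ (n + 2))⁻¹) * r t := by
  let F : ℝ → ℝ → ℝ := fun a t => a ^ n * exp (-(κ * a)) * ((3 - a * |t|) * exp (-(a * |t|)) * r t)
  let D : ℝ → ℝ → ℝ := fun a t => |r t| * (3 * (a ^ n * exp (-((κ + |t|) * a)))
    + |t| * (a ^ (n + 1) * exp (-((κ + |t|) * a))))
  have hFm : Measurable (Function.uncurry F) := by
    unfold Function.uncurry
    simp only [F]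
    fun_prop
  have hDm : Measurable (Function.uncurry D) := by
    unfold Function.uncurry
    simp only [D]
    fun_prop
  have hinnerF : ∀ t, IntegrableOn (fun a => F a t) (Ioi 0) ∧
      ∫ a in Ioi (0:ℝ), F a t = (((2 - (n:ℝ)) * n.factorial) * ((κ + |t|) ^ (n + 1))⁻¹
            + (κ * (n + 1).factorial) * ((κ + |t|) ^ (n + 2))⁻¹) * r t := by
    intro t
    have hb : 0 < κ + |t| := by positivity
    have h1 := hasI_mono n hb
    have h2 := hasI_mono (n + 1) hb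
    have h := (h1.cmul (3 * r t)).sub (h2.cmul (|t| * r t))
    have h' := h.congr (g := fun a => F a t) (fun a _ => by
      simp only [F]
      rw [show -((κ + |t|) * a) = -(κ * a) + -(a * |t|) by ring, exp_add, pow_succ]
      ring) rfl
    refine ⟨h'.1, h'.2.trans ?_⟩
    have hfac : ((n + 1).factorial : ℝ) = (n + 1) * n.factorial := by
      rw [Nat.factorial_succ]; push_cast; ring
    have hab : |t| = (κ + |t|) - κ := by ring
    rw [hfac]
    simp only [div_eq_mul_inv]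
    have hu : κ + |t| ≠ 0 := hb.ne'
    field_simp
    ring
  have hinnerD : ∀ t, IntegrableOn (fun a => D a t) (Ioi 0) ∧
      ∫ a in Ioi (0:ℝ), D a t = ‖((3 * n.factorial + (n + 1).factorial) * ((κ + |t|) ^ (n + 1))⁻¹
            + (-κ * (n + 1).factorial) * ((κ + |t|) ^ (n + 2))⁻¹) * r t‖ := by
    intro t
    have hb : 0 < κ + |t| := by positivity
    have h1 := hasI_mono n hb
    have h2 := hasI_mono (n + 1) hb
    have h := (h1.cmul (3 * |r t|)).add (h2.cmul (|t| * |r t|))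
    have h' := h.congr (g := fun a => D a t) (fun a _ => by
      simp only [D]
      ring) rfl
    refine ⟨h'.1, h'.2.trans ?_⟩
    have hu : κ + |t| ≠ 0 := hb.ne'
    have hpos : 0 ≤ (3 * (n.factorial : ℝ) + (n + 1).factorial) * ((κ + |t|) ^ (n + 1))⁻¹
        + (-κ * (n + 1).factorial) * ((κ + |t|) ^ (n + 2))⁻¹ := by
      have e : (3 * (n.factorial : ℝ) + (n + 1).factorial) * ((κ + |t|) ^ (n + 1))⁻¹
        + (-κ * (n + 1).factorial) * ((κ + |t|) ^ (n + 2))⁻¹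
        = 3 * (n.factorial : ℝ) * ((κ + |t|) ^ (n + 1))⁻¹
          + |t| * (n + 1).factorial * ((κ + |t|) ^ (n + 2))⁻¹ := by
        field_simp
        ring
      rw [e]
      positivity
    rw [norm_mul, Real.norm_eq_abs, Real.norm_eq_abs, abs_of_nonneg hpos]
    simp only [div_eq_mul_inv]
    field_simp
    ring
  have hbound : ∀ a ∈ Ioi (0:ℝ), ∀ t, ‖F a t‖ ≤ D a t := by
    intro a ha t
    have ha' : (0:ℝ) < a := ha
    simp only [F, D]
    rw [Real.norm_eq_abs, abs_mul, abs_mul, abs_mul, abs_mul, abs_of_pos (exp_pos (-(κ * a))),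
      abs_of_pos (exp_pos (-(a * |t|))), abs_of_pos (pow_pos ha' n)]
    have h3 : abs (3 - a * |t|) ≤ 3 + a * |t| := by
      have : 0 ≤ a * |t| := by positivity
      rw [abs_le]
      constructor <;> linarith
    have he : exp (-((κ + |t|) * a)) = exp (-(κ * a)) * exp (-(a * |t|)) := by
      rw [← exp_add]; congr 1; ring
    rw [he]
    have h4 : 0 ≤ a ^ n * exp (-(κ * a)) * exp (-(a * |t|)) * |r t| := by positivity
    calc a ^ n * exp (-(κ * a)) * (abs (3 - a * |t|) * exp (-(a * |t|)) * |r t|)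
        = abs (3 - a * |t|) * (a ^ n * exp (-(κ * a)) * exp (-(a * |t|)) * |r t|) := by ring
      _ ≤ (3 + a * |t|) * (a ^ n * exp (-(κ * a)) * exp (-(a * |t|)) * |r t|) :=
          mul_le_mul_of_nonneg_right h3 h4
      _ = _ := by rw [pow_succ]; ring
  have hDprod : Integrable (Function.uncurry D) ((volume.restrict (Ioi (0:ℝ))).prod volume) := by
    rw [integrable_prod_iff' hDm.aestronglyMeasurable]
    constructor
    · exact Filter.Eventually.of_forall fun t => (hinnerD t).1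
    · have hdom := (integrable_comb_mul hκ n (3 * n.factorial + (n + 1).factorial)
        (-κ * (n + 1).factorial) hrm hr).norm
      refine hdom.congr (Filter.Eventually.of_forall fun t => ?_)
      simp only
      rw [← (hinnerD t).2]
      refine setIntegral_congr_fun measurableSet_Ioi fun a ha => ?_
      have ha' : (0:ℝ) < a := ha
      simp only [Function.uncurry]
      rw [Real.norm_eq_abs, abs_of_nonneg]
      simp only [D]
      positivity
  have hprod : Integrable (Function.uncurry F) ((volume.restrict (Ioi (0:ℝ))).prod volume) := by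
    refine Integrable.mono' hDprod hFm.aestronglyMeasurable ?_
    have hae : ∀ᵐ p : ℝ × ℝ ∂((volume.restrict (Ioi (0:ℝ))).prod volume), p.1 ∈ Ioi (0:ℝ) := by
      have h0 : ∀ᵐ a ∂(volume.restrict (Ioi (0:ℝ))), a ∈ Ioi (0:ℝ) :=
        ae_restrict_mem measurableSet_Ioi
      exact Measure.quasiMeasurePreserving_fst.ae h0
    filter_upwards [hae] with p hp
    exact hbound p.1 hp p.2
  have hcongr : ∀ a ∈ Ioi (0:ℝ), ∫ t, F a t
      = a ^ n * exp (-(κ * a)) * ∫ t, (3 - a * |t|) * exp (-(a * |t|)) * r t :=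
    fun a _ => integral_const_mul _ _
  constructor
  · exact IntegrableOn.congr_fun hprod.integral_prod_left hcongr measurableSet_Ioi
  · rw [← setIntegral_congr_fun measurableSet_Ioi hcongr, integral_integral_swap (f := F) hprod]
    exact integral_congr_ae (Filter.Eventually.of_forall fun t => (hinnerF t).2)

/-- The dual kernel of the second order filter. -/
noncomputable def Psi2 (c0 c1 c2 l t : ℝ) : ℝ :=
  9 * l * (c0 - c1) * ((l + |t|) ^ 4)⁻¹ + 36 * l ^ 2 * (c1 - 2 * c2) * ((l + |t|) ^ 5)⁻¹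
    + 180 * c2 * l ^ 3 * ((l + |t|) ^ 6)⁻¹

lemma measurable_Psi2 (c0 c1 c2 l : ℝ) : Measurable (Psi2 c0 c1 c2 l) := by
  unfold Psi2; fun_prop

lemma hasW_Psi2_sq (c0 c1 c2 : ℝ) {l : ℝ} (hl : 0 < l) :
    HasW (fun t => Psi2 c0 c1 c2 l t ^ 2)
      ((81 * (c0 - c1) ^ 2 * (2 / 7) + 2 * 9 * 36 * (c0 - c1) * (c1 - 2 * c2) * (2 / 8)
        + (1296 * (c1 - 2 * c2) ^ 2 + 2 * 9 * 180 * (c0 - c1) * c2) * (2 / 9)
        + 2 * 36 * 180 * (c1 - 2 * c2) * c2 * (2 / 10) + 32400 * c2 ^ 2 * (2 / 11)) / l ^ 5) := by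
  have h := ((((hasW_pow hl (m := 8) (by norm_num)).cmul (81 * l ^ 2 * (c0 - c1) ^ 2)).add
    ((hasW_pow hl (m := 9) (by norm_num)).cmul (2 * 9 * 36 * l ^ 3 * (c0 - c1) * (c1 - 2 * c2)))).add
    ((hasW_pow hl (m := 10) (by norm_num)).cmul
      ((1296 * (c1 - 2 * c2) ^ 2 + 2 * 9 * 180 * (c0 - c1) * c2) * l ^ 4))).add
    ((hasW_pow hl (m := 11) (by norm_num)).cmul (2 * 36 * 180 * l ^ 5 * (c1 - 2 * c2) * c2))
  have h := h.add ((hasW_pow hl (m := 12) (by norm_num)).cmul (32400 * c2 ^ 2 * l ^ 6))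
  refine h.congr ?_ ?_
  · intro t
    unfold Psi2
    have hu : l + |t| ≠ 0 := by positivity
    field_simp
    ring
  · norm_num
    field_simp
    ring

/-- The cross term in the `a` integral. -/
lemma hasI_cross2 (c0 c1 c2 : ℝ) {l : ℝ} (hl : 0 < l) {r : ℝ → ℝ} (hrm : Measurable r)
    (hr : Integrable (fun t => r t ^ 2)) :
    HasI (fun a => 3 * a ^ 2 * tau c0 c1 c2 l a * ∫ t, (3 - a * |t|) * exp (-(a * |t|)) * r t)
      (2 * ∫ t, Psi2 c0 c1 c2 l t * r t) := by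
  have X2 := laplace_abs2 2 hl hrm hr
  have X3 := laplace_abs2 3 hl hrm hr
  have X4 := laplace_abs2 4 hl hrm hr
  have hW : HasW (fun t => Psi2 c0 c1 c2 l t * r t)
      ((3 / 2) * (c0 * (∫ t, (((2 - ((2:ℕ):ℝ)) * (Nat.factorial 2 : ℝ)) * ((l + |t|) ^ (2 + 1))⁻¹
            + (l * (Nat.factorial (2 + 1) : ℝ)) * ((l + |t|) ^ (2 + 2))⁻¹) * r t)
        + c1 * l * (∫ t, (((2 - ((3:ℕ):ℝ)) * (Nat.factorial 3 : ℝ)) * ((l + |t|) ^ (3 + 1))⁻¹
            + (l * (Nat.factorial (3 + 1) : ℝ)) * ((l + |t|) ^ (3 + 2))⁻¹) * r t)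
        + c2 * l ^ 2 * (∫ t, (((2 - ((4:ℕ):ℝ)) * (Nat.factorial 4 : ℝ)) * ((l + |t|) ^ (4 + 1))⁻¹
            + (l * (Nat.factorial (4 + 1) : ℝ)) * ((l + |t|) ^ (4 + 2))⁻¹) * r t))) := by
    have w2 : HasW _ _ := (⟨integrable_comb_mul hl 2 _ _ hrm hr, rfl⟩ : HasW (fun t => (((2 - ((2:ℕ):ℝ)) * (Nat.factorial 2 : ℝ)) * ((l + |t|) ^ (2 + 1))⁻¹
            + (l * (Nat.factorial (2 + 1) : ℝ)) * ((l + |t|) ^ (2 + 2))⁻¹) * r t) _)
    have w3 : HasW _ _ := (⟨integrable_comb_mul hl 3 _ _ hrm hr, rfl⟩ : HasW (fun t => (((2 - ((3:ℕ):ℝ)) * (Nat.factorial 3 : ℝ)) * ((l + |t|) ^ (3 + 1))⁻¹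
            + (l * (Nat.factorial (3 + 1) : ℝ)) * ((l + |t|) ^ (3 + 2))⁻¹) * r t) _)
    have w4 : HasW _ _ := (⟨integrable_comb_mul hl 4 _ _ hrm hr, rfl⟩ : HasW (fun t => (((2 - ((4:ℕ):ℝ)) * (Nat.factorial 4 : ℝ)) * ((l + |t|) ^ (4 + 1))⁻¹
            + (l * (Nat.factorial (4 + 1) : ℝ)) * ((l + |t|) ^ (4 + 2))⁻¹) * r t) _)
    refine (((((w2.cmul c0).add (w3.cmul (c1 * l))).add (w4.cmul (c2 * l ^ 2)))).cmul (3 / 2)).congr ?_ rfl
    intro t
    unfold Psi2
    simp only [Nat.factorial]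
    push_cast
    ring
  have h := (((show HasI _ _ from X2).cmul c0).add ((show HasI _ _ from X3).cmul (c1 * l))).add
    ((show HasI _ _ from X4).cmul (c2 * l ^ 2))
  refine (h.cmul 3).congr ?_ ?_
  · intro a _
    unfold tau
    ring
  · rw [hW.2]
    ring

/-- The main real inequality with general parameters. -/
theorem real_core_general2 (c0 c1 c2 : ℝ) {l η p : ℝ} (hl : 0 < l) (hη : 0 < η) {r : ℝ → ℝ}
    (hrm : Measurable r) (hr : Integrable (fun t => r t ^ 2)) (hp : ∫ t, r t ^ 2 ≤ p) :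
    IntegrableOn (fun a => 6 * a * (2 * tau c0 c1 c2 l a - tau c0 c1 c2 l a ^ 2) * p
        - 3 * a ^ 2 * tau c0 c1 c2 l a * ∫ t, (3 - a * |t|) * exp (-(a * |t|)) * r t) (Ioi 0) ∧
      3 * ((4 * c0 + 8 * c1 + 24 * c2 - c0 ^ 2 / 2 - c0 * c1 - 3 / 4 * (c1 ^ 2 + 2 * c0 * c2)
        - 3 * c1 * c2 - 15 / 4 * c2 ^ 2) / l ^ 2) * p
        - η * ((81 * (c0 - c1) ^ 2 * (2 / 7) + 2 * 9 * 36 * (c0 - c1) * (c1 - 2 * c2) * (2 / 8)
        + (1296 * (c1 - 2 * c2) ^ 2 + 2 * 9 * 180 * (c0 - c1) * c2) * (2 / 9)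
        + 2 * 36 * 180 * (c1 - 2 * c2) * c2 * (2 / 10) + 32400 * c2 ^ 2 * (2 / 11)) / l ^ 5)
        - η⁻¹ * p
        ≤ ∫ a in Ioi (0:ℝ), (6 * a * (2 * tau c0 c1 c2 l a - tau c0 c1 c2 l a ^ 2) * p
        - 3 * a ^ 2 * tau c0 c1 c2 l a * ∫ t, (3 - a * |t|) * exp (-(a * |t|)) * r t) := by
  have hD := (hasI_D c0 c1 c2 hl).cmul 3
  have hC := hasI_cross2 c0 c1 c2 hl hrm hr
  have hQ := (hD.cmul p).sub hC
  have hQ' : HasI (fun a => 6 * a * (2 * tau c0 c1 c2 l a - tau c0 c1 c2 l a ^ 2) * p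
        - 3 * a ^ 2 * tau c0 c1 c2 l a * ∫ t, (3 - a * |t|) * exp (-(a * |t|)) * r t) _ :=
    hQ.congr (fun a _ => by ring) rfl
  refine ⟨hQ'.1, ?_⟩
  rw [hQ'.2]
  have hP := hasW_Psi2_sq c0 c1 c2 hl
  have hΨr : Integrable (fun t => Psi2 c0 c1 c2 l t * r t) :=
    integrable_mul_of_sq (measurable_Psi2 _ _ _ _) hrm hP.1 hr
  have hmono : ∫ t, 2 * (Psi2 c0 c1 c2 l t * r t)
      ≤ ∫ t, (η * Psi2 c0 c1 c2 l t ^ 2 + η⁻¹ * r t ^ 2) := by
    refine integral_mono (hΨr.const_mul 2) ((hP.1.const_mul η).add (hr.const_mul η⁻¹)) fun t => ?_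
    simp only
    have h1 : 0 ≤ η⁻¹ * (η * Psi2 c0 c1 c2 l t - r t) ^ 2 := by positivity
    have h2 : η⁻¹ * (η * Psi2 c0 c1 c2 l t - r t) ^ 2
        = η * Psi2 c0 c1 c2 l t ^ 2 - 2 * (Psi2 c0 c1 c2 l t * r t) + η⁻¹ * r t ^ 2 := by
      field_simp
      ring
    linarith
  rw [integral_const_mul, integral_add (hP.1.const_mul η) (hr.const_mul η⁻¹),
    integral_const_mul, integral_const_mul, hP.2] at hmono
  have hinv : 0 < η⁻¹ := inv_pos.mpr hη
  have : η⁻¹ * ∫ t, r t ^ 2 ≤ η⁻¹ * p := mul_le_mul_of_nonneg_left hp hinv.le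
  linarith

end LT

namespace LT

/-- The specific numbers. -/
theorem real_core2 {s p : ℝ} (hs : 0 < s) {r : ℝ → ℝ}
    (hrm : Measurable r) (hr : Integrable (fun t => r t ^ 2)) (hp : ∫ t, r t ^ 2 ≤ p) :
    IntegrableOn (fun a => 6 * a * (2 * tau (167/200) (-109/200) (7/100) (1 / s) a
          - tau (167/200) (-109/200) (7/100) (1 / s) a ^ 2) * p
        - 3 * a ^ 2 * tau (167/200) (-109/200) (7/100) (1 / s) a
          * ∫ t, (3 - a * |t|) * exp (-(a * |t|)) * r t) (Ioi 0) ∧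
      s ^ 2 * p - 3087 / 10000 * s ^ 3
        ≤ ∫ a in Ioi (0:ℝ), (6 * a * (2 * tau (167/200) (-109/200) (7/100) (1 / s) a
          - tau (167/200) (-109/200) (7/100) (1 / s) a ^ 2) * p
        - 3 * a ^ 2 * tau (167/200) (-109/200) (7/100) (1 / s) a
          * ∫ t, (3 - a * |t|) * exp (-(a * |t|)) * r t) := by
  have hl : 0 < 1 / s := by positivity
  have hη : 0 < 32000 / 21001 / s ^ 2 := by positivity
  obtain ⟨h1, h2⟩ := real_core_general2 (167/200) (-109/200) (7/100) hl hη hrm hr hp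
  refine ⟨h1, le_trans ?_ h2⟩
  have hp0 : 0 ≤ p := le_trans (integral_nonneg fun _ => sq_nonneg _) hp
  have e1 : 3 * ((4 * (167/200 : ℝ) + 8 * (-109/200) + 24 * (7/100) - (167/200) ^ 2 / 2
      - (167/200) * (-109/200) - 3 / 4 * ((-109/200) ^ 2 + 2 * (167/200) * (7/100))
      - 3 * (-109/200) * (7/100) - 15 / 4 * (7/100) ^ 2) / (1 / s) ^ 2) = 53001 / 32000 * s ^ 2 := by
    field_simp
    norm_num
  have e2 : ((81 * ((167/200 : ℝ) - (-109/200)) ^ 2 * (2 / 7)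
      + 2 * 9 * 36 * ((167/200) - (-109/200)) * ((-109/200) - 2 * (7/100)) * (2 / 8)
      + (1296 * ((-109/200) - 2 * (7/100)) ^ 2 + 2 * 9 * 180 * ((167/200) - (-109/200)) * (7/100)) * (2 / 9)
      + 2 * 36 * 180 * ((-109/200) - 2 * (7/100)) * (7/100) * (2 / 10)
      + 32400 * (7/100) ^ 2 * (2 / 11)) / (1 / s) ^ 5) = 77967 / 385000 * s ^ 5 := by
    field_simp
    norm_num
  rw [e1, e2]
  have e3 : (32000 / 21001 / s ^ 2)⁻¹ = 21001 / 32000 * s ^ 2 := by
    field_simp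
  rw [e3]
  have e4 : 32000 / 21001 / s ^ 2 * (77967 / 385000 * s ^ 5)
      = (32000 / 21001 * (77967 / 385000)) * s ^ 3 := by
    field_simp
  rw [e4]
  have hc : (32000 / 21001 * (77967 / 385000) : ℝ) ≤ 3087 / 10000 := by norm_num
  have hs3 : 0 < s ^ 3 := by positivity
  nlinarith [mul_le_mul_of_nonneg_right hc hs3.le]

end LT
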