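import Vale.Agent.helper5.LTCore

/-!
Second order filter: the kernels and their autocorrelations.
-/

open MeasureTheory Set Real
open scoped ENNReal

namespace LT

/-- One sided polynomial times exponential kernel. -/
noncomputable def Pk (b c0 c1 c2 a t : ℝ) : ℝ :=
  if 0 < t then b * (c0 + c1 * (a * t) + c2 * (a * t) ^ 2) * exp (-(a * t)) else 0

lemma measurable_Pk (b c0 c1 c2 a : ℝ) : Measurable (Pk b c0 c1 c2 a) := by
  unfold Pk
  exact Measurable.ite measurableSet_Ioi (by fun_prop) (by fun_prop)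

/-- The value of the autocorrelation polynomial. -/
noncomputable def PkVal (c0 c1 c2 x : ℝ) : ℝ :=
  c0 * (c0 + c1 * x + c2 * x ^ 2) / 2 + (c0 * (c1 + 2 * c2 * x) + c1 * (c0 + c1 * x + c2 * x ^ 2)) / 4
    + (c0 * c2 + c1 * (c1 + 2 * c2 * x) + c2 * (c0 + c1 * x + c2 * x ^ 2)) / 4
    + (c1 * c2 + c2 * (c1 + 2 * c2 * x)) * (3 / 8) + c2 ^ 2 * (3 / 4)

lemma auto_Pk_nonneg (b c0 c1 c2 : ℝ) {a z : ℝ} (ha : 0 < a) (hz : 0 ≤ z) :
    Integrable (fun s => Pk b c0 c1 c2 a s * Pk b c0 c1 c2 a (s + z)) ∧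
      ∫ s, Pk b c0 c1 c2 a s * Pk b c0 c1 c2 a (s + z)
        = b ^ 2 / a * exp (-(a * z)) * PkVal c0 c1 c2 (a * z) := by
  have h2a : 0 < 2 * a := by positivity
  set x := a * z with hx
  set C0 := c0 + c1 * x + c2 * x ^ 2 with hC0
  set C1 := c1 + 2 * c2 * x with hC1
  let st : ℝ → ℝ := fun s => b ^ 2 * exp (-x) * (c0 * C0 + (c0 * C1 + c1 * C0) * (a * s)
    + (c0 * c2 + c1 * C1 + c2 * C0) * (a * s) ^ 2 + (c1 * c2 + c2 * C1) * (a * s) ^ 3
    + c2 ^ 2 * (a * s) ^ 4) * exp (-((2 * a) * s))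
  have hform : (fun s => Pk b c0 c1 c2 a s * Pk b c0 c1 c2 a (s + z)) = (Ioi (0:ℝ)).indicator st := by
    funext s
    by_cases hs : 0 < s
    · have hs' : 0 < s + z := by linarith
      simp only [Pk, hs, hs', if_true, indicator, mem_Ioi, st]
      have he : exp (-(a * s)) * exp (-(a * (s + z))) = exp (-x) * exp (-((2 * a) * s)) := by
        rw [← exp_add, ← exp_add]; congr 1; rw [hx]; ring
      have hexp : b * (c0 + c1 * (a * s) + c2 * (a * s) ^ 2) * exp (-(a * s))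
          * (b * (c0 + c1 * (a * (s + z)) + c2 * (a * (s + z)) ^ 2) * exp (-(a * (s + z))))
          = b ^ 2 * ((c0 + c1 * (a * s) + c2 * (a * s) ^ 2)
            * (c0 + c1 * (a * (s + z)) + c2 * (a * (s + z)) ^ 2))
            * (exp (-(a * s)) * exp (-(a * (s + z)))) := by ring
      rw [hexp, he, hC0, hC1, hx]
      ring
    · simp [Pk, hs, indicator]
  have hI : HasI st (b ^ 2 / a * exp (-x) * PkVal c0 c1 c2 x) := by
    have h0 := hasI_mono 0 h2a
    have h1 := hasI_mono 1 h2a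
    have h2 := hasI_mono 2 h2a
    have h3 := hasI_mono 3 h2a
    have h4 := hasI_mono 4 h2a
    have h := ((((h0.cmul (b ^ 2 * exp (-x) * (c0 * C0))).add
      (h1.cmul (b ^ 2 * exp (-x) * ((c0 * C1 + c1 * C0) * a)))).add
      (h2.cmul (b ^ 2 * exp (-x) * ((c0 * c2 + c1 * C1 + c2 * C0) * a ^ 2)))).add
      (h3.cmul (b ^ 2 * exp (-x) * ((c1 * c2 + c2 * C1) * a ^ 3)))).add
      (h4.cmul (b ^ 2 * exp (-x) * (c2 ^ 2 * a ^ 4)))
    refine h.congr ?_ ?_
    · intro s _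
      simp only [st]
      ring
    · unfold PkVal
      simp only [Nat.factorial]
      push_cast
      rw [← hC0, ← hC1]
      field_simp
      ring
  rw [hform]
  constructor
  · rw [integrable_indicator_iff measurableSet_Ioi]
    exact hI.1
  · rw [integral_indicator measurableSet_Ioi, hI.2]

/-- Autocorrelation for every `z`. -/
lemma auto_Pk (b c0 c1 c2 : ℝ) {a : ℝ} (ha : 0 < a) (z : ℝ) :
    auto (Pk b c0 c1 c2 a) z = b ^ 2 / a * exp (-(a * |z|)) * PkVal c0 c1 c2 (a * |z|) := by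
  rcases le_total 0 z with hz | hz
  · rw [abs_of_nonneg hz]; exact (auto_Pk_nonneg b c0 c1 c2 ha hz).2
  · have h := (auto_Pk_nonneg b c0 c1 c2 (z := -z) ha (by linarith)).2
    rw [abs_of_nonpos hz, ← auto_neg]; exact h

lemma abs_Pk_le (b c0 c1 c2 : ℝ) {a : ℝ} (ha : 0 < a) (t : ℝ) :
    |Pk b c0 c1 c2 a t| ≤ |b| * (|c0| + |c1| * (a * |t|) + |c2| * (a * |t|) ^ 2) * exp (-(a * |t|)) := by
  unfold Pk
  split_ifs with h
  · rw [abs_of_pos h, abs_mul, abs_mul, abs_of_pos (exp_pos _)]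
    gcongr
    calc |c0 + c1 * (a * t) + c2 * (a * t) ^ 2| ≤ |c0| + |c1 * (a * t)| + |c2 * (a * t) ^ 2| :=
          abs_add_three _ _ _
      _ = _ := by
          rw [abs_mul c1, abs_mul c2, abs_of_pos (by positivity : 0 < a * t),
            abs_of_pos (by positivity : 0 < (a * t) ^ 2)]
  · rw [abs_zero]
    positivity

lemma integrable_poly_exp_abs (d0 d1 d2 : ℝ) {a : ℝ} (ha : 0 < a) :
    Integrable (fun t => (d0 + d1 * (a * |t|) + d2 * (a * |t|) ^ 2) * exp (-(a * |t|))) := by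
  have h := (((integrableOn_exp_mul ha).const_mul d0).add ((integrableOn_pow_exp 1 ha).const_mul (d1 * a))).add
    ((integrableOn_pow_exp 2 ha).const_mul (d2 * a ^ 2))
  have h' : IntegrableOn (fun t => (d0 + d1 * (a * t) + d2 * (a * t) ^ 2) * exp (-(a * t))) (Ioi 0) := by
    refine IntegrableOn.congr_fun h (fun t _ => ?_) measurableSet_Ioi
    simp only [Pi.add_apply]
    ring
  exact integrable_comp_abs' h'

lemma integrable_Pk (b c0 c1 c2 : ℝ) {a : ℝ} (ha : 0 < a) : Integrable (Pk b c0 c1 c2 a) := by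
  have h := (integrable_poly_exp_abs |c0| |c1| |c2| ha).const_mul |b|
  refine Integrable.mono' h (measurable_Pk _ _ _ _ _).aestronglyMeasurable ?_
  refine Filter.Eventually.of_forall fun t => ?_
  rw [Real.norm_eq_abs]
  refine (abs_Pk_le b c0 c1 c2 ha t).trans (le_of_eq ?_)
  ring

lemma integrable_sq_of_bdd {k : ℝ → ℝ} (hkm : Measurable k) (hk : Integrable k) {C : ℝ}
    (hC : ∀ t, |k t| ≤ C) : Integrable (fun t => k t ^ 2) := by
  have hC0 : 0 ≤ C := (abs_nonneg _).trans (hC 0)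
  refine Integrable.mono' (hk.abs.const_mul C) (hkm.pow_const 2).aestronglyMeasurable ?_
  refine Filter.Eventually.of_forall fun t => ?_
  rw [Real.norm_eq_abs, abs_of_nonneg (sq_nonneg _), ← sq_abs, sq]
  exact mul_le_mul_of_nonneg_right (hC t) (abs_nonneg _)

lemma poly_exp_bdd (d0 d1 d2 : ℝ) (hd0 : 0 ≤ d0) (hd1 : 0 ≤ d1) (hd2 : 0 ≤ d2) (x : ℝ) (hx : 0 ≤ x) :
    (d0 + d1 * x + d2 * x ^ 2) * exp (-x) ≤ d0 + d1 + 2 * d2 := by
  have h1 : x * exp (-x) ≤ 1 := by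
    have := add_one_le_exp x
    rw [exp_neg, ← div_eq_mul_inv, div_le_iff₀ (exp_pos x)]
    linarith
  have h2 : x ^ 2 * exp (-x) ≤ 2 := by
    have := quadratic_le_exp_of_nonneg hx
    rw [exp_neg, ← div_eq_mul_inv, div_le_iff₀ (exp_pos x)]
    nlinarith
  have h0 : exp (-x) ≤ 1 := exp_le_one_iff.mpr (by linarith)
  calc (d0 + d1 * x + d2 * x ^ 2) * exp (-x)
      = d0 * exp (-x) + d1 * (x * exp (-x)) + d2 * (x ^ 2 * exp (-x)) := by ring
    _ ≤ d0 * 1 + d1 * 1 + d2 * 2 := by gcongr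
    _ = _ := by ring

lemma integrable_Pk_sq (b c0 c1 c2 : ℝ) {a : ℝ} (ha : 0 < a) :
    Integrable (fun t => Pk b c0 c1 c2 a t ^ 2) := by
  refine integrable_sq_of_bdd (measurable_Pk _ _ _ _ _) (integrable_Pk b c0 c1 c2 ha)
    (C := |b| * (|c0| + |c1| + 2 * |c2|)) fun t => ?_
  refine (abs_Pk_le b c0 c1 c2 ha t).trans ?_
  rw [mul_assoc]
  refine mul_le_mul_of_nonneg_left ?_ (abs_nonneg _)
  exact poly_exp_bdd _ _ _ (abs_nonneg _) (abs_nonneg _) (abs_nonneg _) _ (by positivity)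

/-- The odd kernel of the second order filter. -/
noncomputable def S2 (a t : ℝ) : ℝ :=
  Pk 1 (1 / 2) (-1 / 4) 0 a t - Pk 1 (1 / 2) (-1 / 4) 0 a (-t)

lemma measurable_S2 (a : ℝ) : Measurable (S2 a) := by
  unfold S2
  have := measurable_Pk 1 (1 / 2) (-1 / 4) 0 a
  fun_prop

lemma integrable_S2 {a : ℝ} (ha : 0 < a) : Integrable (S2 a) :=
  (integrable_Pk 1 (1 / 2) (-1 / 4) 0 ha).sub (integrable_Pk 1 (1 / 2) (-1 / 4) 0 ha).comp_neg

lemma integrable_S2_sq {a : ℝ} (ha : 0 < a) : Integrable (fun t => S2 a t ^ 2) := by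
  have h1 := integrable_Pk_sq 1 (1 / 2) (-1 / 4) 0 ha
  have h2 : Integrable (fun t => Pk 1 (1 / 2) (-1 / 4) 0 a (-t) ^ 2) := h1.comp_neg
  refine Integrable.mono' ((h1.add h2).const_mul 2) (measurable_S2 a |>.pow_const 2).aestronglyMeasurable ?_
  refine Filter.Eventually.of_forall fun t => ?_
  rw [Real.norm_eq_abs, abs_of_nonneg (sq_nonneg _)]
  simp only [S2, Pi.add_apply]
  nlinarith [sq_nonneg (Pk 1 (1 / 2) (-1 / 4) 0 a t + Pk 1 (1 / 2) (-1 / 4) 0 a (-t))]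

/-- The autocorrelation of the odd kernel. -/
noncomputable def H2 (a z : ℝ) : ℝ :=
  exp (-(a * |z|)) * (15 - 33 * (a * |z|) + 12 * (a * |z|) ^ 2 - (a * |z|) ^ 3) / (96 * a)

lemma Pk_zero_of_nonpos {b c0 c1 c2 a t : ℝ} (h : t ≤ 0) : Pk b c0 c1 c2 a t = 0 := by
  simp [Pk, not_lt.mpr h]

lemma Pk_of_pos {b c0 c1 c2 a t : ℝ} (h : 0 < t) :
    Pk b c0 c1 c2 a t = b * (c0 + c1 * (a * t) + c2 * (a * t) ^ 2) * exp (-(a * t)) := by
  simp [Pk, h]

/-- The mixed piece. -/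
lemma mixed_piece {a z : ℝ} (ha : 0 < a) (hz : 0 ≤ z) :
    Integrable (fun s => Pk 1 (1 / 2) (-1 / 4) 0 a (-s) * Pk 1 (1 / 2) (-1 / 4) 0 a (s + z)) ∧
      ∫ s, Pk 1 (1 / 2) (-1 / 4) 0 a (-s) * Pk 1 (1 / 2) (-1 / 4) 0 a (s + z)
        = exp (-(a * z)) / (4 * a) * ((a * z) - (a * z) ^ 2 / 2 + (a * z) ^ 3 / 24) := by
  let st : ℝ → ℝ := fun s => exp (-(a * z)) / 4 * ((1 - a * z / 2) - a * s * (a * z) / 4 - (a * s) ^ 2 / 4)
  have hform : (fun s => Pk 1 (1 / 2) (-1 / 4) 0 a (-s) * Pk 1 (1 / 2) (-1 / 4) 0 a (s + z))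
      = (Ioo (-z) (0:ℝ)).indicator st := by
    funext s
    by_cases hs : s ∈ Ioo (-z) (0:ℝ)
    · have h1 : 0 < -s := by linarith [hs.2]
      have h2 : 0 < s + z := by linarith [hs.1]
      rw [Pk_of_pos h1, Pk_of_pos h2, indicator_of_mem hs]
      simp only [st]
      have he : exp (-(a * -s)) * exp (-(a * (s + z))) = exp (-(a * z)) := by
        rw [← exp_add]; congr 1; ring
      calc _ = (1 * (1 / 2 + -1 / 4 * (a * -s) + 0 * (a * -s) ^ 2)
            * (1 * (1 / 2 + -1 / 4 * (a * (s + z)) + 0 * (a * (s + z)) ^ 2)))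
            * (exp (-(a * -s)) * exp (-(a * (s + z)))) := by ring
        _ = _ := by rw [he]; ring
    · rw [indicator_of_notMem hs]
      simp only [mem_Ioo, not_and_or, not_lt] at hs
      rcases hs with hs | hs
      · rw [Pk_zero_of_nonpos (t := s + z) (by linarith), mul_zero]
      · rw [Pk_zero_of_nonpos (t := -s) (by linarith), zero_mul]
  have hcont : Continuous st := by simp only [st]; fun_prop
  rw [hform]
  constructor
  · rw [integrable_indicator_iff measurableSet_Ioo]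
    exact (hcont.integrableOn_Icc (a := -z) (b := 0)).mono_set Ioo_subset_Icc_self
  · rw [integral_indicator measurableSet_Ioo, ← integral_Ioc_eq_integral_Ioo,
      ← intervalIntegral.integral_of_le (by linarith : -z ≤ 0)]
    have hder : ∀ s ∈ uIcc (-z) (0:ℝ), HasDerivAt (fun s => exp (-(a * z)) / 4 *
        ((1 - a * z / 2) * s - a * (a * z) * s ^ 2 / 8 - a ^ 2 * s ^ 3 / 12)) (st s) s := by
      intro s _
      have h1 : HasDerivAt (fun s : ℝ => (1 - a * z / 2) * s) (1 - a * z / 2) s := by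
        simpa using (hasDerivAt_id s).const_mul (1 - a * z / 2)
      have h2 : HasDerivAt (fun s : ℝ => a * (a * z) * s ^ 2 / 8) (a * (a * z) * (2 * s) / 8) s := by
        have := ((hasDerivAt_pow 2 s).const_mul (a * (a * z))).div_const 8
        simpa using this
      have h3 : HasDerivAt (fun s : ℝ => a ^ 2 * s ^ 3 / 12) (a ^ 2 * (3 * s ^ 2) / 12) s := by
        have := ((hasDerivAt_pow 3 s).const_mul (a ^ 2)).div_const 12
        simpa using this
      have h4 := ((h1.sub h2).sub h3).const_mul (exp (-(a * z)) / 4)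
      refine h4.congr_deriv ?_
      simp only [st]
      ring
    rw [intervalIntegral.integral_eq_sub_of_hasDerivAt hder (hcont.intervalIntegrable _ _)]
    field_simp
    ring

lemma auto_S2_nonneg {a z : ℝ} (ha : 0 < a) (hz : 0 ≤ z) : auto (S2 a) z = H2 a z := by
  obtain ⟨i1, v1⟩ := auto_Pk_nonneg 1 (1 / 2) (-1 / 4) 0 ha hz
  obtain ⟨i2, v2⟩ := mixed_piece ha hz
  have i3 : Integrable (fun s => Pk 1 (1 / 2) (-1 / 4) 0 a (-s) * Pk 1 (1 / 2) (-1 / 4) 0 a (-s - z)) := by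
    have h := i1.comp_sub_left (-z)
    refine h.congr (Filter.Eventually.of_forall fun s => ?_)
    simp only
    rw [show -z - s + z = -s by ring, show -z - s = -s - z by ring, mul_comm]
  have v3 : ∫ s, Pk 1 (1 / 2) (-1 / 4) 0 a (-s) * Pk 1 (1 / 2) (-1 / 4) 0 a (-s - z)
      = ∫ s, Pk 1 (1 / 2) (-1 / 4) 0 a s * Pk 1 (1 / 2) (-1 / 4) 0 a (s + z) := by
    rw [← integral_sub_left_eq_self (fun s => Pk 1 (1 / 2) (-1 / 4) 0 a s
      * Pk 1 (1 / 2) (-1 / 4) 0 a (s + z)) volume (-z)]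
    refine integral_congr_ae (Filter.Eventually.of_forall fun s => ?_)
    simp only
    rw [show -z - s + z = -s by ring, show -z - s = -s - z by ring, mul_comm]
  have hform : ∀ s, S2 a s * S2 a (s + z) =
      Pk 1 (1 / 2) (-1 / 4) 0 a s * Pk 1 (1 / 2) (-1 / 4) 0 a (s + z)
        - Pk 1 (1 / 2) (-1 / 4) 0 a (-s) * Pk 1 (1 / 2) (-1 / 4) 0 a (s + z)
        + Pk 1 (1 / 2) (-1 / 4) 0 a (-s) * Pk 1 (1 / 2) (-1 / 4) 0 a (-s - z) := by
    intro s
    have h0 : Pk 1 (1 / 2) (-1 / 4) 0 a s * Pk 1 (1 / 2) (-1 / 4) 0 a (-s - z) = 0 := by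
      by_cases hs : 0 < s
      · rw [Pk_zero_of_nonpos (t := -s - z) (by linarith), mul_zero]
      · rw [Pk_zero_of_nonpos (t := s) (by linarith), zero_mul]
    unfold S2
    rw [show -(s + z) = -s - z by ring]
    linear_combination (-1) * h0
  unfold auto
  simp_rw [hform]
  have i12 : Integrable (fun s => Pk 1 (1 / 2) (-1 / 4) 0 a s * Pk 1 (1 / 2) (-1 / 4) 0 a (s + z)
      - Pk 1 (1 / 2) (-1 / 4) 0 a (-s) * Pk 1 (1 / 2) (-1 / 4) 0 a (s + z)) := i1.sub i2
  rw [integral_add i12 i3, integral_sub i1 i2, v3, v1, v2, H2, abs_of_nonneg hz, PkVal]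
  field_simp
  ring

lemma auto_S2 {a : ℝ} (ha : 0 < a) (z : ℝ) : auto (S2 a) z = H2 a z := by
  rcases le_total 0 z with hz | hz
  · exact auto_S2_nonneg ha hz
  · have h := auto_S2_nonneg (z := -z) ha (by linarith)
    rw [auto_neg] at h
    rw [h]
    simp [H2, abs_neg]

end LT
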