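import Vale.Agent.helper5.LTFamily

/-!
The pointwise bound over an eigenbasis and the global inequality.
-/

open MeasureTheory Set Real
open scoped ENNReal ComplexConjugate Matrix ComplexOrder

namespace LT

variable {m N : ℕ} {u u' : Fin N → ℝ → Fin m → ℂ}

/-- Sum of the filtered energies. -/
noncomputable def Vsum (u : Fin N → ℝ → Fin m → ℂ) (a x : ℝ) : ℝ :=
  ∑ j, ∑ i, (V (fun y => (u j y i).re) a x ^ 2 + V (fun y => (u j y i).im) a x ^ 2)

lemma sum_lintegral_le {α ι : Type*} [MeasurableSpace α] {μ : Measure α} (s : Finset ι)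
    (f : ι → α → ℝ≥0∞) : ∑ k ∈ s, ∫⁻ a, f k a ∂μ ≤ ∫⁻ a, ∑ k ∈ s, f k a ∂μ := by
  classical
  induction s using Finset.induction_on with
  | empty => simp
  | insert k s hk ih =>
    rw [Finset.sum_insert hk]
    simp_rw [Finset.sum_insert hk]
    exact (add_le_add_right ih _).trans (le_lintegral_add _ _)

lemma ofReal_sum_le {ι : Type*} (s : Finset ι) (r : ι → ℝ) :
    ENNReal.ofReal (∑ k ∈ s, r k) ≤ ∑ k ∈ s, ENNReal.ofReal (r k) := by
  classical
  induction s using Finset.induction_on with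
  | empty => simp
  | insert k s hk ih =>
    rw [Finset.sum_insert hk, Finset.sum_insert hk]
    exact ENNReal.ofReal_add_le.trans (add_le_add_right ih _)

/-- Linearity of `coef` under the convolution. -/
lemma coef_conv (H1 : ∀ j i, IsH1 (fun x => u j x i) (fun x => u' j x i)) (e : Fin m → ℂ)
    (j : Fin N) {a : ℝ} (ha : 0 < a) (x : ℝ) :
    coef e (u j x) - ∫ t, ((G a t : ℝ) : ℂ) * coef e (u j (x - t))
      = coef e (fun i => u j x i - ∫ t, ((G a t : ℝ) : ℂ) * u j (x - t) i) := by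
  have hint : ∀ i, Integrable (fun t => ((G a t : ℝ) : ℂ) * u j (x - t) i) := fun i =>
    integrable_G_shift_complex (H1 j i).measurable (H1 j i).sq ha x
  have h1 : ∫ t, ((G a t : ℝ) : ℂ) * coef e (u j (x - t))
      = ∑ i, conj (e i) * ∫ t, ((G a t : ℝ) : ℂ) * u j (x - t) i := by
    have : ∀ t, ((G a t : ℝ) : ℂ) * coef e (u j (x - t))
        = ∑ i, conj (e i) * (((G a t : ℝ) : ℂ) * u j (x - t) i) := by
      intro t
      unfold coef
      rw [Finset.mul_sum]
      refine Finset.sum_congr rfl fun i _ => ?_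
      ring
    simp_rw [this]
    rw [integral_finsetSum _ fun i _ => (hint i).const_mul _]
    refine Finset.sum_congr rfl fun i _ => ?_
    rw [integral_const_mul]
  rw [h1]
  unfold coef
  rw [← Finset.sum_sub_distrib]
  refine Finset.sum_congr rfl fun i _ => ?_
  ring

/-- The pointwise bound. -/
theorem pointwise (H1 : ∀ j i, IsH1 (fun x => u j x i) (fun x => u' j x i))
    (orth : ∀ j k, ∑ i, ∫ x, conj (u j x i) * u k x i = if j = k then 1 else 0)
    {A : Matrix (Fin m) (Fin m) ℂ} (hA : A.PosSemidef) (x : ℝ) :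
    ENNReal.ofReal (∑ j, (star (u j x) ⬝ᵥ (A *ᵥ u j x)).re
        - 81 / 250 * ∑ k, hA.isHermitian.eigenvalues k ^ (3 / 2 : ℝ)) ≤
      ∫⁻ a in Ioi (0:ℝ), ENNReal.ofReal (2 * a * Vsum u a x) := by
  set hH := hA.isHermitian with hHdef
  set b := hH.eigenvectorBasis with hb
  set e : Fin m → Fin m → ℂ := fun k => WithLp.ofLp (b k) with he
  set w : Fin m → ℝ := hH.eigenvalues with hw
  have hw0 : ∀ k, 0 ≤ w k := fun k => hA.eigenvalues_nonneg k
  have hpar : ∀ v : Fin m → ℂ, ∑ k, ‖coef (e k) v‖ ^ 2 = ∑ i, ‖v i‖ ^ 2 := fun v => parseval b v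
  have hle : ∀ k, ∀ v : Fin m → ℂ, ‖coef (e k) v‖ ^ 2 ≤ ∑ i, ‖v i‖ ^ 2 := by
    intro k v
    rw [← hpar v]
    exact Finset.single_le_sum (f := fun k => ‖coef (e k) v‖ ^ 2)
      (fun _ _ => by positivity) (Finset.mem_univ k)
  have hq : ∑ j, (star (u j x) ⬝ᵥ (A *ᵥ u j x)).re
      = ∑ k, w k * ∑ j, ‖coef (e k) (u j x)‖ ^ 2 := by
    simp_rw [quad_form hH, Finset.mul_sum]
    rw [Finset.sum_comm]
  have hsum : ∑ j, (star (u j x) ⬝ᵥ (A *ᵥ u j x)).re
        - 81 / 250 * ∑ k, hH.eigenvalues k ^ (3 / 2 : ℝ)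
      = ∑ k, (w k * (∑ j, ‖coef (e k) (u j x)‖ ^ 2) - 81 / 250 * w k ^ (3 / 2 : ℝ)) := by
    rw [hq, Finset.sum_sub_distrib, Finset.mul_sum]
  rw [hsum]
  refine (ofReal_sum_le _ _).trans ?_
  refine (Finset.sum_le_sum fun k _ => dir_bound H1 orth (e k) (hle k) x (hw0 k)).trans ?_
  refine (sum_lintegral_le _ _).trans ?_
  refine le_of_eq (setLIntegral_congr_fun measurableSet_Ioi fun a ha => ?_)
  have ha' : (0:ℝ) < a := ha
  rw [← ENNReal.ofReal_sum_of_nonneg (fun k _ => by positivity)]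
  congr 1
  rw [← Finset.mul_sum]
  congr 1
  simp_rw [coef_conv H1 _ _ ha']
  rw [Finset.sum_comm]
  unfold Vsum
  refine Finset.sum_congr rfl fun j _ => ?_
  rw [hpar]
  refine Finset.sum_congr rfl fun i _ => ?_
  exact norm_conv (H1 j i) ha' x

lemma measurable_Vsum (H1 : ∀ j i, IsH1 (fun x => u j x i) (fun x => u' j x i)) :
    Measurable (fun p : ℝ × ℝ => Vsum u p.1 p.2) := by
  unfold Vsum
  refine Finset.measurable_fun_sum _ fun j _ => Finset.measurable_fun_sum _ fun i _ => ?_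
  have h1 := measurable_V (Complex.measurable_re.comp (H1 j i).measurable)
  have h2 := measurable_V (Complex.measurable_im.comp (H1 j i).measurable)
  exact (h1.pow_const 2).add (h2.pow_const 2)

/-- The total kinetic bound. -/
theorem kinetic_total (H1 : ∀ j i, IsH1 (fun x => u j x i) (fun x => u' j x i)) :
    ∫⁻ a in Ioi (0:ℝ), ∫⁻ x, ENNReal.ofReal (2 * a * Vsum u a x) ≤
      ENNReal.ofReal (∑ j, ∑ i, ∫ x, ‖u' j x i‖ ^ 2) := by
  have hV1 : ∀ j i, Measurable (fun p : ℝ × ℝ => V (fun y => (u j y i).re) p.1 p.2) := fun j i =>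
    measurable_V (Complex.measurable_re.comp (H1 j i).measurable)
  have hV2 : ∀ j i, Measurable (fun p : ℝ × ℝ => V (fun y => (u j y i).im) p.1 p.2) := fun j i =>
    measurable_V (Complex.measurable_im.comp (H1 j i).measurable)
  let Z : Fin N → Fin m → ℝ → ℝ → ℝ≥0∞ := fun j i a x => ENNReal.ofReal
    (2 * a * (V (fun y => (u j y i).re) a x ^ 2 + V (fun y => (u j y i).im) a x ^ 2))
  have hZm : ∀ j i, Measurable (Function.uncurry (Z j i)) := by
    intro j i
    have h1 := hV1 j i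
    have h2 := hV2 j i
    refine ENNReal.measurable_ofReal.comp ?_
    exact (measurable_fst.const_mul 2).mul ((h1.pow_const 2).add (h2.pow_const 2))
  have hstep : ∀ a ∈ Ioi (0:ℝ), ∫⁻ x, ENNReal.ofReal (2 * a * Vsum u a x)
      = ∑ j, ∑ i, ∫⁻ x, Z j i a x := by
    intro a ha
    have ha' : (0:ℝ) < a := ha
    have h1 : ∀ x, ENNReal.ofReal (2 * a * Vsum u a x) = ∑ j, ∑ i, Z j i a x := by
      intro x
      unfold Vsum
      rw [Finset.mul_sum, ENNReal.ofReal_sum_of_nonneg (fun j _ => by positivity)]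
      refine Finset.sum_congr rfl fun j _ => ?_
      rw [Finset.mul_sum, ENNReal.ofReal_sum_of_nonneg (fun i _ => by positivity)]
    simp_rw [h1]
    rw [lintegral_finsetSum']
    · refine Finset.sum_congr rfl fun j _ => ?_
      rw [lintegral_finsetSum']
      intro i _
      exact ((hZm j i).comp (measurable_const.prodMk measurable_id)).aemeasurable
    · intro j _
      refine (Finset.measurable_fun_sum _ fun i _ => ?_).aemeasurable
      exact (hZm j i).comp (measurable_const.prodMk measurable_id)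
  rw [setLIntegral_congr_fun measurableSet_Ioi hstep]
  have hZ2 : ∀ j i, Measurable (fun a => ∫⁻ x, Z j i a x) := fun j i =>
    Measurable.lintegral_prod_right (hZm j i)
  rw [lintegral_finsetSum']
  · have h3 : ∀ j, ∫⁻ a in Ioi (0:ℝ), ∑ i, ∫⁻ x, Z j i a x
        = ∑ i, ∫⁻ a in Ioi (0:ℝ), ∫⁻ x, Z j i a x := by
      intro j
      rw [lintegral_finsetSum']
      intro i _
      exact (hZ2 j i).aemeasurable
    simp_rw [h3]
    rw [ENNReal.ofReal_sum_of_nonneg (fun j _ => Finset.sum_nonneg fun i _ =>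
      integral_nonneg fun _ => by positivity)]
    refine Finset.sum_le_sum fun j _ => ?_
    rw [ENNReal.ofReal_sum_of_nonneg (fun i _ => integral_nonneg fun _ => by positivity)]
    refine Finset.sum_le_sum fun i _ => ?_
    exact kinetic_complex (H1 j i)
  · intro j _
    exact (Finset.measurable_fun_sum _ fun i _ => hZ2 j i).aemeasurable

lemma quad_nonneg {A : Matrix (Fin m) (Fin m) ℂ} (hA : A.PosSemidef) (v : Fin m → ℂ) :
    0 ≤ (star v ⬝ᵥ (A *ᵥ v)).re := by
  rw [quad_form hA.isHermitian]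
  exact Finset.sum_nonneg fun k _ => mul_nonneg (hA.eigenvalues_nonneg k) (by positivity)

lemma measurable_quad {W : ℝ → Matrix (Fin m) (Fin m) ℂ}
    (hWm : ∀ p q, Measurable fun x => W x p q) {v : ℝ → Fin m → ℂ}
    (hv : ∀ i, Measurable fun x => v x i) :
    Measurable (fun x => (star (v x) ⬝ᵥ (W x *ᵥ v x)).re) := by
  refine Complex.measurable_re.comp ?_
  simp only [dotProduct, Matrix.mulVec, Pi.star_apply]
  refine Finset.measurable_fun_sum _ fun p _ => ?_
  refine Measurable.mul ?_ ?_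
  · have : Measurable (fun x => conj (v x p)) := Complex.continuous_conj.measurable.comp (hv p)
    exact this
  · exact Finset.measurable_fun_sum _ fun q _ => (hWm p q).mul (hv q)

/-- Measure theoretic conclusion, with abstract functions. -/
lemma main_abstract {qj : Fin N → ℝ → ℝ} {t : ℝ → ℝ} {T L : ℝ} (hT0 : 0 ≤ T) (hL0 : 0 ≤ L)
    (hjm : ∀ j, Measurable (qj j)) (hq0 : ∀ j x, 0 ≤ qj j x) (ht0 : ∀ x, 0 ≤ t x)
    (hI : Integrable t)
    (hL : ∫⁻ x, ENNReal.ofReal (∑ j, qj j x - L * t x) ≤ ENNReal.ofReal T) :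
    (∀ j, Integrable (qj j)) ∧ (∑ j, ∫ x, qj j x) - T ≤ L * ∫ x, t x := by
  have hqm : Measurable (fun x => ∑ j, qj j x) := Finset.measurable_fun_sum _ fun j _ => hjm j
  have hqn : ∀ x, 0 ≤ ∑ j, qj j x := fun x => Finset.sum_nonneg fun j _ => hq0 j x
  have hLt : Integrable (fun x => L * t x) := hI.const_mul _
  have hqI : Integrable (fun x => ∑ j, qj j x) := by
    rw [← lintegral_ofReal_ne_top_iff_integrable hqm.aestronglyMeasurable
      (Filter.Eventually.of_forall hqn)]
    have h1 : ∫⁻ x, ENNReal.ofReal (∑ j, qj j x) ≤ ∫⁻ x, (ENNReal.ofReal (∑ j, qj j x - L * t x)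
        + ENNReal.ofReal (L * t x)) := by
      refine lintegral_mono fun x => ?_
      have : ∑ j, qj j x = (∑ j, qj j x - L * t x) + L * t x := by ring
      calc ENNReal.ofReal (∑ j, qj j x) = ENNReal.ofReal ((∑ j, qj j x - L * t x) + L * t x) := by
            rw [← this]
        _ ≤ _ := ENNReal.ofReal_add_le
    rw [lintegral_add_right' _ hLt.aemeasurable.ennreal_ofReal] at h1
    have h2 : ∫⁻ x, ENNReal.ofReal (L * t x) ≠ ⊤ :=
      (lintegral_ofReal_ne_top_iff_integrable hLt.1 (Filter.Eventually.of_forall fun x => by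
        have := ht0 x
        simp only [Pi.zero_apply]
        positivity)).2 hLt
    refine ne_top_of_le_ne_top ?_ h1
    exact ENNReal.add_ne_top.2 ⟨ne_top_of_le_ne_top ENNReal.ofReal_ne_top hL, h2⟩
  have hjI : ∀ j, Integrable (qj j) := by
    intro j
    refine Integrable.mono' hqI (hjm j).aestronglyMeasurable ?_
    refine Filter.Eventually.of_forall fun x => ?_
    rw [Real.norm_eq_abs, abs_of_nonneg (hq0 j x)]
    exact Finset.single_le_sum (f := fun j => qj j x) (fun j _ => hq0 j x) (Finset.mem_univ j)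
  refine ⟨hjI, ?_⟩
  have h1 := ofReal_integral_le_lintegral (hqI.sub hLt)
  have h2 : ENNReal.ofReal (∫ x, (∑ j, qj j x - L * t x)) ≤ ENNReal.ofReal T := le_trans h1 hL
  have h3 := (ENNReal.ofReal_le_ofReal_iff hT0).1 h2
  rw [integral_sub hqI hLt, integral_const_mul] at h3
  have h4 : ∫ x, ∑ j, qj j x = ∑ j, ∫ x, qj j x :=
    integral_finsetSum _ fun j _ => hjI j
  rw [h4] at h3
  linarith

/-- The global inequality with the numerical constant `81/250`. -/
theorem main_bound {W : ℝ → Matrix (Fin m) (Fin m) ℂ} (hW : ∀ x, (W x).PosSemidef)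
    (hWm : ∀ p q, Measurable fun x => W x p q)
    (hI : Integrable fun x => ∑ k, (hW x).isHermitian.eigenvalues k ^ (3 / 2 : ℝ))
    (H1 : ∀ j i, IsH1 (fun x => u j x i) (fun x => u' j x i))
    (orth : ∀ j k, ∑ i, ∫ x, conj (u j x i) * u k x i = if j = k then 1 else 0) :
    (∀ j, Integrable fun x => (star (u j x) ⬝ᵥ (W x *ᵥ u j x)).re) ∧
      (∑ j, ∫ x, (star (u j x) ⬝ᵥ (W x *ᵥ u j x)).re) - (∑ j, ∑ i, ∫ x, ‖u' j x i‖ ^ 2)
        ≤ 81 / 250 * ∫ x, ∑ k, (hW x).isHermitian.eigenvalues k ^ (3 / 2 : ℝ) := by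
  have hT0 : 0 ≤ ∑ j, ∑ i, ∫ x, ‖u' j x i‖ ^ 2 := Finset.sum_nonneg fun j _ =>
    Finset.sum_nonneg fun i _ => integral_nonneg fun _ => by positivity
  have hswap : ∫⁻ x, ∫⁻ a in Ioi (0:ℝ), ENNReal.ofReal (2 * a * Vsum u a x)
      = ∫⁻ a in Ioi (0:ℝ), ∫⁻ x, ENNReal.ofReal (2 * a * Vsum u a x) := by
    refine lintegral_lintegral_swap ?_
    have h1 := measurable_Vsum H1
    have h2' : Measurable ((fun p : ℝ × ℝ => Vsum u p.1 p.2) ∘ Prod.swap) := h1.comp measurable_swap
    have h3 : ((fun p : ℝ × ℝ => Vsum u p.1 p.2) ∘ Prod.swap) = fun p : ℝ × ℝ => Vsum u p.2 p.1 := by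
      funext p
      simp only [Function.comp, Prod.fst_swap, Prod.snd_swap]
    rw [h3] at h2'
    have h4 : Measurable (fun p : ℝ × ℝ => 2 * p.2 * Vsum u p.2 p.1) :=
      (measurable_snd.const_mul 2).mul h2'
    exact (ENNReal.measurable_ofReal.comp h4).aemeasurable
  refine main_abstract (L := 81 / 250) hT0 (by norm_num)
    (fun j => measurable_quad hWm (fun i => (H1 j i).measurable))
    (fun j x => quad_nonneg (hW x) _)
    (fun x => Finset.sum_nonneg fun k _ => rpow_nonneg ((hW x).eigenvalues_nonneg k) _)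
    hI ?_
  refine (lintegral_mono fun x => pointwise H1 orth (hW x) x).trans ?_
  rw [hswap]
  exact kinetic_total H1

end LT
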