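import Vale.Agent.helper5.LT2Core
import Vale.Agent.helper5.LTMain

/-!
The pointwise (in `x`) lower bound for one direction, second order filter.
-/

open MeasureTheory Set Real
open scoped ENNReal ComplexConjugate Matrix ComplexOrder

namespace LT

lemma integrable_Chi_shift_complex {h : ℝ → ℂ} (hm : Measurable h)
    (hsq : Integrable (fun y => ‖h y‖ ^ 2)) {a : ℝ} (ha : 0 < a) (x : ℝ) :
    Integrable (fun t => ((Chi a t : ℝ) : ℂ) * h (x - t)) := by
  refine Integrable.mono' (g := fun t => (Chi a t ^ 2 + ‖h (x - t)‖ ^ 2) / 2)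
    (((integrable_Chi_sq ha).add (hsq.comp_sub_left x)).div_const 2) ?_ ?_
  · have h1 := measurable_Chi a
    exact (by fun_prop : Measurable fun t => ((Chi a t : ℝ) : ℂ) * h (x - t)).aestronglyMeasurable
  · refine Filter.Eventually.of_forall fun t => ?_
    rw [norm_mul, Complex.norm_real, Real.norm_eq_abs]
    nlinarith [sq_nonneg (|Chi a t| - ‖h (x - t)‖), sq_abs (Chi a t)]

/-- The pointwise estimate in one direction. -/
theorem core2 {ι : Type*} [Fintype ι] {φ : ι → ℝ → ℂ} (hm : ∀ j, Measurable (φ j))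
    (hL2 : ∀ j, Integrable (fun y => ‖φ j y‖ ^ 2)) (x : ℝ) {s : ℝ} (hs : 0 < s)
    (hFi : Integrable (fun y => ‖∑ j, conj (φ j x) * φ j y‖ ^ 2))
    (hF : ∫ y, ‖∑ j, conj (φ j x) * φ j y‖ ^ 2 ≤ ∑ j, ‖φ j x‖ ^ 2) :
    ENNReal.ofReal (s ^ 2 * (∑ j, ‖φ j x‖ ^ 2) - 3087 / 10000 * s ^ 3) ≤
      ∫⁻ a in Ioi (0:ℝ), ENNReal.ofReal
        (6 * a * ∑ j, ‖φ j x - ∫ t, ((Chi a t : ℝ) : ℂ) * φ j (x - t)‖ ^ 2) := by
  set p := ∑ j, ‖φ j x‖ ^ 2 with hpdef
  let F : ℝ → ℂ := fun y => ∑ j, conj (φ j x) * φ j y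
  have hFm : Measurable F := by
    refine Finset.measurable_fun_sum _ fun j _ => ?_
    exact (hm j).const_mul _
  let r : ℝ → ℝ := fun t => (F (x - t)).re
  have hrm : Measurable r := by
    have : Measurable fun t => F (x - t) := by fun_prop
    exact Complex.measurable_re.comp this
  have hrle : ∀ t, r t ^ 2 ≤ ‖F (x - t)‖ ^ 2 := by
    intro t
    have h1 := Complex.abs_re_le_norm (F (x - t))
    have h2 : |r t| ≤ ‖F (x - t)‖ := h1
    rw [← sq_abs (r t)]
    exact pow_le_pow_left₀ (abs_nonneg _) h2 2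
  have hshift : Integrable (fun t => ‖F (x - t)‖ ^ 2) := hFi.comp_sub_left x
  have hr : Integrable (fun t => r t ^ 2) := by
    refine Integrable.mono' hshift (hrm.pow_const 2).aestronglyMeasurable ?_
    refine Filter.Eventually.of_forall fun t => ?_
    rw [Real.norm_eq_abs, abs_of_nonneg (sq_nonneg _)]
    exact hrle t
  have hp : ∫ t, r t ^ 2 ≤ p := by
    have h1 : ∫ t, r t ^ 2 ≤ ∫ t, ‖F (x - t)‖ ^ 2 := integral_mono hr hshift hrle
    have h2 : ∫ t, ‖F (x - t)‖ ^ 2 = ∫ y, ‖F y‖ ^ 2 :=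
      integral_sub_left_eq_self (fun y => ‖F y‖ ^ 2) volume x
    linarith
  obtain ⟨hQ, hval⟩ := real_core2 hs hrm hr hp
  refine (ENNReal.ofReal_le_ofReal hval).trans ((ofReal_integral_le_lintegral hQ).trans ?_)
  refine setLIntegral_mono' measurableSet_Ioi fun a ha => ENNReal.ofReal_le_ofReal ?_
  have ha' : (0:ℝ) < a := ha
  set τ := tau (167/200) (-109/200) (7/100) (1 / s) a with hτ
  -- the linear identity
  have hint : ∀ j, Integrable (fun t => ((Chi a t : ℝ) : ℂ) * φ j (x - t)) := fun j =>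
    integrable_Chi_shift_complex (hm j) (hL2 j) ha' x
  have hsum : ∑ j, conj (φ j x) * ∫ t, ((Chi a t : ℝ) : ℂ) * φ j (x - t)
      = ∫ t, ((Chi a t : ℝ) : ℂ) * F (x - t) := by
    simp only [F]
    have : ∀ t, ((Chi a t : ℝ) : ℂ) * ∑ j, conj (φ j x) * φ j (x - t)
        = ∑ j, conj (φ j x) * (((Chi a t : ℝ) : ℂ) * φ j (x - t)) := by
      intro t
      rw [Finset.mul_sum]
      refine Finset.sum_congr rfl fun j _ => ?_
      ring
    simp_rw [this]
    rw [integral_finsetSum _ fun j _ => (hint j).const_mul _]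
    refine Finset.sum_congr rfl fun j _ => ?_
    rw [integral_const_mul]
  have hintF : Integrable (fun t => ((Chi a t : ℝ) : ℂ) * F (x - t)) :=
    integrable_Chi_shift_complex hFm hFi ha' x
  have hre : (∑ j, conj (φ j x) * ∫ t, ((Chi a t : ℝ) : ℂ) * φ j (x - t)).re
      = a / 4 * ∫ t, (3 - a * |t|) * exp (-(a * |t|)) * r t := by
    rw [hsum]
    have h1 := integral_re hintF
    have h2 : (∫ t, ((Chi a t : ℝ) : ℂ) * F (x - t)).re = RCLike.re (∫ t, ((Chi a t : ℝ) : ℂ) * F (x - t)) := rfl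
    rw [h2, ← h1, ← integral_const_mul]
    refine integral_congr_ae (Filter.Eventually.of_forall fun t => ?_)
    simp only [RCLike.re_to_complex, Complex.re_ofReal_mul, r, Chi]
    ring
  -- sum of the pointwise bounds
  have hbd : (2 * τ - τ ^ 2) * p - 2 * τ * (a / 4 * ∫ t, (3 - a * |t|) * exp (-(a * |t|)) * r t)
      ≤ ∑ j, ‖φ j x - ∫ t, ((Chi a t : ℝ) : ℂ) * φ j (x - t)‖ ^ 2 := by
    rw [← hre, Complex.re_sum, hpdef, Finset.mul_sum, Finset.mul_sum, ← Finset.sum_sub_distrib]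
    exact Finset.sum_le_sum fun j _ => square_bound _ _ τ
  have h2a : 0 ≤ 6 * a := by positivity
  have := mul_le_mul_of_nonneg_left hbd h2a
  calc 6 * a * (2 * τ - τ ^ 2) * p - 3 * a ^ 2 * τ * ∫ t, (3 - a * |t|) * exp (-(a * |t|)) * r t
      = 6 * a * ((2 * τ - τ ^ 2) * p - 2 * τ * (a / 4 * ∫ t, (3 - a * |t|) * exp (-(a * |t|)) * r t)) := by ring
    _ ≤ _ := this

/-- The kinetic bound with a derivative that is only almost everywhere measurable. -/
theorem kinetic_ae2 {g f : ℝ → ℝ} (hgm : Measurable g) (hfm : AEStronglyMeasurable f volume)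
    (hg2 : Integrable (fun x => g x ^ 2)) (hf2 : Integrable (fun x => f x ^ 2))
    (hftc : ∀ x y, ∫ t in x..y, f t = g y - g x) :
    ∫⁻ a in Ioi (0:ℝ), ∫⁻ x, ENNReal.ofReal (6 * a * V2 g a x ^ 2) ≤
      ENNReal.ofReal (∫ x, f x ^ 2) := by
  have hae : f =ᵐ[volume] hfm.mk f := hfm.ae_eq_mk
  have hmk : Measurable (hfm.mk f) := hfm.stronglyMeasurable_mk.measurable
  have hsq : (fun x => hfm.mk f x ^ 2) =ᵐ[volume] fun x => f x ^ 2 := by
    filter_upwards [hae] with x hx
    rw [hx]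
  have hf2' : Integrable (fun x => hfm.mk f x ^ 2) := hf2.congr hsq.symm
  have hftc' : ∀ x y, ∫ t in x..y, hfm.mk f t = g y - g x := by
    intro x y
    rw [← hftc x y]
    refine intervalIntegral.integral_congr_ae ?_
    filter_upwards [hae] with t ht _ using ht.symm
  have := kinetic_lintegral2 hgm hmk hg2 hf2' hftc'
  rwa [integral_congr_ae hsq] at this

/-- Real and imaginary parts of the kinetic energy. -/
theorem kinetic_complex2 {u u' : ℝ → ℂ} (h : IsH1 u u') :
    ∫⁻ a in Ioi (0:ℝ), ∫⁻ x, ENNReal.ofReal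
        (6 * a * (V2 (fun y => (u y).re) a x ^ 2 + V2 (fun y => (u y).im) a x ^ 2)) ≤
      ENNReal.ofReal (∫ x, ‖u' x‖ ^ 2) := by
  have hum := h.measurable
  have hu2 := h.sq
  have hd2 := h.sq'
  have hre : Measurable (fun y => (u y).re) := Complex.measurable_re.comp hum
  have him : Measurable (fun y => (u y).im) := Complex.measurable_im.comp hum
  have hre2 : Integrable (fun y => (u y).re ^ 2) :=
    Integrable.mono' hu2 (hre.pow_const 2).aestronglyMeasurable (Filter.Eventually.of_forall fun y => by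
      rw [Real.norm_eq_abs, abs_of_nonneg (sq_nonneg _)]; exact sq_re_le _)
  have him2 : Integrable (fun y => (u y).im ^ 2) :=
    Integrable.mono' hu2 (him.pow_const 2).aestronglyMeasurable (Filter.Eventually.of_forall fun y => by
      rw [Real.norm_eq_abs, abs_of_nonneg (sq_nonneg _)]; exact sq_im_le _)
  have hdm := h.memLp_deriv.1
  have hdre : AEStronglyMeasurable (fun y => (u' y).re) volume := hdm.re
  have hdim : AEStronglyMeasurable (fun y => (u' y).im) volume := hdm.im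
  have hdre2 : Integrable (fun y => (u' y).re ^ 2) :=
    Integrable.mono' hd2 (hdre.pow 2) (Filter.Eventually.of_forall fun y => by
      rw [Real.norm_eq_abs, abs_of_nonneg (sq_nonneg _)]; exact sq_re_le _)
  have hdim2 : Integrable (fun y => (u' y).im ^ 2) :=
    Integrable.mono' hd2 (hdim.pow 2) (Filter.Eventually.of_forall fun y => by
      rw [Real.norm_eq_abs, abs_of_nonneg (sq_nonneg _)]; exact sq_im_le _)
  have hftc1 : ∀ x y, ∫ t in x..y, (u' t).re = (u y).re - (u x).re := by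
    intro x y
    have h1 := intervalIntegral.intervalIntegral_eq_integral_uIoc (fun t => u' t) x y volume
    have h2 : ∫ t in x..y, (u' t).re = (∫ t in x..y, u' t).re := by
      have := Complex.reCLM.intervalIntegral_comp_comm (h.intervalIntegrable x y)
      simpa using this
    rw [h2, h.ftc, Complex.sub_re]
  have hftc2 : ∀ x y, ∫ t in x..y, (u' t).im = (u y).im - (u x).im := by
    intro x y
    have h2 : ∫ t in x..y, (u' t).im = (∫ t in x..y, u' t).im := by
      have := Complex.imCLM.intervalIntegral_comp_comm (h.intervalIntegrable x y)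
      simpa using this
    rw [h2, h.ftc, Complex.sub_im]
  have k1 := kinetic_ae2 hre hdre hre2 hdre2 hftc1
  have k2 := kinetic_ae2 him hdim him2 hdim2 hftc2
  have hval : ∫ x, ‖u' x‖ ^ 2 = (∫ x, (u' x).re ^ 2) + ∫ x, (u' x).im ^ 2 := by
    rw [← integral_add hdre2 hdim2]
    exact integral_congr_ae (Filter.Eventually.of_forall fun x => norm_sq_eq_re_im _)
  rw [hval, ENNReal.ofReal_add (integral_nonneg fun _ => sq_nonneg _)
    (integral_nonneg fun _ => sq_nonneg _)]
  refine le_trans (le_of_eq ?_) (add_le_add k1 k2)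
  have hVm1 := measurable_V2 hre
  have hVm2 := measurable_V2 him
  have hm1 : Measurable (fun a => ∫⁻ x, ENNReal.ofReal (6 * a * V2 (fun y => (u y).re) a x ^ 2)) := by
    refine Measurable.lintegral_prod_right' (f := fun (p : ℝ × ℝ) =>
      ENNReal.ofReal (6 * p.1 * V2 (fun y => (u y).re) p.1 p.2 ^ 2)) ?_
    exact ENNReal.measurable_ofReal.comp (by fun_prop)
  rw [← lintegral_add_left hm1]
  refine setLIntegral_congr_fun measurableSet_Ioi fun a ha => ?_
  have ha' : (0:ℝ) < a := ha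
  have hm3 : Measurable (fun x => ENNReal.ofReal (6 * a * V2 (fun y => (u y).re) a x ^ 2)) := by
    have : Measurable (fun x => V2 (fun y => (u y).re) a x) := hVm1.comp (measurable_const.prodMk measurable_id)
    exact ENNReal.measurable_ofReal.comp (by fun_prop)
  rw [← lintegral_add_left hm3]
  refine lintegral_congr fun x => ?_
  rw [← ENNReal.ofReal_add (by positivity) (by positivity)]
  congr 1
  ring

lemma norm_conv2 {u u' : ℝ → ℂ} (h : IsH1 u u') {a : ℝ} (ha : 0 < a) (x : ℝ) :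
    ‖u x - ∫ t, ((Chi a t : ℝ) : ℂ) * u (x - t)‖ ^ 2
      = V2 (fun y => (u y).re) a x ^ 2 + V2 (fun y => (u y).im) a x ^ 2 := by
  have hint := integrable_Chi_shift_complex h.measurable h.sq ha x
  have h1 : (∫ t, ((Chi a t : ℝ) : ℂ) * u (x - t)).re = ∫ t, Chi a t * (u (x - t)).re := by
    have h2 := integral_re hint
    have h3 : (∫ t, ((Chi a t : ℝ) : ℂ) * u (x - t)).re
        = RCLike.re (∫ t, ((Chi a t : ℝ) : ℂ) * u (x - t)) := rfl
    rw [h3, ← h2]
    refine integral_congr_ae (Filter.Eventually.of_forall fun t => ?_)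
    simp only [RCLike.re_to_complex, Complex.re_ofReal_mul]
  have h2 : (∫ t, ((Chi a t : ℝ) : ℂ) * u (x - t)).im = ∫ t, Chi a t * (u (x - t)).im := by
    have h2 := integral_im hint
    have h3 : (∫ t, ((Chi a t : ℝ) : ℂ) * u (x - t)).im
        = RCLike.im (∫ t, ((Chi a t : ℝ) : ℂ) * u (x - t)) := rfl
    rw [h3, ← h2]
    refine integral_congr_ae (Filter.Eventually.of_forall fun t => ?_)
    simp only [RCLike.im_to_complex, Complex.im_ofReal_mul]
  rw [norm_sq_eq_re_im, Complex.sub_re, Complex.sub_im, h1, h2]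
  rfl



variable {m N : ℕ} {u u' : Fin N → ℝ → Fin m → ℂ}

/-- The bound in one direction. -/
theorem dir_bound2 (H1 : ∀ j i, IsH1 (fun x => u j x i) (fun x => u' j x i))
    (orth : ∀ j k, ∑ i, ∫ x, conj (u j x i) * u k x i = if j = k then 1 else 0)
    (e : Fin m → ℂ) (he : ∀ v : Fin m → ℂ, ‖coef e v‖ ^ 2 ≤ ∑ i, ‖v i‖ ^ 2) (x : ℝ)
    {w : ℝ} (hw : 0 ≤ w) :
    ENNReal.ofReal (w * (∑ j, ‖coef e (u j x)‖ ^ 2) - 3087 / 10000 * w ^ (3 / 2 : ℝ)) ≤
      ∫⁻ a in Ioi (0:ℝ), ENNReal.ofReal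
        (6 * a * ∑ j, ‖coef e (u j x) - ∫ t, ((Chi a t : ℝ) : ℂ) * coef e (u j (x - t))‖ ^ 2) := by
  rcases hw.eq_or_lt with h0 | hpos
  · rw [← h0, zero_mul, zero_rpow (by norm_num), mul_zero, sub_zero, ENNReal.ofReal_zero]
    exact zero_le
  set s := √w with hs
  have hspos : 0 < s := Real.sqrt_pos.mpr hpos
  have hs2 : s ^ 2 = w := Real.sq_sqrt hw
  have hs3 : s ^ 3 = w ^ (3 / 2 : ℝ) := by
    rw [hs, Real.sqrt_eq_rpow, ← rpow_natCast, ← rpow_mul hw]
    norm_num
  set c : Fin N → ℂ := fun j => conj (coef e (u j x)) with hc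
  obtain ⟨hexpI, hexpV⟩ := orth_expand H1 orth c
  have hFform : ∀ y, ∑ j, conj (coef e (u j x)) * coef e (u j y)
      = coef e (fun i => ∑ j, c j * u j y i) := fun y => (coef_comb e c y).symm
  have hbd : ∀ y, ‖∑ j, conj (coef e (u j x)) * coef e (u j y)‖ ^ 2
      ≤ ∑ i, ‖∑ j, c j * u j y i‖ ^ 2 := by
    intro y
    rw [hFform]
    exact he _
  have hIsum : Integrable (fun y => ∑ i, ‖∑ j, c j * u j y i‖ ^ 2) :=
    integrable_finsetSum _ fun i _ => hexpI i
  have hFm : Measurable (fun y => ∑ j, conj (coef e (u j x)) * coef e (u j y)) :=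
    Finset.measurable_fun_sum _ fun j _ => (measurable_coef H1 e j).const_mul _
  have hFi : Integrable (fun y => ‖∑ j, conj (coef e (u j x)) * coef e (u j y)‖ ^ 2) := by
    refine Integrable.mono' hIsum (hFm.norm.pow_const 2).aestronglyMeasurable ?_
    refine Filter.Eventually.of_forall fun y => ?_
    rw [Real.norm_eq_abs, abs_of_nonneg (sq_nonneg _)]
    exact hbd y
  have hF : ∫ y, ‖∑ j, conj (coef e (u j x)) * coef e (u j y)‖ ^ 2
      ≤ ∑ j, ‖coef e (u j x)‖ ^ 2 := by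
    have h1 := integral_mono hFi hIsum hbd
    rw [integral_finsetSum _ fun i _ => hexpI i, hexpV] at h1
    refine h1.trans (le_of_eq ?_)
    refine Finset.sum_congr rfl fun j _ => ?_
    simp only [hc, RCLike.norm_conj]
  have hcore := core2 (φ := fun j y => coef e (u j y)) (measurable_coef H1 e) (sq_coef H1 e) x hspos hFi hF
  rw [hs2, hs3] at hcore
  exact hcore



/-- Sum of the filtered energies. -/
noncomputable def Vsum2 (u : Fin N → ℝ → Fin m → ℂ) (a x : ℝ) : ℝ :=
  ∑ j, ∑ i, (V2 (fun y => (u j y i).re) a x ^ 2 + V2 (fun y => (u j y i).im) a x ^ 2)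


/-- Linearity of `coef` under the convolution. -/
lemma coef_conv2 (H1 : ∀ j i, IsH1 (fun x => u j x i) (fun x => u' j x i)) (e : Fin m → ℂ)
    (j : Fin N) {a : ℝ} (ha : 0 < a) (x : ℝ) :
    coef e (u j x) - ∫ t, ((Chi a t : ℝ) : ℂ) * coef e (u j (x - t))
      = coef e (fun i => u j x i - ∫ t, ((Chi a t : ℝ) : ℂ) * u j (x - t) i) := by
  have hint : ∀ i, Integrable (fun t => ((Chi a t : ℝ) : ℂ) * u j (x - t) i) := fun i =>
    integrable_Chi_shift_complex (H1 j i).measurable (H1 j i).sq ha x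
  have h1 : ∫ t, ((Chi a t : ℝ) : ℂ) * coef e (u j (x - t))
      = ∑ i, conj (e i) * ∫ t, ((Chi a t : ℝ) : ℂ) * u j (x - t) i := by
    have : ∀ t, ((Chi a t : ℝ) : ℂ) * coef e (u j (x - t))
        = ∑ i, conj (e i) * (((Chi a t : ℝ) : ℂ) * u j (x - t) i) := by
      intro t
      unfold coef
      rw [Finset.mul_sum]
      refine Finset.sum_congr rfl fun i _ => ?_
      ring
    simp_rw [this]
    rw [integral_finsetSum _ fun i _ => (hint i).const_mul _]
    refine Finset.sum_congr rfl fun i _ => ?_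
    rw [integral_const_mul]
  rw [h1]
  unfold coef
  rw [← Finset.sum_sub_distrib]
  refine Finset.sum_congr rfl fun i _ => ?_
  ring

/-- The pointwise bound. -/
theorem pointwise2 (H1 : ∀ j i, IsH1 (fun x => u j x i) (fun x => u' j x i))
    (orth : ∀ j k, ∑ i, ∫ x, conj (u j x i) * u k x i = if j = k then 1 else 0)
    {A : Matrix (Fin m) (Fin m) ℂ} (hA : A.PosSemidef) (x : ℝ) :
    ENNReal.ofReal (∑ j, (star (u j x) ⬝ᵥ (A *ᵥ u j x)).re
        - 3087 / 10000 * ∑ k, hA.isHermitian.eigenvalues k ^ (3 / 2 : ℝ)) ≤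
      ∫⁻ a in Ioi (0:ℝ), ENNReal.ofReal (6 * a * Vsum2 u a x) := by
  set hH := hA.isHermitian with hHdef
  set b := hH.eigenvectorBasis with hb
  set e : Fin m → Fin m → ℂ := fun k => WithLp.ofLp (b k) with he
  set w : Fin m → ℝ := hH.eigenvalues with hw
  have hw0 : ∀ k, 0 ≤ w k := fun k => hA.eigenvalues_nonneg k
  have hpar : ∀ v : Fin m → ℂ, ∑ k, ‖coef (e k) v‖ ^ 2 = ∑ i, ‖v i‖ ^ 2 := fun v => parseval b v
  have hle : ∀ k, ∀ v : Fin m → ℂ, ‖coef (e k) v‖ ^ 2 ≤ ∑ i, ‖v i‖ ^ 2 := by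
    intro k v
    rw [← hpar v]
    exact Finset.single_le_sum (f := fun k => ‖coef (e k) v‖ ^ 2)
      (fun _ _ => by positivity) (Finset.mem_univ k)
  have hq : ∑ j, (star (u j x) ⬝ᵥ (A *ᵥ u j x)).re
      = ∑ k, w k * ∑ j, ‖coef (e k) (u j x)‖ ^ 2 := by
    simp_rw [quad_form hH, Finset.mul_sum]
    rw [Finset.sum_comm]
  have hsum : ∑ j, (star (u j x) ⬝ᵥ (A *ᵥ u j x)).re
        - 3087 / 10000 * ∑ k, hH.eigenvalues k ^ (3 / 2 : ℝ)
      = ∑ k, (w k * (∑ j, ‖coef (e k) (u j x)‖ ^ 2) - 3087 / 10000 * w k ^ (3 / 2 : ℝ)) := by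
    rw [hq, Finset.sum_sub_distrib, Finset.mul_sum]
  rw [hsum]
  refine (ofReal_sum_le _ _).trans ?_
  refine (Finset.sum_le_sum fun k _ => dir_bound2 H1 orth (e k) (hle k) x (hw0 k)).trans ?_
  refine (sum_lintegral_le _ _).trans ?_
  refine le_of_eq (setLIntegral_congr_fun measurableSet_Ioi fun a ha => ?_)
  have ha' : (0:ℝ) < a := ha
  rw [← ENNReal.ofReal_sum_of_nonneg (fun k _ => by positivity)]
  congr 1
  rw [← Finset.mul_sum]
  congr 1
  simp_rw [coef_conv2 H1 _ _ ha']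
  rw [Finset.sum_comm]
  unfold Vsum2
  refine Finset.sum_congr rfl fun j _ => ?_
  rw [hpar]
  refine Finset.sum_congr rfl fun i _ => ?_
  exact norm_conv2 (H1 j i) ha' x

lemma measurable_Vsum2 (H1 : ∀ j i, IsH1 (fun x => u j x i) (fun x => u' j x i)) :
    Measurable (fun p : ℝ × ℝ => Vsum2 u p.1 p.2) := by
  unfold Vsum2
  refine Finset.measurable_fun_sum _ fun j _ => Finset.measurable_fun_sum _ fun i _ => ?_
  have h1 := measurable_V2 (Complex.measurable_re.comp (H1 j i).measurable)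
  have h2 := measurable_V2 (Complex.measurable_im.comp (H1 j i).measurable)
  exact (h1.pow_const 2).add (h2.pow_const 2)

/-- The total kinetic bound. -/
theorem kinetic_total2 (H1 : ∀ j i, IsH1 (fun x => u j x i) (fun x => u' j x i)) :
    ∫⁻ a in Ioi (0:ℝ), ∫⁻ x, ENNReal.ofReal (6 * a * Vsum2 u a x) ≤
      ENNReal.ofReal (∑ j, ∑ i, ∫ x, ‖u' j x i‖ ^ 2) := by
  have hV1 : ∀ j i, Measurable (fun p : ℝ × ℝ => V2 (fun y => (u j y i).re) p.1 p.2) := fun j i =>
    measurable_V2 (Complex.measurable_re.comp (H1 j i).measurable)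
  have hV2 : ∀ j i, Measurable (fun p : ℝ × ℝ => V2 (fun y => (u j y i).im) p.1 p.2) := fun j i =>
    measurable_V2 (Complex.measurable_im.comp (H1 j i).measurable)
  let Z : Fin N → Fin m → ℝ → ℝ → ℝ≥0∞ := fun j i a x => ENNReal.ofReal
    (6 * a * (V2 (fun y => (u j y i).re) a x ^ 2 + V2 (fun y => (u j y i).im) a x ^ 2))
  have hZm : ∀ j i, Measurable (Function.uncurry (Z j i)) := by
    intro j i
    have h1 := hV1 j i
    have h2 := hV2 j i
    refine ENNReal.measurable_ofReal.comp ?_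
    exact (measurable_fst.const_mul 6).mul ((h1.pow_const 2).add (h2.pow_const 2))
  have hstep : ∀ a ∈ Ioi (0:ℝ), ∫⁻ x, ENNReal.ofReal (6 * a * Vsum2 u a x)
      = ∑ j, ∑ i, ∫⁻ x, Z j i a x := by
    intro a ha
    have ha' : (0:ℝ) < a := ha
    have h1 : ∀ x, ENNReal.ofReal (6 * a * Vsum2 u a x) = ∑ j, ∑ i, Z j i a x := by
      intro x
      unfold Vsum2
      rw [Finset.mul_sum, ENNReal.ofReal_sum_of_nonneg (fun j _ => by positivity)]
      refine Finset.sum_congr rfl fun j _ => ?_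
      rw [Finset.mul_sum, ENNReal.ofReal_sum_of_nonneg (fun i _ => by positivity)]
    simp_rw [h1]
    rw [lintegral_finsetSum']
    · refine Finset.sum_congr rfl fun j _ => ?_
      rw [lintegral_finsetSum']
      intro i _
      exact ((hZm j i).comp (measurable_const.prodMk measurable_id)).aemeasurable
    · intro j _
      refine (Finset.measurable_fun_sum _ fun i _ => ?_).aemeasurable
      exact (hZm j i).comp (measurable_const.prodMk measurable_id)
  rw [setLIntegral_congr_fun measurableSet_Ioi hstep]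
  have hZ2 : ∀ j i, Measurable (fun a => ∫⁻ x, Z j i a x) := fun j i =>
    Measurable.lintegral_prod_right (hZm j i)
  rw [lintegral_finsetSum']
  · have h3 : ∀ j, ∫⁻ a in Ioi (0:ℝ), ∑ i, ∫⁻ x, Z j i a x
        = ∑ i, ∫⁻ a in Ioi (0:ℝ), ∫⁻ x, Z j i a x := by
      intro j
      rw [lintegral_finsetSum']
      intro i _
      exact (hZ2 j i).aemeasurable
    simp_rw [h3]
    rw [ENNReal.ofReal_sum_of_nonneg (fun j _ => Finset.sum_nonneg fun i _ =>
      integral_nonneg fun _ => by positivity)]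
    refine Finset.sum_le_sum fun j _ => ?_
    rw [ENNReal.ofReal_sum_of_nonneg (fun i _ => integral_nonneg fun _ => by positivity)]
    refine Finset.sum_le_sum fun i _ => ?_
    exact kinetic_complex2 (H1 j i)
  · intro j _
    exact (Finset.measurable_fun_sum _ fun i _ => hZ2 j i).aemeasurable


/-- The global inequality with the numerical constant `81/250`. -/
theorem main_bound2 {W : ℝ → Matrix (Fin m) (Fin m) ℂ} (hW : ∀ x, (W x).PosSemidef)
    (hWm : ∀ p q, Measurable fun x => W x p q)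
    (hI : Integrable fun x => ∑ k, (hW x).isHermitian.eigenvalues k ^ (3 / 2 : ℝ))
    (H1 : ∀ j i, IsH1 (fun x => u j x i) (fun x => u' j x i))
    (orth : ∀ j k, ∑ i, ∫ x, conj (u j x i) * u k x i = if j = k then 1 else 0) :
    (∀ j, Integrable fun x => (star (u j x) ⬝ᵥ (W x *ᵥ u j x)).re) ∧
      (∑ j, ∫ x, (star (u j x) ⬝ᵥ (W x *ᵥ u j x)).re) - (∑ j, ∑ i, ∫ x, ‖u' j x i‖ ^ 2)
        ≤ 3087 / 10000 * ∫ x, ∑ k, (hW x).isHermitian.eigenvalues k ^ (3 / 2 : ℝ) := by
  have hT0 : 0 ≤ ∑ j, ∑ i, ∫ x, ‖u' j x i‖ ^ 2 := Finset.sum_nonneg fun j _ =>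
    Finset.sum_nonneg fun i _ => integral_nonneg fun _ => by positivity
  have hswap : ∫⁻ x, ∫⁻ a in Ioi (0:ℝ), ENNReal.ofReal (6 * a * Vsum2 u a x)
      = ∫⁻ a in Ioi (0:ℝ), ∫⁻ x, ENNReal.ofReal (6 * a * Vsum2 u a x) := by
    refine lintegral_lintegral_swap ?_
    have h1 := measurable_Vsum2 H1
    have h2' : Measurable ((fun p : ℝ × ℝ => Vsum2 u p.1 p.2) ∘ Prod.swap) := h1.comp measurable_swap
    have h3 : ((fun p : ℝ × ℝ => Vsum2 u p.1 p.2) ∘ Prod.swap) = fun p : ℝ × ℝ => Vsum2 u p.2 p.1 := by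
      funext p
      simp only [Function.comp, Prod.fst_swap, Prod.snd_swap]
    rw [h3] at h2'
    have h4 : Measurable (fun p : ℝ × ℝ => 6 * p.2 * Vsum2 u p.2 p.1) :=
      (measurable_snd.const_mul 6).mul h2'
    exact (ENNReal.measurable_ofReal.comp h4).aemeasurable
  refine main_abstract (L := 3087 / 10000) hT0 (by norm_num)
    (fun j => measurable_quad hWm (fun i => (H1 j i).measurable))
    (fun j x => quad_nonneg (hW x) _)
    (fun x => Finset.sum_nonneg fun k _ => rpow_nonneg ((hW x).eigenvalues_nonneg k) _)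
    hI ?_
  refine (lintegral_mono fun x => pointwise2 H1 orth (hW x) x).trans ?_
  rw [hswap]
  exact kinetic_total2 H1


end LT
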