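import Vale.Agent.helper5.LT2Step1

/-!
Representation of the second order high-pass filter through the derivative,
and the final kinetic energy bound in `lintegral` form.
-/

open MeasureTheory Set Real
open scoped ENNReal

namespace LT

/-- General Laplace type Fubini on the half-line. -/
lemma laplace_fubini_gen {ω Ω φ : ℝ → ℝ} (hωm : Measurable ω) (hω0 : ∀ t, 0 < t → 0 ≤ ω t)
    (hωI : ∀ r, 0 < r → IntegrableOn ω (Ici r)) (hωV : ∀ r, 0 < r → ∫ t in Ici r, ω t = Ω r)
    (hφm : Measurable φ) (hφ : IntegrableOn (fun r => Ω r * φ r) (Ioi 0)) :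
    IntegrableOn (fun t => ω t * ∫ r in (0:ℝ)..t, φ r) (Ioi 0) ∧
    ∫ t in Ioi (0:ℝ), ω t * ∫ r in (0:ℝ)..t, φ r = ∫ r in Ioi (0:ℝ), Ω r * φ r := by
  have hind : ∀ t ∈ Ioi (0:ℝ), ∫ r in Ioi (0:ℝ), ω t * ((Iic t).indicator (fun r => φ r) r)
      = ω t * ∫ r in (0:ℝ)..t, φ r := by
    intro t ht
    rw [integral_const_mul, intervalIntegral.integral_of_le (le_of_lt ht),
      setIntegral_indicator measurableSet_Iic]
    congr 2
  let F : ℝ → ℝ → ℝ := fun t r => ω t * ((Iic t).indicator (fun r => φ r) r)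
  have hFform : ∀ t r, F t r = ω t * (if r ≤ t then φ r else 0) := by
    intro t r
    simp only [F, indicator, mem_Iic]
  have hFm : Measurable (Function.uncurry F) := by
    have h1 : Measurable (fun p : ℝ × ℝ => if p.2 ≤ p.1 then φ p.2 else 0) := by
      refine Measurable.ite ?_ (by fun_prop) (by fun_prop)
      exact measurableSet_le measurable_snd measurable_fst
    have h2 : Function.uncurry F = fun p : ℝ × ℝ =>
        ω p.1 * (if p.2 ≤ p.1 then φ p.2 else 0) := by
      funext p
      exact hFform p.1 p.2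
    rw [h2]
    exact Measurable.mul (by fun_prop) h1
  have hin : ∀ r ∈ Ioi (0:ℝ), IntegrableOn (fun t => F t r) (Ioi 0) ∧
      ∫ t in Ioi (0:ℝ), F t r = Ω r * φ r := by
    intro r hr
    have hr' : (0:ℝ) < r := hr
    have hform : (fun t => F t r) = (Ici r).indicator (fun t => φ r * ω t) := by
      funext t
      rw [hFform]
      by_cases h : r ≤ t
      · simp [h, indicator]; ring
      · simp [h, indicator]
    have hsub : Ici r ⊆ Ioi (0:ℝ) := fun t ht => lt_of_lt_of_le hr' ht
    constructor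
    · rw [hform, IntegrableOn, integrable_indicator_iff measurableSet_Ici, IntegrableOn,
        Measure.restrict_restrict measurableSet_Ici, inter_eq_left.mpr hsub]
      exact (hωI r hr').const_mul (φ r)
    · rw [hform, setIntegral_indicator measurableSet_Ici, inter_eq_right.mpr hsub,
        integral_const_mul, hωV r hr']
      ring
  have hΩ0 : ∀ r, 0 < r → 0 ≤ Ω r := by
    intro r hr
    rw [← hωV r hr]
    exact setIntegral_nonneg measurableSet_Ici fun t ht => hω0 t (lt_of_lt_of_le hr ht)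
  have hprod : Integrable (Function.uncurry F)
      ((volume.restrict (Ioi (0:ℝ))).prod (volume.restrict (Ioi (0:ℝ)))) := by
    rw [integrable_prod_iff' hFm.aestronglyMeasurable]
    constructor
    · filter_upwards [ae_restrict_mem measurableSet_Ioi] with r hr
      exact (hin r hr).1
    · have h1 : IntegrableOn (fun r => ‖Ω r * φ r‖) (Ioi 0) := hφ.norm
      refine Integrable.congr h1 ?_
      filter_upwards [ae_restrict_mem measurableSet_Ioi] with r hr
      have hr' : (0:ℝ) < r := hr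
      have h2 : ∀ t, ‖Function.uncurry F (t, r)‖ = F t r * (if 0 ≤ φ r then 1 else -1) := by
        intro t
        simp only [Function.uncurry]
        rw [hFform]
        by_cases h : r ≤ t
        · have hωt := hω0 t (lt_of_lt_of_le hr' h)
          by_cases hφr : 0 ≤ φ r
          · simp [h, hφr, abs_of_nonneg hωt, abs_of_nonneg hφr]
          · have : φ r < 0 := not_le.mp hφr
            simp [h, hφr, abs_of_nonneg hωt, abs_of_neg this]
        · simp [h]
      simp only [h2]
      rw [integral_mul_const, (hin r hr).2, norm_mul, Real.norm_eq_abs, Real.norm_eq_abs,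
        abs_of_nonneg (hΩ0 r hr')]
      by_cases hφr : 0 ≤ φ r
      · simp [hφr, abs_of_nonneg hφr]
      · have : φ r < 0 := not_le.mp hφr
        simp [hφr, abs_of_neg this]
  constructor
  · exact IntegrableOn.congr_fun hprod.integral_prod_left hind measurableSet_Ioi
  · rw [← setIntegral_congr_fun measurableSet_Ioi hind, integral_integral_swap (f := F) hprod]
    exact setIntegral_congr_fun measurableSet_Ioi fun r hr => (hin r hr).2

/-- The second order low-pass kernel. -/
noncomputable def Chi (a t : ℝ) : ℝ := a / 4 * (3 - a * |t|) * exp (-(a * |t|))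

lemma measurable_Chi (a : ℝ) : Measurable (Chi a) := by
  unfold Chi; fun_prop

lemma measurable_Chi_uncurry : Measurable (fun p : ℝ × ℝ => Chi p.1 p.2) := by
  unfold Chi; fun_prop

lemma integrable_Chi {a : ℝ} (ha : 0 < a) : Integrable (Chi a) := by
  have h := (integrable_poly_exp_abs 3 (-1) 0 ha).const_mul (a / 4)
  refine h.congr (Filter.Eventually.of_forall fun t => ?_)
  simp only [Chi]
  ring

lemma integral_Chi {a : ℝ} (ha : 0 < a) : ∫ t, Chi a t = 1 := by
  have h1 : HasI (fun t => a / 4 * (3 - a * t) * exp (-(a * t))) (1 / 2) := by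
    have h := ((hasI_mono 0 ha).cmul (3 * a / 4)).sub ((hasI_mono 1 ha).cmul (a ^ 2 / 4))
    refine h.congr (fun t _ => ?_) ?_
    · ring
    · simp only [Nat.factorial]
      push_cast
      field_simp
      norm_num
  have h2 := integral_comp_abs (f := fun t => a / 4 * (3 - a * t) * exp (-(a * t)))
  have h3 : ∫ t, Chi a t = ∫ t, a / 4 * (3 - a * |t|) * exp (-(a * |t|)) := rfl
  rw [h3, h2, h1.2]
  norm_num

lemma integrable_Chi_sq {a : ℝ} (ha : 0 < a) : Integrable (fun t => Chi a t ^ 2) := by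
  refine integrable_sq_of_bdd (measurable_Chi a) (integrable_Chi ha) (C := a / 4 * (3 + 1 + 2 * 0))
    fun t => ?_
  have h1 : 0 ≤ a * |t| := by positivity
  have h2 := poly_exp_bdd 3 1 0 (by norm_num) (by norm_num) (le_refl _) _ h1
  simp only [Chi]
  rw [abs_mul, abs_mul, abs_of_pos (by positivity : 0 < a / 4), abs_of_pos (exp_pos _)]
  rw [mul_assoc]
  refine mul_le_mul_of_nonneg_left ?_ (by positivity)
  have h3 : abs (3 - a * |t|) ≤ 3 + 1 * (a * |t|) + 0 * (a * |t|) ^ 2 := by
    rw [abs_le]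
    constructor <;> nlinarith
  exact (mul_le_mul_of_nonneg_right h3 (exp_pos _).le).trans h2

lemma Chi_neg (a t : ℝ) : Chi a (-t) = Chi a t := by
  simp [Chi, abs_neg]

lemma Chi_pos_arg (a : ℝ) {t : ℝ} (ht : 0 < t) :
    Chi a t = 3 / 4 * (a * exp (-(a * t))) - 1 / 4 * (a ^ 2 * t * exp (-(a * t))) := by
  rw [Chi, abs_of_pos ht]
  ring

section tails

variable {a : ℝ}

lemma omega1_tail (ha : 0 < a) {r : ℝ} (hr : 0 < r) :
    IntegrableOn (fun t => a * exp (-(a * t))) (Ici r) ∧
      ∫ t in Ici r, a * exp (-(a * t)) = exp (-(a * r)) := by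
  have hI : IntegrableOn (fun t => a * exp (-(a * t))) (Ioi r) := by
    have h : IntegrableOn (fun t => a * exp (-(a * t))) (Ioi 0) :=
      (integrableOn_exp_mul ha).const_mul a
    exact h.mono_set (Ioi_subset_Ioi hr.le)
  refine ⟨by rw [integrableOn_Ici_iff_integrableOn_Ioi]; exact hI, ?_⟩
  rw [integral_Ici_eq_integral_Ioi]
  have hder : ∀ t ∈ Ici r, HasDerivAt (fun t => -exp (-(a * t))) (a * exp (-(a * t))) t := by
    intro t _
    have h1 : HasDerivAt (fun t : ℝ => -(a * t)) (-a) t := by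
      have h := ((hasDerivAt_id' t).const_mul a).fun_neg
      simpa using h
    have h2 := h1.exp.neg
    refine h2.congr_deriv ?_
    ring
  have hlim : Filter.Tendsto (fun t : ℝ => -exp (-(a * t))) Filter.atTop (nhds 0) := by
    have h1 : Filter.Tendsto (fun t : ℝ => a * t) Filter.atTop Filter.atTop :=
      Filter.tendsto_id.const_mul_atTop ha
    have h2 := (Real.tendsto_exp_neg_atTop_nhds_zero.comp h1).neg
    simpa using h2
  rw [integral_Ioi_of_hasDerivAt_of_tendsto' hder hI hlim]
  ring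

lemma omega2_tail (ha : 0 < a) {r : ℝ} (hr : 0 < r) :
    IntegrableOn (fun t => a ^ 2 * t * exp (-(a * t))) (Ici r) ∧
      ∫ t in Ici r, a ^ 2 * t * exp (-(a * t)) = (1 + a * r) * exp (-(a * r)) := by
  have hI : IntegrableOn (fun t => a ^ 2 * t * exp (-(a * t))) (Ioi r) := by
    have h0 : IntegrableOn (fun t => a ^ 2 * (t ^ 1 * exp (-(a * t)))) (Ioi 0) :=
      (integrableOn_pow_exp 1 ha).const_mul (a ^ 2)
    have h := h0.mono_set (Ioi_subset_Ioi hr.le)
    refine h.congr_fun (fun t _ => ?_) measurableSet_Ioi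
    simp only
    ring
  refine ⟨by rw [integrableOn_Ici_iff_integrableOn_Ioi]; exact hI, ?_⟩
  rw [integral_Ici_eq_integral_Ioi]
  have hder : ∀ t ∈ Ici r, HasDerivAt (fun t => -((1 + a * t) * exp (-(a * t))))
      (a ^ 2 * t * exp (-(a * t))) t := by
    intro t _
    have h1 : HasDerivAt (fun t : ℝ => -(a * t)) (-a) t := by
      have h := ((hasDerivAt_id' t).const_mul a).fun_neg
      simpa using h
    have h0 : HasDerivAt (fun t : ℝ => 1 + a * t) a t := by
      simpa using ((hasDerivAt_id t).const_mul a).const_add 1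
    have h2 := (h0.mul h1.exp).neg
    refine h2.congr_deriv ?_
    ring
  have hlim : Filter.Tendsto (fun t : ℝ => -((1 + a * t) * exp (-(a * t)))) Filter.atTop (nhds 0) := by
    have h1 : Filter.Tendsto (fun t : ℝ => a * t) Filter.atTop Filter.atTop :=
      Filter.tendsto_id.const_mul_atTop ha
    have h2 := (Real.tendsto_exp_neg_atTop_nhds_zero.comp h1)
    have h3 := (Real.tendsto_pow_mul_exp_neg_atTop_nhds_zero 1).comp h1
    have h4 := (h2.add h3).neg
    simp only [add_zero, neg_zero] at h4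
    refine h4.congr fun t => ?_
    simp only [Function.comp, pow_one]
    ring
  rw [integral_Ioi_of_hasDerivAt_of_tendsto' hder hI hlim]
  ring

lemma integrableOn_lin_exp_of_sq (ha : 0 < a) {φ : ℝ → ℝ} (hφm : Measurable φ)
    (hφ : Integrable (fun r => φ r ^ 2)) :
    IntegrableOn (fun r => (1 + a * r) * exp (-(a * r)) * φ r) (Ioi 0) := by
  let ψ : ℝ → ℝ := fun r => (1 + 1 * (a * |r|) + 0 * (a * |r|) ^ 2) * exp (-(a * |r|))
  have hψm : Measurable ψ := by simp only [ψ]; fun_prop
  have hψ : Integrable ψ := integrable_poly_exp_abs 1 1 0 ha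
  have hψ2 : Integrable (fun r => ψ r ^ 2) := by
    refine integrable_sq_of_bdd hψm hψ (C := 1 + 1 + 2 * 0) fun r => ?_
    have h1 : 0 ≤ a * |r| := by positivity
    have h2 := poly_exp_bdd 1 1 0 (by norm_num) (by norm_num) (le_refl _) _ h1
    rw [abs_of_nonneg]
    · exact h2
    · simp only [ψ]; positivity
  have h := (integrable_mul_of_sq hψm hφm hψ2 hφ).integrableOn (s := Ioi 0)
  refine h.congr_fun (fun r hr => ?_) measurableSet_Ioi
  have hr' : (0:ℝ) < r := hr
  simp only [ψ, abs_of_pos hr']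
  ring

/-- Laplace Fubini for the second order kernel. -/
lemma laplace_Chi (ha : 0 < a) {φ : ℝ → ℝ} (hφm : Measurable φ)
    (hφ : Integrable (fun r => φ r ^ 2)) :
    ∫ t in Ioi (0:ℝ), Chi a t * ∫ r in (0:ℝ)..t, φ r
      = ∫ r in Ioi (0:ℝ), Pk 1 (1 / 2) (-1 / 4) 0 a r * φ r := by
  obtain ⟨i1, v1⟩ := laplace_fubini_gen (ω := fun t => a * exp (-(a * t)))
    (Ω := fun r => exp (-(a * r))) (φ := φ) (by fun_prop) (fun t _ => by positivity)
    (fun r hr => (omega1_tail ha hr).1) (fun r hr => (omega1_tail ha hr).2) hφm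
    (integrableOn_exp_of_sq ha hφm hφ)
  obtain ⟨i2, v2⟩ := laplace_fubini_gen (ω := fun t => a ^ 2 * t * exp (-(a * t)))
    (Ω := fun r => (1 + a * r) * exp (-(a * r))) (φ := φ) (by fun_prop)
    (fun t ht => by have : 0 < t := ht; positivity)
    (fun r hr => (omega2_tail ha hr).1) (fun r hr => (omega2_tail ha hr).2) hφm
    (integrableOn_lin_exp_of_sq ha hφm hφ)
  have i1' : IntegrableOn (fun r => exp (-(a * r)) * φ r) (Ioi 0) := integrableOn_exp_of_sq ha hφm hφ
  have i2' : IntegrableOn (fun r => (1 + a * r) * exp (-(a * r)) * φ r) (Ioi 0) :=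
    integrableOn_lin_exp_of_sq ha hφm hφ
  have hL : ∫ t in Ioi (0:ℝ), Chi a t * ∫ r in (0:ℝ)..t, φ r
      = 3 / 4 * (∫ t in Ioi (0:ℝ), (a * exp (-(a * t))) * ∫ r in (0:ℝ)..t, φ r)
        - 1 / 4 * ∫ t in Ioi (0:ℝ), (a ^ 2 * t * exp (-(a * t))) * ∫ r in (0:ℝ)..t, φ r := by
    rw [← integral_const_mul, ← integral_const_mul, ← integral_sub (i1.const_mul _) (i2.const_mul _)]
    refine setIntegral_congr_fun measurableSet_Ioi fun t ht => ?_
    rw [Chi_pos_arg a ht]
    ring
  rw [hL, v1, v2, ← integral_const_mul, ← integral_const_mul,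
    ← integral_sub (i1'.const_mul _) (i2'.const_mul _)]
  refine setIntegral_congr_fun measurableSet_Ioi fun r hr => ?_
  rw [Pk_of_pos hr]
  ring

end tails

/-- The second order high-pass filtered function is the convolution of the derivative with the
odd kernel. -/
theorem rep2 {g f : ℝ → ℝ} (hgm : Measurable g) (hfm : Measurable f)
    (hg2 : Integrable (fun x => g x ^ 2)) (hf2 : Integrable (fun x => f x ^ 2))
    (hftc : ∀ x y, ∫ t in x..y, f t = g y - g x) {a : ℝ} (ha : 0 < a) (x : ℝ) :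
    g x - ∫ t, Chi a t * g (x - t) = kconv (S2 a) f x := by
  have hGg := integrable_kernel_shift (measurable_Chi a) hgm (integrable_Chi_sq ha) hg2 x
  have hGh : Integrable (fun t => Chi a t * (g x - g (x - t))) := by
    have := ((integrable_Chi ha).mul_const (g x)).sub hGg
    refine this.congr (Filter.Eventually.of_forall fun t => ?_)
    simp only [Pi.sub_apply]
    ring
  have hA : g x - ∫ t, Chi a t * g (x - t) = ∫ t, Chi a t * (g x - g (x - t)) := by
    have : ∫ t, Chi a t * (g x - g (x - t)) = ∫ t, (Chi a t * g x - Chi a t * g (x - t)) := by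
      refine integral_congr_ae (Filter.Eventually.of_forall fun t => ?_)
      simp only
      ring
    rw [this, integral_sub ((integrable_Chi ha).mul_const (g x)) hGg, integral_mul_const,
      integral_Chi ha, one_mul]
  have hφ1m : Measurable (fun r => f (x - r)) := by fun_prop
  have hφ2m : Measurable (fun r => f (x + r)) := by fun_prop
  have hφ1 : Integrable (fun r => f (x - r) ^ 2) := hf2.comp_sub_left x
  have hφ2 : Integrable (fun r => f (x + r) ^ 2) := hf2.comp_add_left x
  have hL1 := laplace_Chi ha hφ1m hφ1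
  have hL2 := laplace_Chi ha hφ2m hφ2
  have hh1 : ∀ t, ∫ r in (0:ℝ)..t, f (x - r) = g x - g (x - t) := by
    intro t
    rw [intervalIntegral.integral_comp_sub_left (fun y => f y) x, hftc]
    simp
  have hh2 : ∀ t, ∫ r in (0:ℝ)..t, f (x + r) = g (x + t) - g x := by
    intro t
    rw [intervalIntegral.integral_comp_add_left (fun y => f y) x, hftc]
    simp
  rw [hA, split_line hGh]
  have h1 : ∫ t in Ioi (0:ℝ), Chi a t * (g x - g (x - t))
      = ∫ r in Ioi (0:ℝ), Pk 1 (1 / 2) (-1 / 4) 0 a r * f (x - r) := by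
    rw [← hL1]
    refine setIntegral_congr_fun measurableSet_Ioi fun t ht => ?_
    rw [hh1]
  have h2 : ∫ t in Ioi (0:ℝ), Chi a (-t) * (g x - g (x - -t))
      = -∫ r in Ioi (0:ℝ), Pk 1 (1 / 2) (-1 / 4) 0 a r * f (x + r) := by
    rw [← hL2, ← integral_neg]
    refine setIntegral_congr_fun measurableSet_Ioi fun t ht => ?_
    rw [Chi_neg, hh2, sub_neg_eq_add]
    ring
  rw [h1, h2]
  have hS := integrable_kernel_shift (measurable_S2 a) hfm (integrable_S2_sq ha) hf2 x
  unfold kconv
  rw [split_line hS]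
  have h3 : ∫ t in Ioi (0:ℝ), S2 a t * f (x - t)
      = ∫ r in Ioi (0:ℝ), Pk 1 (1 / 2) (-1 / 4) 0 a r * f (x - r) := by
    refine setIntegral_congr_fun measurableSet_Ioi fun t ht => ?_
    have ht' : (0:ℝ) < t := ht
    simp only [S2]
    rw [Pk_zero_of_nonpos (t := -t) (by linarith), sub_zero]
  have h4 : ∫ t in Ioi (0:ℝ), S2 a (-t) * f (x - -t)
      = -∫ r in Ioi (0:ℝ), Pk 1 (1 / 2) (-1 / 4) 0 a r * f (x + r) := by
    rw [← integral_neg]
    refine setIntegral_congr_fun measurableSet_Ioi fun t ht => ?_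
    have ht' : (0:ℝ) < t := ht
    simp only [S2, neg_neg]
    rw [Pk_zero_of_nonpos (t := -t) (by linarith), sub_neg_eq_add]
    ring
  rw [h3, h4]

/-- The second order filtered function. -/
noncomputable def V2 (g : ℝ → ℝ) (a x : ℝ) : ℝ := g x - ∫ t, Chi a t * g (x - t)

lemma measurable_V2 {g : ℝ → ℝ} (hgm : Measurable g) :
    Measurable (fun p : ℝ × ℝ => V2 g p.1 p.2) := by
  unfold V2
  have h1 : StronglyMeasurable (fun p : ℝ × ℝ => ∫ t, Chi p.1 t * g (p.2 - t)) := by
    refine StronglyMeasurable.integral_prod_right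
      (f := fun (p : ℝ × ℝ) (t : ℝ) => Chi p.1 t * g (p.2 - t)) ?_
    refine Measurable.stronglyMeasurable ?_
    have h2 : Measurable (fun q : (ℝ × ℝ) × ℝ => Chi q.1.1 q.2) :=
      measurable_Chi_uncurry.comp ((measurable_fst.comp measurable_fst).prodMk measurable_snd)
    exact (h2.mul (by fun_prop))
  exact (by fun_prop : Measurable fun p : ℝ × ℝ => g p.2).sub h1.measurable

/-- The kinetic energy bound in `lintegral` form. -/
theorem kinetic_lintegral2 {g f : ℝ → ℝ} (hgm : Measurable g) (hfm : Measurable f)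
    (hg2 : Integrable (fun x => g x ^ 2)) (hf2 : Integrable (fun x => f x ^ 2))
    (hftc : ∀ x y, ∫ t in x..y, f t = g y - g x) :
    ∫⁻ a in Ioi (0:ℝ), ∫⁻ x, ENNReal.ofReal (6 * a * V2 g a x ^ 2) ≤
      ENNReal.ofReal (∫ x, f x ^ 2) := by
  have hV : ∀ a > (0:ℝ), ∀ x, V2 g a x = kconv (S2 a) f x :=
    fun a ha x => rep2 hgm hfm hg2 hf2 hftc ha x
  have hZ : ∀ a > (0:ℝ), ∫⁻ x, ENNReal.ofReal (6 * a * V2 g a x ^ 2)
      = ENNReal.ofReal (6 * a * ∫ x, kconv (S2 a) f x ^ 2) := by
    intro a ha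
    have h1 := (energy (measurable_S2 a) hfm (integrable_S2 ha) (integrable_S2_sq ha) hf2).1
    rw [← integral_const_mul, ofReal_integral_eq_lintegral_ofReal (h1.const_mul _)
      (Filter.Eventually.of_forall fun x => by
        simp only [Pi.zero_apply]; positivity)]
    refine lintegral_congr fun x => ?_
    rw [hV a ha x]
  have hT : ∀ n : ℕ, ∫⁻ a in Ioc (1 / ((n:ℝ) + 1)) ((n:ℝ) + 1),
      ∫⁻ x, ENNReal.ofReal (6 * a * V2 g a x ^ 2) ≤ ENNReal.ofReal (∫ x, f x ^ 2) := by
    intro n
    have hε : (0:ℝ) < 1 / ((n:ℝ) + 1) := by positivity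
    have hle : 1 / ((n:ℝ) + 1) ≤ (n:ℝ) + 1 := by
      rw [div_le_iff₀ (by positivity)]
      nlinarith [(Nat.cast_nonneg n : (0:ℝ) ≤ n)]
    obtain ⟨h1, h2⟩ := step1_trunc2 hfm hf2 hε hle
    have h3 : ∫⁻ a in Ioc (1 / ((n:ℝ) + 1)) ((n:ℝ) + 1),
        ∫⁻ x, ENNReal.ofReal (6 * a * V2 g a x ^ 2)
        = ∫⁻ a in Ioc (1 / ((n:ℝ) + 1)) ((n:ℝ) + 1),
          ENNReal.ofReal (3 * (2 * a * ∫ x, kconv (S2 a) f x ^ 2)) := by
      refine setLIntegral_congr_fun measurableSet_Ioc fun a ha => ?_
      rw [hZ a (hε.trans ha.1)]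
      congr 1
      ring
    rw [h3, ← ofReal_integral_eq_lintegral_ofReal (h1.const_mul 3)]
    · refine ENNReal.ofReal_le_ofReal ?_
      rw [integral_const_mul]
      linarith
    · filter_upwards [ae_restrict_mem measurableSet_Ioc] with a ha
      have : (0:ℝ) < a := hε.trans ha.1
      simp only [Pi.zero_apply]
      have h5 : 0 ≤ ∫ x, kconv (S2 a) f x ^ 2 := integral_nonneg fun _ => sq_nonneg _
      positivity
  have hU : Ioi (0:ℝ) = ⋃ n : ℕ, Ioc (1 / ((n:ℝ) + 1)) ((n:ℝ) + 1) := by
    ext a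
    simp only [mem_Ioi, mem_iUnion, mem_Ioc]
    constructor
    · intro ha
      obtain ⟨n1, hn1⟩ := exists_nat_gt (1 / a)
      obtain ⟨n2, hn2⟩ := exists_nat_gt a
      refine ⟨max n1 n2, ?_, ?_⟩
      · rw [div_lt_iff₀ (by positivity)]
        have h1 : (n1:ℝ) ≤ (max n1 n2 : ℕ) := by exact_mod_cast le_max_left _ _
        rw [div_lt_iff₀ ha] at hn1
        nlinarith
      · have h1 : (n2:ℝ) ≤ (max n1 n2 : ℕ) := by exact_mod_cast le_max_right _ _
        linarith
    · rintro ⟨n, h1, _⟩
      exact lt_trans (by positivity) h1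
  rw [hU, setLIntegral_iUnion_of_directed]
  · exact iSup_le hT
  · refine Monotone.directed_le (f := fun n : ℕ => Ioc (1 / ((n:ℝ) + 1)) ((n:ℝ) + 1)) ?_ |>.mono_comp _ (fun _ _ h => h) 
    intro m n hmn
    have hmn' : (m:ℝ) ≤ n := by exact_mod_cast hmn
    refine Ioc_subset_Ioc ?_ (by linarith)
    exact one_div_le_one_div_of_le (by positivity) (by linarith)

end LT
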