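import Vale.Agent.helper5.LTStep1

/-!
Representation of the high-pass filtered function through the derivative,
and the final kinetic energy bound in `lintegral` form.
-/

open MeasureTheory Set Real
open scoped ENNReal

namespace LT

/-- Laplace type Fubini on the half-line. -/
lemma laplace_fubini {a : ℝ} (ha : 0 < a) {φ : ℝ → ℝ} (hφm : Measurable φ)
    (hφ : IntegrableOn (fun r => exp (-(a * r)) * φ r) (Ioi 0)) :
    ∫ t in Ioi (0:ℝ), (a * exp (-(a * t))) * ∫ r in (0:ℝ)..t, φ r
      = ∫ r in Ioi (0:ℝ), exp (-(a * r)) * φ r := by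
  -- rewrite the interval integral with an indicator
  have hind : ∀ t ∈ Ioi (0:ℝ), (a * exp (-(a * t))) * ∫ r in (0:ℝ)..t, φ r
      = ∫ r in Ioi (0:ℝ), (a * exp (-(a * t))) * ((Iic t).indicator (fun r => φ r) r) := by
    intro t ht
    rw [integral_const_mul, intervalIntegral.integral_of_le (le_of_lt ht),
      setIntegral_indicator measurableSet_Iic]
    congr 2
  rw [setIntegral_congr_fun measurableSet_Ioi hind]
  -- the product integrable
  let F : ℝ → ℝ → ℝ := fun t r => (a * exp (-(a * t))) * ((Iic t).indicator (fun r => φ r) r)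
  have hFform : ∀ t r, F t r = (a * exp (-(a * t))) * (if r ≤ t then φ r else 0) := by
    intro t r
    simp only [F, indicator, mem_Iic]
  have hFm : Measurable (Function.uncurry F) := by
    have h1 : Measurable (fun p : ℝ × ℝ => if p.2 ≤ p.1 then φ p.2 else 0) := by
      refine Measurable.ite ?_ (by fun_prop) (by fun_prop)
      exact measurableSet_le measurable_snd measurable_fst
    have h2 : Function.uncurry F = fun p : ℝ × ℝ =>
        (a * exp (-(a * p.1))) * (if p.2 ≤ p.1 then φ p.2 else 0) := by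
      funext p
      exact hFform p.1 p.2
    rw [h2]
    exact Measurable.mul (by fun_prop) h1
  -- the inner integral in `t`
  have hin : ∀ r ∈ Ioi (0:ℝ), IntegrableOn (fun t => F t r) (Ioi 0) ∧
      ∫ t in Ioi (0:ℝ), F t r = exp (-(a * r)) * φ r := by
    intro r hr
    have hr' : (0:ℝ) < r := hr
    have hform : (fun t => F t r) = (Ici r).indicator (fun t => φ r * (a * exp (-(a * t)))) := by
      funext t
      rw [hFform]
      by_cases h : r ≤ t
      · simp [h, indicator]; ring
      · simp [h, indicator]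
    have hsub : Ici r ⊆ Ioi (0:ℝ) := fun t ht => lt_of_lt_of_le hr' ht
    have hexp : IntegrableOn (fun t => exp (-(a * t))) (Ici r) := by
      rw [integrableOn_Ici_iff_integrableOn_Ioi]
      exact (integrableOn_exp_mul ha).mono_set (Ioi_subset_Ioi hr'.le)
    constructor
    · rw [hform, IntegrableOn, integrable_indicator_iff measurableSet_Ici, IntegrableOn,
        Measure.restrict_restrict measurableSet_Ici, inter_eq_left.mpr hsub]
      exact (hexp.const_mul a).const_mul (φ r)
    · rw [hform, setIntegral_indicator measurableSet_Ici, inter_eq_right.mpr hsub,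
        integral_const_mul, integral_const_mul, integral_Ici_eq_integral_Ioi]
      have h2 := integral_exp_mul_Ioi (a := -a) (by linarith) r
      have h3 : ∫ x in Ioi r, exp (-(a * x)) = exp (-(a * r)) / a := by
        simp only [neg_mul] at h2
        rw [h2]
        rw [neg_div_neg_eq]
      rw [h3]
      field_simp
  -- integrability on the product
  have hprod : Integrable (Function.uncurry F)
      ((volume.restrict (Ioi (0:ℝ))).prod (volume.restrict (Ioi (0:ℝ)))) := by
    rw [integrable_prod_iff' hFm.aestronglyMeasurable]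
    constructor
    · filter_upwards [ae_restrict_mem measurableSet_Ioi] with r hr
      exact (hin r hr).1
    · have h1 : IntegrableOn (fun r => ‖exp (-(a * r)) * φ r‖) (Ioi 0) := hφ.norm
      refine Integrable.congr h1 ?_
      filter_upwards [ae_restrict_mem measurableSet_Ioi] with r hr
      have hr' : (0:ℝ) < r := hr
      have h2 : ∀ t, ‖Function.uncurry F (t, r)‖ = F t (r) * (if 0 ≤ φ r then 1 else -1) := by
        intro t
        simp only [Function.uncurry]
        rw [hFform]
        by_cases h : r ≤ t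
        · by_cases hφr : 0 ≤ φ r
          · simp [h, hφr, abs_of_pos ha, abs_of_nonneg hφr]
          · have : φ r < 0 := not_le.mp hφr
            simp [h, hφr, abs_of_pos ha, abs_of_neg this]
        · simp [h]
      simp only [h2]
      rw [integral_mul_const, (hin r hr).2]
      by_cases hφr : 0 ≤ φ r
      · simp [hφr, abs_of_nonneg hφr]
      · have : φ r < 0 := not_le.mp hφr
        simp [hφr, abs_of_neg this]
  rw [integral_integral_swap (f := F) hprod]
  exact setIntegral_congr_fun measurableSet_Ioi fun r hr => (hin r hr).2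

end LT

namespace LT

lemma split_line {ψ : ℝ → ℝ} (hψ : Integrable ψ) :
    ∫ t, ψ t = (∫ t in Ioi (0:ℝ), ψ t) + ∫ t in Ioi (0:ℝ), ψ (-t) := by
  have h1 := integral_comp_neg_Ioi (0:ℝ) ψ
  rw [neg_zero] at h1
  rw [h1, add_comm]
  exact (intervalIntegral.integral_Iic_add_Ioi hψ.integrableOn hψ.integrableOn).symm

lemma integrableOn_exp_of_sq {a : ℝ} (ha : 0 < a) {φ : ℝ → ℝ} (hφm : Measurable φ)
    (hφ : Integrable (fun r => φ r ^ 2)) :
    IntegrableOn (fun r => exp (-(a * r)) * φ r) (Ioi 0) := by
  refine Integrable.mono' (g := fun r => (exp (-((2 * a) * r)) + φ r ^ 2) / 2)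
    (((integrableOn_exp_mul (b := 2 * a) (by positivity)).add hφ.integrableOn).div_const 2) ?_ ?_
  · exact (by fun_prop : Measurable fun r => exp (-(a * r)) * φ r).aestronglyMeasurable
  · refine Filter.Eventually.of_forall fun r => ?_
    have h1 : exp (-((2 * a) * r)) = exp (-(a * r)) ^ 2 := by
      rw [← exp_nat_mul]; congr 1; push_cast; ring
    rw [h1, Real.norm_eq_abs, abs_le]
    constructor <;> nlinarith [sq_nonneg (exp (-(a * r)) - φ r), sq_nonneg (exp (-(a * r)) + φ r)]

lemma integrable_G_sq {a : ℝ} (ha : 0 < a) : Integrable (fun t => G a t ^ 2) := by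
  have h := (integrable_exp_abs (b := 2 * a) (by positivity)).const_mul ((a / 2) ^ 2)
  refine h.congr (Filter.Eventually.of_forall fun t => ?_)
  simp only [G]
  rw [mul_pow, exp_abs_sq]

lemma G_pos_arg (a : ℝ) {t : ℝ} (ht : 0 < t) : G a t = a / 2 * exp (-(a * t)) := by
  rw [G, abs_of_pos ht]

lemma G_neg_arg (a : ℝ) {t : ℝ} (ht : 0 < t) : G a (-t) = a / 2 * exp (-(a * t)) := by
  rw [G, abs_neg, abs_of_pos ht]

lemma S_pos_arg (a : ℝ) {t : ℝ} (ht : 0 < t) : S a t = exp (-(a * t)) / 2 := by
  have : ¬ 0 < -t := by linarith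
  simp [S, E, ht, this]

lemma S_neg_arg (a : ℝ) {t : ℝ} (ht : 0 < t) : S a (-t) = -(exp (-(a * t)) / 2) := by
  have : ¬ 0 < -t := by linarith
  simp [S, E, ht, this]
  ring

/-- The high-pass filtered function is the convolution of the derivative with the odd kernel. -/
theorem rep {g f : ℝ → ℝ} (hgm : Measurable g) (hfm : Measurable f)
    (hg2 : Integrable (fun x => g x ^ 2)) (hf2 : Integrable (fun x => f x ^ 2))
    (hftc : ∀ x y, ∫ t in x..y, f t = g y - g x) {a : ℝ} (ha : 0 < a) (x : ℝ) :
    g x - ∫ t, G a t * g (x - t) = kconv (S a) f x := by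
  have hGg := integrable_kernel_shift (measurable_G a) hgm (integrable_G_sq ha) hg2 x
  have hGh : Integrable (fun t => G a t * (g x - g (x - t))) := by
    have := ((integrable_G ha).mul_const (g x)).sub hGg
    refine this.congr (Filter.Eventually.of_forall fun t => ?_)
    simp only [Pi.sub_apply]
    ring
  -- Step A
  have hA : g x - ∫ t, G a t * g (x - t) = ∫ t, G a t * (g x - g (x - t)) := by
    have : ∫ t, G a t * (g x - g (x - t)) = ∫ t, (G a t * g x - G a t * g (x - t)) := by
      refine integral_congr_ae (Filter.Eventually.of_forall fun t => ?_)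
      simp only
      ring
    rw [this, integral_sub ((integrable_G ha).mul_const (g x)) hGg, integral_mul_const,
      integral_G ha, one_mul]
  -- pieces
  have hφ1m : Measurable (fun r => f (x - r)) := by fun_prop
  have hφ2m : Measurable (fun r => f (x + r)) := by fun_prop
  have hφ1 : Integrable (fun r => f (x - r) ^ 2) := hf2.comp_sub_left x
  have hφ2 : Integrable (fun r => f (x + r) ^ 2) := hf2.comp_add_left x
  have hL1 := laplace_fubini ha hφ1m (integrableOn_exp_of_sq ha hφ1m hφ1)
  have hL2 := laplace_fubini ha hφ2m (integrableOn_exp_of_sq ha hφ2m hφ2)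
  have hh1 : ∀ t, ∫ r in (0:ℝ)..t, f (x - r) = g x - g (x - t) := by
    intro t
    rw [intervalIntegral.integral_comp_sub_left (fun y => f y) x, hftc]
    simp
  have hh2 : ∀ t, ∫ r in (0:ℝ)..t, f (x + r) = g (x + t) - g x := by
    intro t
    rw [intervalIntegral.integral_comp_add_left (fun y => f y) x, hftc]
    simp
  rw [hA, split_line hGh]
  have h1 : ∫ t in Ioi (0:ℝ), G a t * (g x - g (x - t))
      = (1 / 2) * ∫ r in Ioi (0:ℝ), exp (-(a * r)) * f (x - r) := by
    rw [← hL1, ← integral_const_mul]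
    refine setIntegral_congr_fun measurableSet_Ioi fun t ht => ?_
    rw [G_pos_arg a ht, hh1]
    ring
  have h2 : ∫ t in Ioi (0:ℝ), G a (-t) * (g x - g (x - -t))
      = -((1 / 2) * ∫ r in Ioi (0:ℝ), exp (-(a * r)) * f (x + r)) := by
    rw [← hL2, ← integral_const_mul, ← integral_neg]
    refine setIntegral_congr_fun measurableSet_Ioi fun t ht => ?_
    rw [G_neg_arg a ht, hh2, sub_neg_eq_add]
    ring
  rw [h1, h2]
  -- the convolution side
  have hS := integrable_kernel_shift (measurable_S a) hfm (integrable_S_sq ha) hf2 x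
  unfold kconv
  rw [split_line hS]
  have h3 : ∫ t in Ioi (0:ℝ), S a t * f (x - t)
      = (1 / 2) * ∫ r in Ioi (0:ℝ), exp (-(a * r)) * f (x - r) := by
    rw [← integral_const_mul]
    refine setIntegral_congr_fun measurableSet_Ioi fun t ht => ?_
    rw [S_pos_arg a ht]
    ring
  have h4 : ∫ t in Ioi (0:ℝ), S a (-t) * f (x - -t)
      = -((1 / 2) * ∫ r in Ioi (0:ℝ), exp (-(a * r)) * f (x + r)) := by
    rw [← integral_const_mul, ← integral_neg]
    refine setIntegral_congr_fun measurableSet_Ioi fun t ht => ?_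
    rw [S_neg_arg a ht, sub_neg_eq_add]
    ring
  rw [h3, h4]

/-- The filtered function with a general kernel parameter. -/
noncomputable def V (g : ℝ → ℝ) (a x : ℝ) : ℝ := g x - ∫ t, G a t * g (x - t)

lemma measurable_G_uncurry : Measurable (fun p : ℝ × ℝ => G p.1 p.2) := by
  unfold G; fun_prop

lemma measurable_V {g : ℝ → ℝ} (hgm : Measurable g) :
    Measurable (fun p : ℝ × ℝ => V g p.1 p.2) := by
  unfold V
  have h1 : StronglyMeasurable (fun p : ℝ × ℝ => ∫ t, G p.1 t * g (p.2 - t)) := by
    refine StronglyMeasurable.integral_prod_right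
      (f := fun (p : ℝ × ℝ) (t : ℝ) => G p.1 t * g (p.2 - t)) ?_
    refine Measurable.stronglyMeasurable ?_
    have h2 : Measurable (fun q : (ℝ × ℝ) × ℝ => G q.1.1 q.2) :=
      measurable_G_uncurry.comp ((measurable_fst.comp measurable_fst).prodMk measurable_snd)
    exact (h2.mul (by fun_prop))
  exact (by fun_prop : Measurable fun p : ℝ × ℝ => g p.2).sub h1.measurable

/-- The kinetic energy bound in `lintegral` form. -/
theorem kinetic_lintegral {g f : ℝ → ℝ} (hgm : Measurable g) (hfm : Measurable f)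
    (hg2 : Integrable (fun x => g x ^ 2)) (hf2 : Integrable (fun x => f x ^ 2))
    (hftc : ∀ x y, ∫ t in x..y, f t = g y - g x) :
    ∫⁻ a in Ioi (0:ℝ), ∫⁻ x, ENNReal.ofReal (2 * a * V g a x ^ 2) ≤
      ENNReal.ofReal (∫ x, f x ^ 2) := by
  have hV : ∀ a > (0:ℝ), ∀ x, V g a x = kconv (S a) f x := fun a ha x => rep hgm hfm hg2 hf2 hftc ha x
  have hZ : ∀ a > (0:ℝ), ∫⁻ x, ENNReal.ofReal (2 * a * V g a x ^ 2)
      = ENNReal.ofReal (2 * a * ∫ x, kconv (S a) f x ^ 2) := by
    intro a ha
    have h1 := (energy (measurable_S a) hfm (integrable_S ha) (integrable_S_sq ha) hf2).1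
    rw [← integral_const_mul, ofReal_integral_eq_lintegral_ofReal (h1.const_mul _)
      (Filter.Eventually.of_forall fun x => by
        simp only [Pi.zero_apply]; positivity)]
    refine lintegral_congr fun x => ?_
    rw [hV a ha x]
  -- truncations
  have hT : ∀ n : ℕ, ∫⁻ a in Ioc (1 / ((n:ℝ) + 1)) ((n:ℝ) + 1),
      ∫⁻ x, ENNReal.ofReal (2 * a * V g a x ^ 2) ≤ ENNReal.ofReal (∫ x, f x ^ 2) := by
    intro n
    have hε : (0:ℝ) < 1 / ((n:ℝ) + 1) := by positivity
    have hle : 1 / ((n:ℝ) + 1) ≤ (n:ℝ) + 1 := by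
      rw [div_le_iff₀ (by positivity)]
      nlinarith [(Nat.cast_nonneg n : (0:ℝ) ≤ n)]
    obtain ⟨h1, h2⟩ := step1_trunc hfm hf2 hε hle
    have h3 : ∫⁻ a in Ioc (1 / ((n:ℝ) + 1)) ((n:ℝ) + 1),
        ∫⁻ x, ENNReal.ofReal (2 * a * V g a x ^ 2)
        = ∫⁻ a in Ioc (1 / ((n:ℝ) + 1)) ((n:ℝ) + 1),
          ENNReal.ofReal (2 * a * ∫ x, kconv (S a) f x ^ 2) := by
      refine setLIntegral_congr_fun measurableSet_Ioc fun a ha => ?_
      exact hZ a (hε.trans ha.1)
    rw [h3, ← ofReal_integral_eq_lintegral_ofReal h1]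
    · exact ENNReal.ofReal_le_ofReal h2
    · filter_upwards [ae_restrict_mem measurableSet_Ioc] with a ha
      have : (0:ℝ) < a := hε.trans ha.1
      simp only [Pi.zero_apply]
      have h5 : 0 ≤ ∫ x, kconv (S a) f x ^ 2 := integral_nonneg fun _ => sq_nonneg _
      positivity
  -- union
  have hU : Ioi (0:ℝ) = ⋃ n : ℕ, Ioc (1 / ((n:ℝ) + 1)) ((n:ℝ) + 1) := by
    ext a
    simp only [mem_Ioi, mem_iUnion, mem_Ioc]
    constructor
    · intro ha
      obtain ⟨n1, hn1⟩ := exists_nat_gt (1 / a)
      obtain ⟨n2, hn2⟩ := exists_nat_gt a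
      refine ⟨max n1 n2, ?_, ?_⟩
      · rw [div_lt_iff₀ (by positivity)]
        have h1 : (n1:ℝ) ≤ (max n1 n2 : ℕ) := by exact_mod_cast le_max_left _ _
        rw [div_lt_iff₀ ha] at hn1
        nlinarith
      · have h1 : (n2:ℝ) ≤ (max n1 n2 : ℕ) := by exact_mod_cast le_max_right _ _
        linarith
    · rintro ⟨n, h1, _⟩
      exact lt_trans (by positivity) h1
  rw [hU, setLIntegral_iUnion_of_directed]
  · exact iSup_le hT
  · refine Monotone.directed_le (f := fun n : ℕ => Ioc (1 / ((n:ℝ) + 1)) ((n:ℝ) + 1)) ?_ |>.mono_comp _ (fun _ _ h => h) 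
    intro m n hmn
    have hmn' : (m:ℝ) ≤ n := by exact_mod_cast hmn
    refine Ioc_subset_Ioc ?_ (by linarith)
    exact one_div_le_one_div_of_le (by positivity) (by linarith)

end LT
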