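import Vale.Agent.helper5.LT2Kernel
import Vale.Agent.helper5.LTRep

/-!
Second order filter: kinetic energy control on truncated ranges of the parameter.
-/

open MeasureTheory Set Real
open scoped ENNReal

namespace LT

/-- The energy kernel of the second order filter. -/
noncomputable def Phi (a z : ℝ) : ℝ :=
  a * exp (-(a * |z|)) * (15 - 9 * (a * |z|) + (a * |z|) ^ 2) / 48

/-- Its derivative in `a`. -/
noncomputable def J2 (a z : ℝ) : ℝ :=
  exp (-(a * |z|)) * (15 - 33 * (a * |z|) + 12 * (a * |z|) ^ 2 - (a * |z|) ^ 3) / 48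

lemma two_mul_H2 {a : ℝ} (ha : 0 < a) (z : ℝ) : 2 * a * H2 a z = J2 a z := by
  unfold H2 J2
  field_simp
  ring

lemma hasDerivAt_Phi (a z : ℝ) : HasDerivAt (fun a => Phi a z) (J2 a z) a := by
  unfold Phi J2
  have h2 : HasDerivAt (fun a : ℝ => exp (-(a * |z|))) (exp (-(a * |z|)) * (-(1 * |z|))) a :=
    (((hasDerivAt_id a).mul_const |z|).neg).exp
  have h3 : HasDerivAt (fun a : ℝ => 15 - 9 * (a * |z|) + (a * |z|) ^ 2)
      (-(9 * (1 * |z|)) + 2 * (a * |z|) * (1 * |z|)) a := by
    have h4 : HasDerivAt (fun a : ℝ => a * |z|) (1 * |z|) a := (hasDerivAt_id a).mul_const |z|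
    have h5 := ((h4.const_mul 9).const_sub 15).add (h4.pow 2)
    refine h5.congr_deriv ?_
    simp
  have h6 : HasDerivAt (fun a : ℝ => a * exp (-(a * |z|)) * (15 - 9 * (a * |z|) + (a * |z|) ^ 2) / 48)
      (((1 * exp (-(a * |z|)) + a * (exp (-(a * |z|)) * (-(1 * |z|))))
        * (15 - 9 * (a * |z|) + (a * |z|) ^ 2)
        + a * exp (-(a * |z|)) * (-(9 * (1 * |z|)) + 2 * (a * |z|) * (1 * |z|))) / 48) a :=
    (((hasDerivAt_id a).mul h2).mul h3).div_const 48
  refine h6.congr_deriv ?_
  ring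

lemma continuous_J2_a (z : ℝ) : Continuous (fun a => J2 a z) := by
  unfold J2; fun_prop

lemma measurable_J2 : Measurable (fun p : ℝ × ℝ => J2 p.1 p.2) := by
  unfold J2; fun_prop

lemma measurable_Phi (a : ℝ) : Measurable (Phi a) := by
  unfold Phi; fun_prop

lemma integral_J2 {ε A : ℝ} (h : ε ≤ A) (z : ℝ) :
    ∫ a in Ioc ε A, J2 a z = Phi A z - Phi ε z := by
  rw [← intervalIntegral.integral_of_le h]
  exact intervalIntegral.integral_eq_sub_of_hasDerivAt (fun a _ => hasDerivAt_Phi a z)
    ((continuous_J2_a z).intervalIntegrable _ _)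

lemma integrable_dom2 {ε : ℝ} (hε : 0 < ε) (d0 d1 d2 d3 : ℝ) :
    Integrable (fun z => exp (-(ε * |z|)) * (d0 + d1 * |z| + d2 * |z| ^ 2 + d3 * |z| ^ 3) / 48) := by
  have h0 : IntegrableOn (fun t => exp (-(ε * t)) * (d0 + d1 * t + d2 * t ^ 2 + d3 * t ^ 3) / 48) (Ioi 0) := by
    have h1 := integrableOn_exp_mul hε
    have h2 := integrableOn_pow_exp 1 hε
    have h3 := integrableOn_pow_exp 2 hε
    have h4 := integrableOn_pow_exp 3 hε
    have h5 : IntegrableOn (fun t => (d0 * exp (-(ε * t)) + d1 * (t ^ 1 * exp (-(ε * t)))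
        + d2 * (t ^ 2 * exp (-(ε * t))) + d3 * (t ^ 3 * exp (-(ε * t)))) / 48) (Ioi 0) :=
      (((h1.const_mul d0).add (h2.const_mul d1)).add (h3.const_mul d2)).add (h4.const_mul d3) |>.div_const 48
    refine h5.congr_fun (fun t _ => ?_) measurableSet_Ioi
    simp only [pow_one]
    ring
  exact integrable_comp_abs' h0

lemma abs_J2_le {ε A a : ℝ} (hε : 0 < ε) (h1 : ε < a) (h2 : a ≤ A) (z : ℝ) :
    |J2 a z| ≤ exp (-(ε * |z|)) * (15 + (33 * A) * |z| + (12 * A ^ 2) * |z| ^ 2 + A ^ 3 * |z| ^ 3) / 48 := by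
  unfold J2
  have hz := abs_nonneg z
  have ha : 0 < a := hε.trans h1
  have hA : 0 < A := ha.trans_le h2
  have h3 : exp (-(a * |z|)) ≤ exp (-(ε * |z|)) := by
    apply exp_le_exp.mpr
    nlinarith
  have hx : 0 ≤ a * |z| := by positivity
  have hxA : a * |z| ≤ A * |z| := mul_le_mul_of_nonneg_right h2 hz
  have h4 : abs (15 - 33 * (a * |z|) + 12 * (a * |z|) ^ 2 - (a * |z|) ^ 3)
      ≤ 15 + (33 * A) * |z| + (12 * A ^ 2) * |z| ^ 2 + A ^ 3 * |z| ^ 3 := by
    have e2 : (a * |z|) ^ 2 ≤ A ^ 2 * |z| ^ 2 := by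
      rw [← mul_pow]; exact pow_le_pow_left₀ hx hxA 2
    have e3 : (a * |z|) ^ 3 ≤ A ^ 3 * |z| ^ 3 := by
      rw [← mul_pow]; exact pow_le_pow_left₀ hx hxA 3
    have e0 : 0 ≤ (a * |z|) ^ 2 := by positivity
    have e0' : 0 ≤ (a * |z|) ^ 3 := by positivity
    have e1 : 33 * (a * |z|) ≤ (33 * A) * |z| := by nlinarith
    rw [abs_le]
    constructor <;> nlinarith
  rw [abs_div, abs_mul, abs_of_pos (exp_pos _), abs_of_pos (by norm_num : (0:ℝ) < 48)]
  have h5 : 0 ≤ 15 + (33 * A) * |z| + (12 * A ^ 2) * |z| ^ 2 + A ^ 3 * |z| ^ 3 :=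
    (abs_nonneg _).trans h4
  gcongr

section step

variable {f : ℝ → ℝ}

lemma integrable_J2_corr (hfm : Measurable f) (hf : Integrable (fun x => f x ^ 2))
    {ε A : ℝ} (hε : 0 < ε) :
    Integrable (fun p : ℝ × ℝ => J2 p.1 p.2 * corr f p.2)
      ((volume.restrict (Ioc ε A)).prod volume) := by
  have hdom : Integrable (fun p : ℝ × ℝ => (∫ x, f x ^ 2) * (exp (-(ε * |p.2|)) *
        (15 + (33 * A) * |p.2| + (12 * A ^ 2) * |p.2| ^ 2 + A ^ 3 * |p.2| ^ 3) / 48))
      ((volume.restrict (Ioc ε A)).prod volume) :=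
    ((integrable_dom2 hε _ _ _ _).const_mul _).comp_snd _
  refine Integrable.mono' hdom ?_ ?_
  · have hc := measurable_corr hfm
    exact (measurable_J2.mul (hc.comp measurable_snd)).aestronglyMeasurable
  · have hrestr : (volume.restrict (Ioc ε A)).prod (volume : Measure ℝ)
        = ((volume : Measure ℝ).prod volume).restrict (Ioc ε A ×ˢ univ) := by
      rw [← Measure.prod_restrict, Measure.restrict_univ]
    rw [hrestr]
    filter_upwards [ae_restrict_mem (measurableSet_Ioc.prod MeasurableSet.univ)] with p hp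
    have h1 := abs_J2_le hε hp.1.1 hp.1.2 p.2
    have h2 := abs_corr_le hfm hf p.2
    rw [Real.norm_eq_abs, abs_mul]
    calc |J2 p.1 p.2| * |corr f p.2| ≤ (exp (-(ε * |p.2|)) *
          (15 + (33 * A) * |p.2| + (12 * A ^ 2) * |p.2| ^ 2 + A ^ 3 * |p.2| ^ 3) / 48) * (∫ x, f x ^ 2) :=
          mul_le_mul h1 h2 (abs_nonneg _) ((abs_nonneg _).trans h1)
      _ = _ := by ring

lemma integrable_Phi {a : ℝ} (ha : 0 < a) : Integrable (Phi a) := by
  have h := integrable_poly_exp_abs 15 (-9) 1 ha
  refine (h.const_mul (a / 48)).congr (Filter.Eventually.of_forall fun z => ?_)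
  simp only [Phi]
  ring

lemma integrable_bdd_corr (hfm : Measurable f) (hf : Integrable (fun x => f x ^ 2))
    {k : ℝ → ℝ} (hkm : Measurable k) (hk : Integrable k) :
    Integrable (fun z => k z * corr f z) := by
  refine Integrable.mono' (hk.abs.mul_const (∫ x, f x ^ 2)) ?_ ?_
  · have hc := measurable_corr hfm
    exact (hkm.mul hc).aestronglyMeasurable
  · refine Filter.Eventually.of_forall fun z => ?_
    rw [Real.norm_eq_abs, abs_mul]
    exact mul_le_mul_of_nonneg_left (abs_corr_le hfm hf z) (abs_nonneg _)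

lemma corr_neg (z : ℝ) : corr f (-z) = corr f z := by
  unfold corr
  rw [← integral_sub_right_eq_self (fun x => f x * f (x - -z)) z]
  refine integral_congr_ae (Filter.Eventually.of_forall fun x => ?_)
  simp only
  rw [show x - z - -z = x by ring, mul_comm]

lemma measurable_kconv {k : ℝ → ℝ} (hkm : Measurable k) (hfm : Measurable f) :
    Measurable (kconv k f) := by
  have : StronglyMeasurable (fun x => ∫ t, k t * f (x - t)) := by
    refine StronglyMeasurable.integral_prod_right (f := fun x t => k t * f (x - t)) ?_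
    exact (by fun_prop : Measurable fun p : ℝ × ℝ => k p.2 * f (p.1 - p.2)).stronglyMeasurable
  exact this.measurable

/-- Pairing of a function with its convolution. -/
lemma pairing_kconv {k : ℝ → ℝ} (hkm : Measurable k) (hk1 : Integrable k)
    (hfm : Measurable f) (hf : Integrable (fun x => f x ^ 2)) :
    ∫ x, f x * kconv k f x = ∫ t, k t * corr f t := by
  let F : ℝ → ℝ → ℝ := fun x t => f x * (k t * f (x - t))
  have hFm : Measurable (Function.uncurry F) := by
    unfold Function.uncurry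
    simp only [F]
    fun_prop
  have hprod : Integrable (Function.uncurry F) (volume.prod volume) := by
    rw [integrable_prod_iff' hFm.aestronglyMeasurable]
    constructor
    · refine Filter.Eventually.of_forall fun t => ?_
      have h := (integrable_mul_shift hfm hf 0 t).const_mul (k t)
      refine h.congr (Filter.Eventually.of_forall fun x => ?_)
      simp only [Function.uncurry, F, sub_zero]
      ring
    · have hdom : Integrable (fun t => (∫ x, f x ^ 2) * |k t|) := hk1.abs.const_mul _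
      refine Integrable.mono' hdom ?_ ?_
      · have h2 : StronglyMeasurable (fun t => ∫ x, ‖Function.uncurry F (x, t)‖) := by
          refine StronglyMeasurable.integral_prod_right (f := fun t x => ‖Function.uncurry F (x, t)‖) ?_
          exact (hFm.comp measurable_swap).norm.stronglyMeasurable
        exact h2.aestronglyMeasurable
      · refine Filter.Eventually.of_forall fun t => ?_
        rw [Real.norm_eq_abs, abs_of_nonneg (integral_nonneg fun _ => norm_nonneg _)]
        have h1 : ∀ x, ‖Function.uncurry F (x, t)‖ = |k t| * |f (x - 0) * f (x - t)| := by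
          intro x
          simp only [Function.uncurry, F, Real.norm_eq_abs, abs_mul, sub_zero]
          ring
        simp only [h1, integral_const_mul]
        have h3 := integral_abs_mul_shift_le hfm hf 0 t
        have h4 := abs_nonneg (k t)
        nlinarith
  have hin : ∀ x, ∫ t, F x t = f x * kconv k f x := fun x => by
    simp only [F, kconv]
    rw [integral_const_mul]
  have hin2 : ∀ t, ∫ x, F x t = k t * corr f t := fun t => by
    simp only [F, corr]
    rw [← integral_const_mul]
    refine integral_congr_ae (Filter.Eventually.of_forall fun x => ?_)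
    simp only
    ring
  simp_rw [← hin, ← hin2]
  exact integral_integral_swap hprod

/-- The basic positivity: the square of a filtered function. -/
lemma filtered_nonneg {k : ℝ → ℝ} (hkm : Measurable k) (hk1 : Integrable k)
    (hfm : Measurable f) (hf : Integrable (fun x => f x ^ 2))
    (hk2 : Integrable (fun t => k t ^ 2)) :
    0 ≤ (∫ x, f x ^ 2) - 2 * (∫ t, k t * corr f t) + ∫ z, auto k z * corr f z := by
  obtain ⟨h1, h2⟩ := energy hkm hfm hk1 hk2 hf
  have hm := measurable_kconv hkm hfm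
  have h3 : Integrable (fun x => f x * kconv k f x) := integrable_mul_of_sq hfm hm hf h1
  have h4 : ∫ x, (f x - kconv k f x) ^ 2
      = (∫ x, f x ^ 2) - 2 * (∫ x, f x * kconv k f x) + ∫ x, kconv k f x ^ 2 := by
    have e : ∀ x, (f x - kconv k f x) ^ 2 = f x ^ 2 - 2 * (f x * kconv k f x) + kconv k f x ^ 2 :=
      fun x => by ring
    simp_rw [e]
    have i1 : Integrable (fun x => f x ^ 2 - 2 * (f x * kconv k f x)) := hf.sub (h3.const_mul 2)
    rw [integral_add i1 h1, integral_sub hf (h3.const_mul 2), integral_const_mul]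
  rw [← pairing_kconv hkm hk1 hfm hf, ← h2, ← h4]
  exact integral_nonneg fun _ => sq_nonneg _

/-- The even extension of the third order kernel. -/
noncomputable def Xi (a z : ℝ) : ℝ :=
  a * (3 + -3 * (a * |z|) + 1 / 2 * (a * |z|) ^ 2) * exp (-(a * |z|))

lemma integrable_Xi {a : ℝ} (ha : 0 < a) : Integrable (Xi a) := by
  have h := integrable_poly_exp_abs 3 (-3) (1 / 2) ha
  refine (h.const_mul a).congr (Filter.Eventually.of_forall fun z => ?_)
  simp only [Xi]
  ring

/-- Upper bound for the energy kernel pairing. -/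
lemma Phi_upper (hfm : Measurable f) (hf : Integrable (fun x => f x ^ 2)) {a : ℝ} (ha : 0 < a) :
    ∫ z, Phi a z * corr f z ≤ (1 / 3) * ∫ x, f x ^ 2 := by
  set k := Pk a 3 (-3) (1 / 2) a with hk
  have hkm : Measurable k := measurable_Pk _ _ _ _ _
  have hk1 : Integrable k := integrable_Pk _ _ _ _ ha
  have hk2 : Integrable (fun t => k t ^ 2) := integrable_Pk_sq _ _ _ _ ha
  have h := filtered_nonneg hkm hk1 hfm hf hk2
  have hc := measurable_corr hfm
  have hkc : Integrable (fun t => k t * corr f t) := integrable_bdd_corr hfm hf hkm hk1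
  -- the pairing with the one sided kernel
  have h1 : 2 * ∫ t, k t * corr f t = ∫ z, Xi a z * corr f z := by
    have hXi : Integrable (fun z => Xi a z * corr f z) :=
      integrable_bdd_corr hfm hf (by unfold Xi; fun_prop) (integrable_Xi ha)
    rw [split_line hkc, split_line hXi]
    have e1 : ∫ t in Ioi (0:ℝ), k (-t) * corr f (-t) = 0 := by
      refine setIntegral_eq_zero_of_forall_eq_zero fun t ht => ?_
      have ht' : (0:ℝ) < t := ht
      rw [hk, Pk_zero_of_nonpos (by linarith), zero_mul]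
    have e2 : ∫ t in Ioi (0:ℝ), Xi a t * corr f t = ∫ t in Ioi (0:ℝ), k t * corr f t := by
      refine setIntegral_congr_fun measurableSet_Ioi fun t ht => ?_
      have ht' : (0:ℝ) < t := ht
      simp only [hk, Xi, Pk_of_pos ht', abs_of_pos ht']
    have e3 : ∫ t in Ioi (0:ℝ), Xi a (-t) * corr f (-t) = ∫ t in Ioi (0:ℝ), k t * corr f t := by
      refine setIntegral_congr_fun measurableSet_Ioi fun t ht => ?_
      have ht' : (0:ℝ) < t := ht
      simp only [hk, Xi, Pk_of_pos ht', abs_neg, abs_of_pos ht', corr_neg]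
    rw [e1, e2, e3]
    ring
  have h2 : ∫ z, auto k z * corr f z = ∫ z, (Xi a z - 3 * Phi a z) * corr f z := by
    refine integral_congr_ae (Filter.Eventually.of_forall fun z => ?_)
    simp only
    rw [hk, auto_Pk _ _ _ _ ha, PkVal, Xi, Phi]
    field_simp
    ring
  have hXi : Integrable (fun z => Xi a z * corr f z) :=
    integrable_bdd_corr hfm hf (by unfold Xi; fun_prop) (integrable_Xi ha)
  have hPhi : Integrable (fun z => Phi a z * corr f z) :=
    integrable_bdd_corr hfm hf (measurable_Phi a) (integrable_Phi ha)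
  have h3 : ∫ z, (Xi a z - 3 * Phi a z) * corr f z
      = (∫ z, Xi a z * corr f z) - 3 * ∫ z, Phi a z * corr f z := by
    have e : ∀ z, (Xi a z - 3 * Phi a z) * corr f z
        = Xi a z * corr f z - 3 * (Phi a z * corr f z) := fun z => by ring
    simp_rw [e]
    rw [integral_sub hXi (hPhi.const_mul 3), integral_const_mul]
  rw [h1, h2, h3] at h
  linarith

/-- Lower bound for the energy kernel pairing. -/
lemma Phi_lower (hfm : Measurable f) (hf : Integrable (fun x => f x ^ 2)) {a : ℝ} (ha : 0 < a) :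
    0 ≤ ∫ z, Phi a z * corr f z := by
  have e0 := energy (measurable_Pk a 1 0 0 a) hfm (integrable_Pk _ _ _ _ ha) (integrable_Pk_sq _ _ _ _ ha) hf
  have e1 := energy (measurable_Pk a 1 (-1) 0 a) hfm (integrable_Pk _ _ _ _ ha) (integrable_Pk_sq _ _ _ _ ha) hf
  have e2 := energy (measurable_Pk a 1 (-2) (1 / 2) a) hfm (integrable_Pk _ _ _ _ ha) (integrable_Pk_sq _ _ _ _ ha) hf
  have n0 : 0 ≤ ∫ z, auto (Pk a 1 0 0 a) z * corr f z := by
    rw [← e0.2]; exact integral_nonneg fun _ => sq_nonneg _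
  have n1 : 0 ≤ ∫ z, auto (Pk a 1 (-1) 0 a) z * corr f z := by
    rw [← e1.2]; exact integral_nonneg fun _ => sq_nonneg _
  have n2 : 0 ≤ ∫ z, auto (Pk a 1 (-2) (1 / 2) a) z * corr f z := by
    rw [← e2.2]; exact integral_nonneg fun _ => sq_nonneg _
  have hk : ∀ c0 c1 c2 : ℝ, Integrable (fun z => auto (Pk a c0 c1 c2 a) z * corr f z) := by
    intro c0 c1 c2
    have hform : (fun z => auto (Pk a c0 c1 c2 a) z * corr f z)
        = fun z => (a ^ 2 / a * (exp (-(a * |z|)) * PkVal c0 c1 c2 (a * |z|))) * corr f z := by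
      funext z
      rw [auto_Pk _ _ _ _ ha]
      ring
    rw [hform]
    refine integrable_bdd_corr hfm hf (by unfold PkVal; fun_prop) ?_
    have hp : ∃ d0 d1 d2 : ℝ, ∀ x, PkVal c0 c1 c2 x = d0 + d1 * x + d2 * x ^ 2 := by
      refine ⟨c0 * c0 / 2 + (c0 * c1 + c1 * c0) / 4 + (c0 * c2 + c1 * c1 + c2 * c0) / 4
        + (c1 * c2 + c2 * c1) * (3 / 8) + c2 ^ 2 * (3 / 4),
        c0 * c1 / 2 + (c0 * (2 * c2) + c1 * c1) / 4 + (c1 * (2 * c2) + c2 * c1) / 4
        + c2 * (2 * c2) * (3 / 8), c0 * c2 / 2 + c1 * c2 / 4 + c2 * c2 / 4, fun x => ?_⟩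
      unfold PkVal
      ring
    obtain ⟨d0, d1, d2, hd⟩ := hp
    have h := (integrable_poly_exp_abs d0 d1 d2 ha).const_mul (a ^ 2 / a)
    refine h.congr (Filter.Eventually.of_forall fun z => ?_)
    simp only
    rw [hd]
    ring
  have hsum : 3 * ∫ z, Phi a z * corr f z = (∫ z, auto (Pk a 1 0 0 a) z * corr f z)
      + (∫ z, auto (Pk a 1 (-1) 0 a) z * corr f z)
      + ∫ z, auto (Pk a 1 (-2) (1 / 2) a) z * corr f z := by
    have i01 : Integrable (fun z => auto (Pk a 1 0 0 a) z * corr f z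
        + auto (Pk a 1 (-1) 0 a) z * corr f z) := (hk _ _ _).add (hk _ _ _)
    rw [← integral_add (hk 1 0 0) (hk 1 (-1) 0), ← integral_add i01 (hk 1 (-2) (1 / 2)),
      ← integral_const_mul]
    refine integral_congr_ae (Filter.Eventually.of_forall fun z => ?_)
    simp only
    rw [auto_Pk _ _ _ _ ha, auto_Pk _ _ _ _ ha, auto_Pk _ _ _ _ ha, Phi]
    simp only [PkVal]
    field_simp
    ring
  linarith

/-- For `a > 0` the scaled energy of the odd kernel is an integral in `z`. -/
lemma two_mul_energy_S2 (hfm : Measurable f) (hf : Integrable (fun x => f x ^ 2))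
    {a : ℝ} (ha : 0 < a) :
    2 * a * ∫ x, kconv (S2 a) f x ^ 2 = ∫ z, J2 a z * corr f z := by
  have h1 := (energy (measurable_S2 a) hfm (integrable_S2 ha) (integrable_S2_sq ha) hf).2
  rw [h1, ← integral_const_mul]
  refine integral_congr_ae (Filter.Eventually.of_forall fun z => ?_)
  simp only
  rw [auto_S2 ha, ← two_mul_H2 ha]
  ring

theorem step1_trunc2 (hfm : Measurable f) (hf : Integrable (fun x => f x ^ 2))
    {ε A : ℝ} (hε : 0 < ε) (hA : ε ≤ A) :
    IntegrableOn (fun a => 2 * a * ∫ x, kconv (S2 a) f x ^ 2) (Ioc ε A) ∧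
      ∫ a in Ioc ε A, 2 * a * ∫ x, kconv (S2 a) f x ^ 2 ≤ (1 / 3) * ∫ x, f x ^ 2 := by
  have hint := integrable_J2_corr hfm hf (A := A) hε
  have hcongr : ∀ a ∈ Ioc ε A, ∫ z, J2 a z * corr f z = 2 * a * ∫ x, kconv (S2 a) f x ^ 2 :=
    fun a ha => (two_mul_energy_S2 hfm hf (hε.trans ha.1)).symm
  constructor
  · have := hint.integral_prod_left
    exact IntegrableOn.congr_fun this hcongr measurableSet_Ioc
  · have h1 : ∫ a in Ioc ε A, 2 * a * ∫ x, kconv (S2 a) f x ^ 2
        = ∫ a in Ioc ε A, ∫ z, J2 a z * corr f z :=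
      (setIntegral_congr_fun measurableSet_Ioc hcongr).symm
    have h2 : ∫ a in Ioc ε A, ∫ z, J2 a z * corr f z = ∫ z, ∫ a in Ioc ε A, J2 a z * corr f z :=
      integral_integral_swap (f := fun a z => J2 a z * corr f z) hint
    have h3 : ∀ z, ∫ a in Ioc ε A, J2 a z * corr f z = (Phi A z - Phi ε z) * corr f z := by
      intro z
      rw [integral_mul_const, integral_J2 hA]
    simp_rw [h3] at h2
    have hAp : 0 < A := lt_of_lt_of_le hε hA
    have h4 : ∫ z, (Phi A z - Phi ε z) * corr f z
        = (∫ z, Phi A z * corr f z) - ∫ z, Phi ε z * corr f z := by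
      simp_rw [sub_mul]
      exact integral_sub (integrable_bdd_corr hfm hf (measurable_Phi A) (integrable_Phi hAp))
        (integrable_bdd_corr hfm hf (measurable_Phi ε) (integrable_Phi hε))
    rw [h1, h2, h4]
    linarith [Phi_upper hfm hf hAp, Phi_lower hfm hf hε]

end step

end LT
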