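import Vale.Agent.helper5.LTRep

/-!
The one-dimensional real inequality behind the pointwise estimate.
-/

open MeasureTheory Set Real
open scoped ENNReal

namespace LT

lemma integrableOn_inv_pow {κ : ℝ} (hκ : 0 < κ) {m : ℕ} (hm : 2 ≤ m) :
    IntegrableOn (fun t => ((κ + t) ^ m)⁻¹) (Ioi 0) := by
  have h := integrableOn_add_rpow_Ioi_of_lt (a := -(m:ℝ)) (c := 0) (m := κ)
    (by have : (2:ℝ) ≤ m := by exact_mod_cast hm
        linarith) (by linarith)
  refine h.congr_fun (fun t ht => ?_) measurableSet_Ioi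
  have ht' : (0:ℝ) < t := ht
  have : (0:ℝ) < t + κ := by linarith
  simp only
  rw [rpow_neg this.le, rpow_natCast, add_comm]

lemma integral_inv_pow {κ : ℝ} (hκ : 0 < κ) {m : ℕ} (hm : 2 ≤ m) :
    ∫ t in Ioi (0:ℝ), ((κ + t) ^ m)⁻¹ = 2⁻¹ * (2 / (((m:ℝ) - 1) * κ ^ (m - 1))) := by
  obtain ⟨n, rfl⟩ : ∃ n, m = n + 2 := ⟨m - 2, by omega⟩
  have hn : ((n:ℝ) + 1) ≠ 0 := by positivity
  have hder : ∀ t ∈ Ioi (0:ℝ), HasDerivAt (fun t => -(((n:ℝ) + 1)⁻¹ * ((κ + t) ^ (n + 1))⁻¹))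
      (((κ + t) ^ (n + 2))⁻¹) t := by
    intro t ht
    have ht' : (0:ℝ) < t := ht
    have hp : κ + t ≠ 0 := by positivity
    have h1 : HasDerivAt (fun t => κ + t) 1 t := by simpa using (hasDerivAt_id t).const_add κ
    have h2 := (h1.pow (n + 1)).inv (pow_ne_zero _ hp)
    have h3 := (h2.const_mul (((n:ℝ) + 1)⁻¹)).neg
    refine h3.congr_deriv ?_
    simp only [Nat.add_sub_cancel, mul_one, Pi.pow_apply]
    push_cast
    field_simp
    ring
  have hlim : Filter.Tendsto (fun t => -(((n:ℝ) + 1)⁻¹ * ((κ + t) ^ (n + 1))⁻¹)) Filter.atTop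
      (nhds 0) := by
    have h1 : Filter.Tendsto (fun t : ℝ => κ + t) Filter.atTop Filter.atTop :=
      Filter.tendsto_atTop_add_const_left _ _ Filter.tendsto_id
    have h2 : Filter.Tendsto (fun t : ℝ => (κ + t) ^ (n + 1)) Filter.atTop Filter.atTop :=
      (Filter.tendsto_pow_atTop (by omega)).comp h1
    have h3 := h2.inv_tendsto_atTop
    have h4 := (h3.const_mul (((n:ℝ) + 1)⁻¹)).neg
    simpa using h4
  have hcont : ContinuousWithinAt (fun t => -(((n:ℝ) + 1)⁻¹ * ((κ + t) ^ (n + 1))⁻¹)) (Ici 0) 0 := by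
    have : ContinuousAt (fun t => -(((n:ℝ) + 1)⁻¹ * ((κ + t) ^ (n + 1))⁻¹)) 0 := by
      refine ContinuousAt.neg (ContinuousAt.mul continuousAt_const (ContinuousAt.inv₀ (by fun_prop) ?_))
      positivity
    exact this.continuousWithinAt
  have := integral_Ioi_of_hasDerivAt_of_tendsto hcont hder (integrableOn_inv_pow hκ hm) hlim
  rw [this]
  simp only [add_zero, zero_sub, neg_neg]
  have h5 : ((n + 2 : ℕ) : ℝ) - 1 = (n:ℝ) + 1 := by push_cast; ring
  rw [show n + 2 - 1 = n + 1 by omega, h5]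
  field_simp

lemma integrable_inv_abs_pow {κ : ℝ} (hκ : 0 < κ) {m : ℕ} (hm : 2 ≤ m) :
    Integrable (fun t => ((κ + |t|) ^ m)⁻¹) :=
  integrable_comp_abs' (f := fun t => ((κ + t) ^ m)⁻¹) (integrableOn_inv_pow hκ hm)

lemma integral_inv_abs_pow {κ : ℝ} (hκ : 0 < κ) {m : ℕ} (hm : 2 ≤ m) :
    ∫ t, ((κ + |t|) ^ m)⁻¹ = 2 / (((m:ℝ) - 1) * κ ^ (m - 1)) := by
  have := integral_comp_abs (f := fun t => ((κ + t) ^ m)⁻¹)
  rw [this, integral_inv_pow hκ hm]
  ring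

/-- Fubini for the Laplace transform of `exp(-a|t|) r(t)`. -/
theorem laplace_abs (n : ℕ) {κ : ℝ} (hκ : 0 < κ) {r : ℝ → ℝ} (hrm : Measurable r)
    (hr : Integrable (fun t => r t ^ 2)) :
    IntegrableOn (fun a => a ^ n * exp (-(κ * a)) * ∫ t, exp (-(a * |t|)) * r t) (Ioi 0) ∧
      ∫ a in Ioi (0:ℝ), a ^ n * exp (-(κ * a)) * ∫ t, exp (-(a * |t|)) * r t
        = ∫ t, ((n.factorial : ℝ) * ((κ + |t|) ^ (n + 1))⁻¹) * r t := by
  let F : ℝ → ℝ → ℝ := fun a t => a ^ n * exp (-(κ * a)) * (exp (-(a * |t|)) * r t)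
  have hFm : Measurable (Function.uncurry F) := by
    unfold Function.uncurry
    simp only [F]
    fun_prop
  have hinner : ∀ t, IntegrableOn (fun a => F a t) (Ioi 0) ∧
      ∫ a in Ioi (0:ℝ), F a t = ((n.factorial : ℝ) * ((κ + |t|) ^ (n + 1))⁻¹) * r t := by
    intro t
    have hb : 0 < κ + |t| := by positivity
    have hform : (fun a => F a t) = fun a => r t * (a ^ n * exp (-((κ + |t|) * a))) := by
      funext a
      simp only [F]
      rw [show -((κ + |t|) * a) = -(κ * a) + -(a * |t|) by ring, exp_add]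
      ring
    rw [hform]
    constructor
    · exact (integrableOn_pow_exp n hb).const_mul _
    · rw [integral_const_mul, integral_pow_exp n hb]
      rw [div_eq_mul_inv]
      ring
  have hdomI : Integrable (fun t => ‖((n.factorial : ℝ) * ((κ + |t|) ^ (n + 1))⁻¹) * r t‖) := by
    have h1 : Integrable (fun t => ((κ + |t|) ^ (2 * (n + 1)))⁻¹) :=
      integrable_inv_abs_pow hκ (by omega)
    have h2 : Integrable (fun t => ((n.factorial : ℝ) ^ 2 * ((κ + |t|) ^ (2 * (n + 1)))⁻¹ + r t ^ 2) / 2) :=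
      ((h1.const_mul _).add hr).div_const 2
    refine Integrable.mono' h2 ?_ ?_
    · exact (by fun_prop : Measurable fun t =>
        ‖((n.factorial : ℝ) * ((κ + |t|) ^ (n + 1))⁻¹) * r t‖).aestronglyMeasurable
    · refine Filter.Eventually.of_forall fun t => ?_
      rw [norm_norm, Real.norm_eq_abs]
      have hb : 0 < κ + |t| := by positivity
      have h3 : (n.factorial : ℝ) ^ 2 * ((κ + |t|) ^ (2 * (n + 1)))⁻¹
          = ((n.factorial : ℝ) * ((κ + |t|) ^ (n + 1))⁻¹) ^ 2 := by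
        rw [mul_pow, inv_pow, ← pow_mul, mul_comm 2 (n + 1)]
      rw [h3, abs_le]
      constructor <;> nlinarith [sq_nonneg (((n.factorial : ℝ) * ((κ + |t|) ^ (n + 1))⁻¹) - r t),
        sq_nonneg (((n.factorial : ℝ) * ((κ + |t|) ^ (n + 1))⁻¹) + r t)]
  have hprod : Integrable (Function.uncurry F) ((volume.restrict (Ioi (0:ℝ))).prod volume) := by
    rw [integrable_prod_iff' hFm.aestronglyMeasurable]
    constructor
    · exact Filter.Eventually.of_forall fun t => (hinner t).1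
    · refine hdomI.congr (Filter.Eventually.of_forall fun t => ?_)
      have hb : 0 < κ + |t| := by positivity
      have h1 : ∫ a in Ioi (0:ℝ), ‖Function.uncurry F (a, t)‖
          = ∫ a in Ioi (0:ℝ), |r t| * (a ^ n * exp (-((κ + |t|) * a))) := by
        refine setIntegral_congr_fun measurableSet_Ioi fun a ha => ?_
        have ha' : (0:ℝ) < a := ha
        simp only [Function.uncurry, F]
        rw [show -((κ + |t|) * a) = -(κ * a) + -(a * |t|) by ring, exp_add, Real.norm_eq_abs,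
          abs_mul, abs_mul, abs_mul, abs_of_pos (exp_pos _), abs_of_pos (exp_pos _),
          abs_of_pos (pow_pos ha' n)]
        ring
      simp only
      rw [h1, integral_const_mul, integral_pow_exp n hb, Real.norm_eq_abs, abs_mul, abs_mul,
        abs_of_nonneg (Nat.cast_nonneg _), abs_of_nonneg (inv_nonneg.mpr (by positivity)),
        div_eq_mul_inv]
      ring
  have hcongr : ∀ a ∈ Ioi (0:ℝ), ∫ t, F a t = a ^ n * exp (-(κ * a)) * ∫ t, exp (-(a * |t|)) * r t :=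
    fun a _ => integral_const_mul _ _
  constructor
  · exact IntegrableOn.congr_fun hprod.integral_prod_left hcongr measurableSet_Ioi
  · rw [← setIntegral_congr_fun measurableSet_Ioi hcongr, integral_integral_swap (f := F) hprod]
    exact integral_congr_ae (Filter.Eventually.of_forall fun t => (hinner t).2)

end LT

namespace LT

/-- Bundled integrability and value on the half-line. -/
def HasI (f : ℝ → ℝ) (v : ℝ) : Prop := IntegrableOn f (Ioi 0) ∧ ∫ a in Ioi (0:ℝ), f a = v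

lemma HasI.add {f g : ℝ → ℝ} {v w : ℝ} (hf : HasI f v) (hg : HasI g w) :
    HasI (fun a => f a + g a) (v + w) :=
  ⟨hf.1.add hg.1, by rw [integral_add hf.1 hg.1, hf.2, hg.2]⟩

lemma HasI.sub {f g : ℝ → ℝ} {v w : ℝ} (hf : HasI f v) (hg : HasI g w) :
    HasI (fun a => f a - g a) (v - w) :=
  ⟨hf.1.sub hg.1, by rw [integral_sub hf.1 hg.1, hf.2, hg.2]⟩

lemma HasI.cmul {f : ℝ → ℝ} {v : ℝ} (hf : HasI f v) (c : ℝ) :
    HasI (fun a => c * f a) (c * v) :=
  ⟨hf.1.const_mul c, by rw [integral_const_mul, hf.2]⟩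

lemma HasI.congr {f g : ℝ → ℝ} {v w : ℝ} (hf : HasI f v) (h : ∀ a > 0, g a = f a) (hv : w = v) :
    HasI g w := by
  have hcongr : ∀ a ∈ Ioi (0:ℝ), f a = g a := fun a ha => (h a ha).symm
  refine ⟨hf.1.congr_fun hcongr measurableSet_Ioi, ?_⟩
  rw [← setIntegral_congr_fun measurableSet_Ioi hcongr, hf.2, hv]

lemma hasI_mono (n : ℕ) {b : ℝ} (hb : 0 < b) :
    HasI (fun a => a ^ n * exp (-(b * a))) ((n.factorial : ℝ) / b ^ (n + 1)) :=
  ⟨integrableOn_pow_exp n hb, integral_pow_exp n hb⟩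

/-- The test function. -/
noncomputable def tau (c0 c1 c2 l a : ℝ) : ℝ :=
  (c0 + c1 * (l * a) + c2 * (l * a) ^ 2) * exp (-(l * a))

lemma hasI_D (c0 c1 c2 : ℝ) {l : ℝ} (hl : 0 < l) :
    HasI (fun a => 2 * a * (2 * tau c0 c1 c2 l a - tau c0 c1 c2 l a ^ 2))
      ((4 * c0 + 8 * c1 + 24 * c2 - c0 ^ 2 / 2 - c0 * c1 - 3 / 4 * (c1 ^ 2 + 2 * c0 * c2)
        - 3 * c1 * c2 - 15 / 4 * c2 ^ 2) / l ^ 2) := by
  have h2l : 0 < 2 * l := by positivity
  have h := (((hasI_mono 1 hl).cmul (4 * c0)).add ((hasI_mono 2 hl).cmul (4 * c1 * l))).add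
    ((hasI_mono 3 hl).cmul (4 * c2 * l ^ 2))
  have h' := (((((hasI_mono 1 h2l).cmul (2 * c0 ^ 2)).add ((hasI_mono 2 h2l).cmul (4 * c0 * c1 * l))).add
    ((hasI_mono 3 h2l).cmul (2 * (c1 ^ 2 + 2 * c0 * c2) * l ^ 2))).add
    ((hasI_mono 4 h2l).cmul (4 * c1 * c2 * l ^ 3))).add
    ((hasI_mono 5 h2l).cmul (2 * c2 ^ 2 * l ^ 4))
  refine (h.sub h').congr ?_ ?_
  · intro a _
    unfold tau
    have he : exp (-((2 * l) * a)) = exp (-(l * a)) ^ 2 := by
      rw [← exp_nat_mul]; congr 1; push_cast; ring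
    rw [he]
    ring
  · simp only [Nat.factorial]
    push_cast
    field_simp
    ring

/-- Product of two square integrable functions is integrable. -/
lemma integrable_mul_of_sq {ψ r : ℝ → ℝ} (hψm : Measurable ψ) (hrm : Measurable r)
    (hψ : Integrable (fun t => ψ t ^ 2)) (hr : Integrable (fun t => r t ^ 2)) :
    Integrable (fun t => ψ t * r t) := by
  refine Integrable.mono' (g := fun t => (ψ t ^ 2 + r t ^ 2) / 2)
    ((hψ.add hr).div_const 2) (hψm.mul hrm).aestronglyMeasurable ?_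
  refine Filter.Eventually.of_forall fun t => ?_
  rw [Real.norm_eq_abs, abs_le]
  constructor <;> nlinarith [sq_nonneg (ψ t - r t), sq_nonneg (ψ t + r t)]

/-- The dual kernel. -/
noncomputable def Psi (c0 c1 c2 l t : ℝ) : ℝ :=
  c0 * (2 * ((l + |t|) ^ 3)⁻¹) + c1 * l * (6 * ((l + |t|) ^ 4)⁻¹) + c2 * l ^ 2 * (24 * ((l + |t|) ^ 5)⁻¹)

lemma measurable_Psi (c0 c1 c2 l : ℝ) : Measurable (Psi c0 c1 c2 l) := by
  unfold Psi; fun_prop

/-- whole line bundle -/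
def HasW (f : ℝ → ℝ) (v : ℝ) : Prop := Integrable f ∧ ∫ t, f t = v

lemma HasW.add {f g : ℝ → ℝ} {v w : ℝ} (hf : HasW f v) (hg : HasW g w) :
    HasW (fun a => f a + g a) (v + w) :=
  ⟨hf.1.add hg.1, by rw [integral_add hf.1 hg.1, hf.2, hg.2]⟩

lemma HasW.cmul {f : ℝ → ℝ} {v : ℝ} (hf : HasW f v) (c : ℝ) :
    HasW (fun a => c * f a) (c * v) :=
  ⟨hf.1.const_mul c, by rw [integral_const_mul, hf.2]⟩

lemma HasW.congr {f g : ℝ → ℝ} {v w : ℝ} (hf : HasW f v) (h : ∀ a, g a = f a) (hv : w = v) :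
    HasW g w := by
  have hg : g = f := funext h
  rw [hg, hv]; exact hf

lemma hasW_pow {l : ℝ} (hl : 0 < l) {m : ℕ} (hm : 2 ≤ m) :
    HasW (fun t => ((l + |t|) ^ m)⁻¹) (2 / (((m:ℝ) - 1) * l ^ (m - 1))) :=
  ⟨integrable_inv_abs_pow hl hm, integral_inv_abs_pow hl hm⟩

lemma hasW_Psi_sq (c0 c1 c2 : ℝ) {l : ℝ} (hl : 0 < l) :
    HasW (fun t => Psi c0 c1 c2 l t ^ 2)
      ((8 / 5 * c0 ^ 2 + 8 * c0 * c1 + 2 / 7 * (36 * c1 ^ 2 + 96 * c0 * c2) + 72 * c1 * c2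
        + 128 * c2 ^ 2) / l ^ 5) := by
  have h := ((((hasW_pow hl (m := 6) (by norm_num)).cmul (4 * c0 ^ 2)).add
    ((hasW_pow hl (m := 7) (by norm_num)).cmul (24 * c0 * c1 * l))).add
    ((hasW_pow hl (m := 8) (by norm_num)).cmul ((36 * c1 ^ 2 + 96 * c0 * c2) * l ^ 2))).add
    ((hasW_pow hl (m := 9) (by norm_num)).cmul (288 * c1 * c2 * l ^ 3))
  have h := h.add ((hasW_pow hl (m := 10) (by norm_num)).cmul (576 * c2 ^ 2 * l ^ 4))
  refine h.congr ?_ ?_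
  · intro t
    unfold Psi
    have hu : l + |t| ≠ 0 := by positivity
    field_simp
    ring
  · norm_num
    field_simp
    ring

end LT

namespace LT

/-- The cross term in the `a` integral. -/
lemma hasI_cross (c0 c1 c2 : ℝ) {l : ℝ} (hl : 0 < l) {r : ℝ → ℝ} (hrm : Measurable r)
    (hr : Integrable (fun t => r t ^ 2)) :
    HasI (fun a => 2 * a ^ 2 * tau c0 c1 c2 l a * ∫ t, exp (-(a * |t|)) * r t)
      (2 * ∫ t, Psi c0 c1 c2 l t * r t) := by
  have X2 := laplace_abs 2 hl hrm hr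
  have X3 := laplace_abs 3 hl hrm hr
  have X4 := laplace_abs 4 hl hrm hr
  have hw : ∀ n : ℕ, 1 ≤ n → Integrable (fun t => ((n.factorial : ℝ) * ((l + |t|) ^ (n + 1))⁻¹) * r t) := by
    intro n hn
    refine integrable_mul_of_sq (by fun_prop) hrm ?_ hr
    have h1 : Integrable (fun t => ((l + |t|) ^ (2 * (n + 1)))⁻¹) :=
      integrable_inv_abs_pow hl (by omega)
    refine (h1.const_mul ((n.factorial : ℝ) ^ 2)).congr (Filter.Eventually.of_forall fun t => ?_)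
    simp only
    rw [mul_pow, inv_pow, ← pow_mul, mul_comm 2 (n + 1)]
  have hW : HasW (fun t => Psi c0 c1 c2 l t * r t)
      (c0 * (∫ t, ((Nat.factorial 2 : ℝ) * ((l + |t|) ^ (2 + 1))⁻¹) * r t)
        + c1 * l * (∫ t, ((Nat.factorial 3 : ℝ) * ((l + |t|) ^ (3 + 1))⁻¹) * r t)
        + c2 * l ^ 2 * (∫ t, ((Nat.factorial 4 : ℝ) * ((l + |t|) ^ (4 + 1))⁻¹) * r t)) := by
    have w2 : HasW _ _ := (⟨hw 2 (by norm_num), rfl⟩ : HasW (fun t => ((Nat.factorial 2 : ℝ) * ((l + |t|) ^ (2 + 1))⁻¹) * r t) _)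
    have w3 : HasW _ _ := (⟨hw 3 (by norm_num), rfl⟩ : HasW (fun t => ((Nat.factorial 3 : ℝ) * ((l + |t|) ^ (3 + 1))⁻¹) * r t) _)
    have w4 : HasW _ _ := (⟨hw 4 (by norm_num), rfl⟩ : HasW (fun t => ((Nat.factorial 4 : ℝ) * ((l + |t|) ^ (4 + 1))⁻¹) * r t) _)
    refine (((w2.cmul c0).add (w3.cmul (c1 * l))).add (w4.cmul (c2 * l ^ 2))).congr ?_ rfl
    intro t
    unfold Psi
    simp only [Nat.factorial]
    push_cast
    ring
  have h := (((show HasI _ _ from X2).cmul c0).add ((show HasI _ _ from X3).cmul (c1 * l))).add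
    ((show HasI _ _ from X4).cmul (c2 * l ^ 2))
  refine (h.cmul 2).congr ?_ ?_
  · intro a _
    unfold tau
    ring
  · rw [hW.2]

/-- The main real inequality with general parameters. -/
theorem real_core_general (c0 c1 c2 : ℝ) {l η p : ℝ} (hl : 0 < l) (hη : 0 < η) {r : ℝ → ℝ}
    (hrm : Measurable r) (hr : Integrable (fun t => r t ^ 2)) (hp : ∫ t, r t ^ 2 ≤ p) :
    IntegrableOn (fun a => 2 * a * (2 * tau c0 c1 c2 l a - tau c0 c1 c2 l a ^ 2) * p
        - 2 * a ^ 2 * tau c0 c1 c2 l a * ∫ t, exp (-(a * |t|)) * r t) (Ioi 0) ∧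
      (4 * c0 + 8 * c1 + 24 * c2 - c0 ^ 2 / 2 - c0 * c1 - 3 / 4 * (c1 ^ 2 + 2 * c0 * c2)
        - 3 * c1 * c2 - 15 / 4 * c2 ^ 2) / l ^ 2 * p
        - η * ((8 / 5 * c0 ^ 2 + 8 * c0 * c1 + 2 / 7 * (36 * c1 ^ 2 + 96 * c0 * c2) + 72 * c1 * c2
        + 128 * c2 ^ 2) / l ^ 5) - η⁻¹ * p
        ≤ ∫ a in Ioi (0:ℝ), (2 * a * (2 * tau c0 c1 c2 l a - tau c0 c1 c2 l a ^ 2) * p
        - 2 * a ^ 2 * tau c0 c1 c2 l a * ∫ t, exp (-(a * |t|)) * r t) := by
  have hD := hasI_D c0 c1 c2 hl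
  have hC := hasI_cross c0 c1 c2 hl hrm hr
  have hQ := (hD.cmul p).sub hC
  have hQ' : HasI (fun a => 2 * a * (2 * tau c0 c1 c2 l a - tau c0 c1 c2 l a ^ 2) * p
        - 2 * a ^ 2 * tau c0 c1 c2 l a * ∫ t, exp (-(a * |t|)) * r t) _ :=
    hQ.congr (fun a _ => by ring) rfl
  refine ⟨hQ'.1, ?_⟩
  rw [hQ'.2]
  have hP := hasW_Psi_sq c0 c1 c2 hl
  have hΨr : Integrable (fun t => Psi c0 c1 c2 l t * r t) :=
    integrable_mul_of_sq (measurable_Psi _ _ _ _) hrm hP.1 hr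
  have hmono : ∫ t, 2 * (Psi c0 c1 c2 l t * r t)
      ≤ ∫ t, (η * Psi c0 c1 c2 l t ^ 2 + η⁻¹ * r t ^ 2) := by
    refine integral_mono (hΨr.const_mul 2) ((hP.1.const_mul η).add (hr.const_mul η⁻¹)) fun t => ?_
    simp only
    have h1 : 0 ≤ η⁻¹ * (η * Psi c0 c1 c2 l t - r t) ^ 2 := by positivity
    have h2 : η⁻¹ * (η * Psi c0 c1 c2 l t - r t) ^ 2
        = η * Psi c0 c1 c2 l t ^ 2 - 2 * (Psi c0 c1 c2 l t * r t) + η⁻¹ * r t ^ 2 := by
      field_simp
      ring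
    linarith
  rw [integral_const_mul, integral_add (hP.1.const_mul η) (hr.const_mul η⁻¹),
    integral_const_mul, integral_const_mul, hP.2] at hmono
  have hinv : 0 < η⁻¹ := inv_pos.mpr hη
  have : η⁻¹ * ∫ t, r t ^ 2 ≤ η⁻¹ * p := mul_le_mul_of_nonneg_left hp hinv.le
  linarith

/-- The specific numbers. -/
theorem real_core {s p : ℝ} (hs : 0 < s) {r : ℝ → ℝ}
    (hrm : Measurable r) (hr : Integrable (fun t => r t ^ 2)) (hp : ∫ t, r t ^ 2 ≤ p) :
    IntegrableOn (fun a => 2 * a * (2 * tau (81/100) (-27/50) (7/100) (11 / 20 / s) a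
          - tau (81/100) (-27/50) (7/100) (11 / 20 / s) a ^ 2) * p
        - 2 * a ^ 2 * tau (81/100) (-27/50) (7/100) (11 / 20 / s) a * ∫ t, exp (-(a * |t|)) * r t) (Ioi 0) ∧
      s ^ 2 * p - 81 / 250 * s ^ 3
        ≤ ∫ a in Ioi (0:ℝ), (2 * a * (2 * tau (81/100) (-27/50) (7/100) (11 / 20 / s) a
          - tau (81/100) (-27/50) (7/100) (11 / 20 / s) a ^ 2) * p
        - 2 * a ^ 2 * tau (81/100) (-27/50) (7/100) (11 / 20 / s) a * ∫ t, exp (-(a * |t|)) * r t) := by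
  have hl : 0 < 11 / 20 / s := by positivity
  have hη : 0 < 484 / 317 / s ^ 2 := by positivity
  obtain ⟨h1, h2⟩ := real_core_general (81/100) (-27/50) (7/100) hl hη hrm hr hp
  refine ⟨h1, le_trans ?_ h2⟩
  have hp0 : 0 ≤ p := le_trans (integral_nonneg fun _ => sq_nonneg _) hp
  have e1 : (4 * (81/100 : ℝ) + 8 * (-27/50) + 24 * (7/100) - (81/100) ^ 2 / 2 - (81/100) * (-27/50)
      - 3 / 4 * ((-27/50) ^ 2 + 2 * (81/100) * (7/100)) - 3 * (-27/50) * (7/100) - 15 / 4 * (7/100) ^ 2)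
      / (11 / 20 / s) ^ 2 = 801 / 484 * s ^ 2 := by
    field_simp
    norm_num
  have e2 : ((8 / 5 * (81/100 : ℝ) ^ 2 + 8 * (81/100) * (-27/50) + 2 / 7 * (36 * (-27/50) ^ 2 + 96 * (81/100) * (7/100))
      + 72 * (-27/50) * (7/100) + 128 * (7/100) ^ 2) / (11 / 20 / s) ^ 5)
      = 467 / 43750 * (20 / 11) ^ 5 * s ^ 5 := by
    field_simp
    norm_num
  rw [e1, e2]
  have e3 : (484 / 317 / s ^ 2)⁻¹ = 317 / 484 * s ^ 2 := by
    field_simp
  rw [e3]
  have e4 : 484 / 317 / s ^ 2 * (467 / 43750 * (20 / 11) ^ 5 * s ^ 5)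
      = (484 / 317 * (467 / 43750 * (20 / 11) ^ 5)) * s ^ 3 := by
    field_simp
  rw [e4]
  have hc : (484 / 317 * (467 / 43750 * (20 / 11) ^ 5) : ℝ) ≤ 81 / 250 := by norm_num
  have hs3 : 0 < s ^ 3 := by positivity
  nlinarith [mul_le_mul_of_nonneg_right hc hs3.le]

end LT
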