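import Mathlib

/-!
Statement level definition for the matrix Lieb-Thirring bound.
-/

open MeasureTheory

namespace LT

/-- `u` belongs to `H¹(ℝ; ℂ)` with weak derivative `u'`: both are square integrable and
`u` is the absolutely continuous primitive of `u'`. -/
structure IsH1 (u u' : ℝ → ℂ) : Prop where
  memLp : MemLp u 2 volume
  memLp_deriv : MemLp u' 2 volume
  ftc : ∀ x y, ∫ t in x..y, u' t = u y - u x

end LT

namespace LT

open scoped ComplexConjugate Matrix

/-- `ψ` (with weak derivative `ψ'`) is a weak eigenfunction with eigenvalue `l` of the operator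
`-d²/dx² - W` on `L²(ℝ; ℂ^m)`, in the sense of its quadratic form on `H¹(ℝ; ℂ^m)`. -/
def IsWeakEigenfunction {m : ℕ} (W : ℝ → Matrix (Fin m) (Fin m) ℂ) (ψ ψ' : ℝ → Fin m → ℂ) (l : ℝ) :
    Prop :=
  ∀ v v' : ℝ → Fin m → ℂ, (∀ i, IsH1 (fun x => v x i) (fun x => v' x i)) →
    (∑ i, ∫ x, conj (v' x i) * ψ' x i) - ∫ x, star (v x) ⬝ᵥ (W x *ᵥ ψ x)
      = (l : ℂ) * ∑ i, ∫ x, conj (v x i) * ψ x i

end LT
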