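import Mathlib

/-!
Real-variable energy identity for convolutions with integrable kernels
(used for the matrix Lieb-Thirring bound, problem P371).
-/

open MeasureTheory Set Real
open scoped ENNReal

namespace LT

/-- Convolution written with the shift variable. -/
noncomputable def kconv (k f : ℝ → ℝ) (x : ℝ) : ℝ := ∫ t, k t * f (x - t)

/-- Autocorrelation of a square integrable function. -/
noncomputable def corr (f : ℝ → ℝ) (z : ℝ) : ℝ := ∫ x, f x * f (x - z)

/-- Autocorrelation of a kernel. -/
noncomputable def auto (k : ℝ → ℝ) (z : ℝ) : ℝ := ∫ s, k s * k (s + z)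

section basic

variable {f k : ℝ → ℝ}

lemma integrable_shift_sq (hf : Integrable (fun x => f x ^ 2)) (s : ℝ) :
    Integrable (fun x => f (x - s) ^ 2) :=
  hf.comp_sub_right s

lemma integrable_mul_shift (hfm : Measurable f) (hf : Integrable (fun x => f x ^ 2)) (s t : ℝ) :
    Integrable (fun x => f (x - s) * f (x - t)) := by
  refine Integrable.mono' (g := fun x => (f (x - s) ^ 2 + f (x - t) ^ 2) / 2)
    (((integrable_shift_sq hf s).add (integrable_shift_sq hf t)).div_const 2) ?_ ?_
  · exact (by fun_prop : Measurable fun x => f (x - s) * f (x - t)).aestronglyMeasurable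
  · refine Filter.Eventually.of_forall fun x => ?_
    rw [Real.norm_eq_abs, abs_le]
    constructor <;> nlinarith [sq_nonneg (f (x - s) - f (x - t)), sq_nonneg (f (x - s) + f (x - t))]

lemma integral_shift_sq (s : ℝ) : ∫ x, f (x - s) ^ 2 = ∫ x, f x ^ 2 :=
  integral_sub_right_eq_self (fun x => f x ^ 2) s

lemma integral_abs_mul_shift_le (hfm : Measurable f) (hf : Integrable (fun x => f x ^ 2))
    (s t : ℝ) : ∫ x, |f (x - s) * f (x - t)| ≤ ∫ x, f x ^ 2 := by
  have h1 : ∫ x, |f (x - s) * f (x - t)| ≤ ∫ x, (f (x - s) ^ 2 + f (x - t) ^ 2) / 2 := by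
    refine integral_mono (integrable_mul_shift hfm hf s t).abs
      (((integrable_shift_sq hf s).add (integrable_shift_sq hf t)).div_const 2) fun x => ?_
    simp only
    rw [abs_le]
    constructor <;> nlinarith [sq_nonneg (f (x - s) - f (x - t)), sq_nonneg (f (x - s) + f (x - t))]
  have h2 : ∫ x, (f (x - s) ^ 2 + f (x - t) ^ 2) / 2 = ∫ x, f x ^ 2 := by
    rw [integral_div, integral_add (integrable_shift_sq hf s) (integrable_shift_sq hf t),
      integral_shift_sq, integral_shift_sq]
    ring
  linarith

lemma corr_shift (s z : ℝ) : ∫ x, f (x - s) * f (x - s - z) = corr f z :=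
  integral_sub_right_eq_self (fun x => f x * f (x - z)) s

lemma abs_corr_le (hfm : Measurable f) (hf : Integrable (fun x => f x ^ 2)) (z : ℝ) :
    |corr f z| ≤ ∫ x, f x ^ 2 := by
  have h : corr f z = ∫ x, f (x - 0) * f (x - z) := by
    simp [corr]
  rw [h]
  refine (abs_integral_le_integral_abs).trans (integral_abs_mul_shift_le hfm hf 0 z)

lemma measurable_corr (hfm : Measurable f) : Measurable (corr f) := by
  have : StronglyMeasurable (fun z => ∫ x, f x * f (x - z)) := by
    refine StronglyMeasurable.integral_prod_right (f := fun z x => f x * f (x - z)) ?_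
    exact (by fun_prop : Measurable fun p : ℝ × ℝ => f p.2 * f (p.2 - p.1)).stronglyMeasurable
  exact this.measurable

/-- Young type integrability of the kernel times the shifted function. -/
lemma integrable_kernel_shift (hkm : Measurable k) (hfm : Measurable f)
    (hk2 : Integrable (fun t => k t ^ 2)) (hf : Integrable (fun x => f x ^ 2)) (x : ℝ) :
    Integrable (fun t => k t * f (x - t)) := by
  refine Integrable.mono' (g := fun t => (k t ^ 2 + f (x - t) ^ 2) / 2)
    ((hk2.add (hf.comp_sub_left x)).div_const 2) ?_ ?_
  · exact (by fun_prop : Measurable fun t => k t * f (x - t)).aestronglyMeasurable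
  · refine Filter.Eventually.of_forall fun t => ?_
    rw [Real.norm_eq_abs, abs_le]
    constructor <;> nlinarith [sq_nonneg (k t - f (x - t)), sq_nonneg (k t + f (x - t))]

lemma integrable_shear {g h : ℝ → ℝ} (hg : Integrable g) (hh : Integrable h) :
    Integrable (fun p : ℝ × ℝ => g p.1 * h (p.1 + p.2)) (volume.prod volume) := by
  have h1 : Integrable (fun p : ℝ × ℝ => g p.1 * h p.2) (volume.prod volume) :=
    Integrable.mul_prod hg hh
  exact (measurePreserving_prod_add (volume : Measure ℝ) (volume : Measure ℝ)).integrable_comp_of_integrable h1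

lemma integral_shear {g h : ℝ → ℝ} (hg : Integrable g) (hh : Integrable h) :
    ∫ p : ℝ × ℝ, g p.1 * h (p.1 + p.2) ∂(volume.prod volume) = (∫ s, g s) * ∫ s, h s := by
  rw [integral_prod _ (integrable_shear hg hh)]
  simp only [integral_const_mul]
  have : ∀ s : ℝ, ∫ z, h (s + z) = ∫ z, h z := fun s => integral_add_left_eq_self h s
  simp only [this, integral_mul_const]

/-- The triple integrand. -/
lemma integrable_triple (hkm : Measurable k) (hfm : Measurable f)
    (hk1 : Integrable k) (hf : Integrable (fun x => f x ^ 2)) :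
    Integrable (Function.uncurry fun (x : ℝ) (p : ℝ × ℝ) =>
        (k p.1 * f (x - p.1)) * (k (p.1 + p.2) * f (x - (p.1 + p.2))))
      (volume.prod (volume.prod volume)) := by
  have hm : Measurable (Function.uncurry fun (x : ℝ) (p : ℝ × ℝ) =>
        (k p.1 * f (x - p.1)) * (k (p.1 + p.2) * f (x - (p.1 + p.2)))) := by
    unfold Function.uncurry
    fun_prop
  rw [integrable_prod_iff' hm.aestronglyMeasurable]
  constructor
  · refine Filter.Eventually.of_forall fun p => ?_
    have := (integrable_mul_shift hfm hf p.1 (p.1 + p.2)).const_mul (k p.1 * k (p.1 + p.2))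
    refine this.congr (Filter.Eventually.of_forall fun x => ?_)
    simp only [Function.uncurry]
    ring
  · have hdom : Integrable (fun p : ℝ × ℝ => (∫ x, f x ^ 2) * (|k p.1| * |k (p.1 + p.2)|))
        (volume.prod volume) := (integrable_shear hk1.abs hk1.abs).const_mul _
    refine Integrable.mono' hdom ?_ ?_
    · have h2 : StronglyMeasurable (fun p : ℝ × ℝ => ∫ x, ‖Function.uncurry (fun (x : ℝ) (p : ℝ × ℝ) =>
          (k p.1 * f (x - p.1)) * (k (p.1 + p.2) * f (x - (p.1 + p.2)))) (x, p)‖) := by
        refine StronglyMeasurable.integral_prod_right (f := fun (p : ℝ × ℝ) (x : ℝ) =>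
          ‖Function.uncurry (fun (x : ℝ) (p : ℝ × ℝ) =>
          (k p.1 * f (x - p.1)) * (k (p.1 + p.2) * f (x - (p.1 + p.2)))) (x, p)‖) ?_
        refine Measurable.stronglyMeasurable ?_
        exact (hm.comp (measurable_swap)).norm
      exact h2.aestronglyMeasurable
    · refine Filter.Eventually.of_forall fun p => ?_
      rw [Real.norm_eq_abs, abs_of_nonneg (integral_nonneg fun _ => norm_nonneg _)]
      have : ∀ x, ‖Function.uncurry (fun (x : ℝ) (p : ℝ × ℝ) =>
          (k p.1 * f (x - p.1)) * (k (p.1 + p.2) * f (x - (p.1 + p.2)))) (x, p)‖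
          = (|k p.1| * |k (p.1 + p.2)|) * |f (x - p.1) * f (x - (p.1 + p.2))| := by
        intro x
        simp only [Function.uncurry, Real.norm_eq_abs, abs_mul]
        ring
      simp only [this, integral_const_mul]
      have h3 := integral_abs_mul_shift_le hfm hf p.1 (p.1 + p.2)
      have h4 : 0 ≤ |k p.1| * |k (p.1 + p.2)| := by positivity
      nlinarith

end basic

/-- The energy identity: integrability and value of the square of a convolution. -/
theorem energy {k f : ℝ → ℝ} (hkm : Measurable k) (hfm : Measurable f)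
    (hk1 : Integrable k) (hk2 : Integrable (fun t => k t ^ 2))
    (hf : Integrable (fun x => f x ^ 2)) :
    Integrable (fun x => kconv k f x ^ 2) ∧
      ∫ x, kconv k f x ^ 2 = ∫ z, auto k z * corr f z := by
  have htrip := integrable_triple hkm hfm hk1 hf
  have hsq : ∀ x, kconv k f x ^ 2 = ∫ p : ℝ × ℝ,
      (k p.1 * f (x - p.1)) * (k (p.1 + p.2) * f (x - (p.1 + p.2))) ∂(volume.prod volume) := by
    intro x
    have hg := integrable_kernel_shift hkm hfm hk2 hf x
    have := integral_shear hg hg
    rw [kconv, sq, ← this]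
  have hint : Integrable (fun x => kconv k f x ^ 2) := by
    have := htrip.integral_prod_left
    refine this.congr (Filter.Eventually.of_forall fun x => ?_)
    exact (hsq x).symm
  refine ⟨hint, ?_⟩
  simp_rw [hsq]
  rw [integral_integral_swap htrip]
  -- inner `x` integral
  have hinner : ∀ p : ℝ × ℝ, ∫ x, (k p.1 * f (x - p.1)) * (k (p.1 + p.2) * f (x - (p.1 + p.2)))
      = k p.1 * k (p.1 + p.2) * corr f p.2 := by
    intro p
    rw [← corr_shift (f := f) p.1 p.2, ← integral_const_mul]
    refine integral_congr_ae (Filter.Eventually.of_forall fun x => ?_)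
    simp only
    rw [show x - (p.1 + p.2) = x - p.1 - p.2 by ring]
    ring
  simp_rw [hinner]
  -- now change the order of `s,z`
  have hdom : Integrable (fun p : ℝ × ℝ => k p.1 * k (p.1 + p.2) * corr f p.2)
      (volume.prod volume) := by
    refine Integrable.mono' (((integrable_shear hk1.abs hk1.abs).const_mul (∫ x, f x ^ 2))) ?_ ?_
    · have hc := measurable_corr hfm
      exact (by fun_prop : Measurable fun p : ℝ × ℝ =>
        k p.1 * k (p.1 + p.2) * corr f p.2).aestronglyMeasurable
    · refine Filter.Eventually.of_forall fun p => ?_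
      rw [Real.norm_eq_abs, abs_mul, abs_mul]
      have := abs_corr_le hfm hf p.2
      have h4 : 0 ≤ |k p.1| * |k (p.1 + p.2)| := by positivity
      nlinarith
  rw [integral_prod_symm _ hdom]
  refine integral_congr_ae (Filter.Eventually.of_forall fun z => ?_)
  simp only [auto]
  rw [← integral_mul_const]

end LT
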