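import Vale.Agent.helper5.LTScalar

/-!
Orthonormal families of `H¹` functions: expansion and the direction bound.
-/

open MeasureTheory Set Real
open scoped ENNReal ComplexConjugate Matrix

namespace LT

variable {m N : ℕ} {u u' : Fin N → ℝ → Fin m → ℂ}

lemma integrable_conj_mul {f g : ℝ → ℂ} (hfm : Measurable f) (hgm : Measurable g)
    (hf : Integrable (fun y => ‖f y‖ ^ 2)) (hg : Integrable (fun y => ‖g y‖ ^ 2)) :
    Integrable (fun y => conj (f y) * g y) := by
  refine Integrable.mono' (g := fun y => (‖f y‖ ^ 2 + ‖g y‖ ^ 2) / 2)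
    ((hf.add hg).div_const 2) ?_ ?_
  · have : Measurable (fun y => conj (f y)) := Complex.continuous_conj.measurable.comp hfm
    exact (this.mul hgm).aestronglyMeasurable
  · refine Filter.Eventually.of_forall fun y => ?_
    rw [norm_mul, RCLike.norm_conj]
    nlinarith [sq_nonneg (‖f y‖ - ‖g y‖)]

lemma memLp_comb (H1 : ∀ j i, IsH1 (fun x => u j x i) (fun x => u' j x i)) (c : Fin N → ℂ)
    (i : Fin m) : MemLp (fun y => ∑ j, c j * u j y i) 2 volume := by
  have := memLp_finsetSum (Finset.univ) (f := fun j y => c j * u j y i)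
    (fun j _ => (H1 j i).memLp.const_mul (c j))
  simpa using this

lemma measurable_comb (H1 : ∀ j i, IsH1 (fun x => u j x i) (fun x => u' j x i)) (c : Fin N → ℂ)
    (i : Fin m) : Measurable (fun y => ∑ j, c j * u j y i) :=
  Finset.measurable_fun_sum _ fun j _ => (H1 j i).measurable.const_mul (c j)

/-- Expansion in an orthonormal family. -/
theorem orth_expand (H1 : ∀ j i, IsH1 (fun x => u j x i) (fun x => u' j x i))
    (orth : ∀ j k, ∑ i, ∫ x, conj (u j x i) * u k x i = if j = k then 1 else 0)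
    (c : Fin N → ℂ) :
    (∀ i, Integrable (fun y => ‖∑ j, c j * u j y i‖ ^ 2)) ∧
      ∑ i, ∫ y, ‖∑ j, c j * u j y i‖ ^ 2 = ∑ j, ‖c j‖ ^ 2 := by
  have hint : ∀ i, Integrable (fun y => ‖∑ j, c j * u j y i‖ ^ 2) := fun i =>
    (memLp_two_iff_integrable_sq_norm (memLp_comb H1 c i).1).1 (memLp_comb H1 c i)
  refine ⟨hint, ?_⟩
  have hprod : ∀ i j l, Integrable (fun y => conj (u j y i) * u l y i) := fun i j l =>
    integrable_conj_mul (H1 j i).measurable (H1 l i).measurable (H1 j i).sq (H1 l i).sq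
  have hexp : ∀ i, ((∫ y, ‖∑ j, c j * u j y i‖ ^ 2 : ℝ) : ℂ)
      = ∑ j, ∑ l, conj (c j) * c l * ∫ y, conj (u j y i) * u l y i := by
    intro i
    rw [← integral_complex_ofReal]
    have hform : ∀ y, ((‖∑ j, c j * u j y i‖ ^ 2 : ℝ) : ℂ)
        = ∑ j, ∑ l, conj (c j) * c l * (conj (u j y i) * u l y i) := by
      intro y
      push_cast
      rw [← Complex.conj_mul', map_sum, Finset.sum_mul_sum]
      refine Finset.sum_congr rfl fun j _ => Finset.sum_congr rfl fun l _ => ?_
      rw [map_mul]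
      ring
    simp_rw [hform]
    rw [integral_finsetSum _ fun j _ => integrable_finsetSum _ fun l _ => (hprod i j l).const_mul _]
    refine Finset.sum_congr rfl fun j _ => ?_
    rw [integral_finsetSum _ fun l _ => (hprod i j l).const_mul _]
    refine Finset.sum_congr rfl fun l _ => ?_
    rw [integral_const_mul]
  apply Complex.ofReal_injective
  push_cast
  have h1 : ∑ i, ((∫ y, ‖∑ j, c j * u j y i‖ ^ 2 : ℝ) : ℂ) = ((∑ j, ‖c j‖ ^ 2 : ℝ) : ℂ) := by
    simp_rw [hexp]
    rw [Finset.sum_comm]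
    have h2 : ∀ j, ∑ i, ∑ l, conj (c j) * c l * ∫ y, conj (u j y i) * u l y i
        = conj (c j) * c j := by
      intro j
      rw [Finset.sum_comm]
      simp_rw [← Finset.mul_sum, orth j]
      simp
    simp_rw [h2]
    push_cast
    refine Finset.sum_congr rfl fun j _ => ?_
    rw [Complex.conj_mul']
  exact_mod_cast h1

/-- `coef` of a combination. -/
lemma coef_comb (e : Fin m → ℂ) (c : Fin N → ℂ) (y : ℝ) :
    coef e (fun i => ∑ j, c j * u j y i) = ∑ j, c j * coef e (u j y) := by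
  unfold coef
  simp_rw [Finset.mul_sum]
  rw [Finset.sum_comm]
  refine Finset.sum_congr rfl fun j _ => Finset.sum_congr rfl fun i _ => ?_
  ring

lemma measurable_coef (H1 : ∀ j i, IsH1 (fun x => u j x i) (fun x => u' j x i))
    (e : Fin m → ℂ) (j : Fin N) : Measurable (fun y => coef e (u j y)) := by
  unfold coef
  exact Finset.measurable_fun_sum _ fun i _ => (H1 j i).measurable.const_mul _

lemma sq_coef (H1 : ∀ j i, IsH1 (fun x => u j x i) (fun x => u' j x i))
    (e : Fin m → ℂ) (j : Fin N) : Integrable (fun y => ‖coef e (u j y)‖ ^ 2) := by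
  have h : MemLp (fun y => coef e (u j y)) 2 volume := by
    unfold coef
    have := memLp_finsetSum (Finset.univ) (f := fun i y => conj (e i) * u j y i)
      (fun i _ => (H1 j i).memLp.const_mul (conj (e i)))
    simpa using this
  exact (memLp_two_iff_integrable_sq_norm h.1).1 h

/-- The bound in one direction. -/
theorem dir_bound (H1 : ∀ j i, IsH1 (fun x => u j x i) (fun x => u' j x i))
    (orth : ∀ j k, ∑ i, ∫ x, conj (u j x i) * u k x i = if j = k then 1 else 0)
    (e : Fin m → ℂ) (he : ∀ v : Fin m → ℂ, ‖coef e v‖ ^ 2 ≤ ∑ i, ‖v i‖ ^ 2) (x : ℝ)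
    {w : ℝ} (hw : 0 ≤ w) :
    ENNReal.ofReal (w * (∑ j, ‖coef e (u j x)‖ ^ 2) - 81 / 250 * w ^ (3 / 2 : ℝ)) ≤
      ∫⁻ a in Ioi (0:ℝ), ENNReal.ofReal
        (2 * a * ∑ j, ‖coef e (u j x) - ∫ t, ((G a t : ℝ) : ℂ) * coef e (u j (x - t))‖ ^ 2) := by
  rcases hw.eq_or_lt with h0 | hpos
  · rw [← h0, zero_mul, zero_rpow (by norm_num), mul_zero, sub_zero, ENNReal.ofReal_zero]
    exact zero_le
  set s := √w with hs
  have hspos : 0 < s := Real.sqrt_pos.mpr hpos
  have hs2 : s ^ 2 = w := Real.sq_sqrt hw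
  have hs3 : s ^ 3 = w ^ (3 / 2 : ℝ) := by
    rw [hs, Real.sqrt_eq_rpow, ← rpow_natCast, ← rpow_mul hw]
    norm_num
  set c : Fin N → ℂ := fun j => conj (coef e (u j x)) with hc
  obtain ⟨hexpI, hexpV⟩ := orth_expand H1 orth c
  have hFform : ∀ y, ∑ j, conj (coef e (u j x)) * coef e (u j y)
      = coef e (fun i => ∑ j, c j * u j y i) := fun y => (coef_comb e c y).symm
  have hbd : ∀ y, ‖∑ j, conj (coef e (u j x)) * coef e (u j y)‖ ^ 2
      ≤ ∑ i, ‖∑ j, c j * u j y i‖ ^ 2 := by
    intro y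
    rw [hFform]
    exact he _
  have hIsum : Integrable (fun y => ∑ i, ‖∑ j, c j * u j y i‖ ^ 2) :=
    integrable_finsetSum _ fun i _ => hexpI i
  have hFm : Measurable (fun y => ∑ j, conj (coef e (u j x)) * coef e (u j y)) :=
    Finset.measurable_fun_sum _ fun j _ => (measurable_coef H1 e j).const_mul _
  have hFi : Integrable (fun y => ‖∑ j, conj (coef e (u j x)) * coef e (u j y)‖ ^ 2) := by
    refine Integrable.mono' hIsum (hFm.norm.pow_const 2).aestronglyMeasurable ?_
    refine Filter.Eventually.of_forall fun y => ?_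
    rw [Real.norm_eq_abs, abs_of_nonneg (sq_nonneg _)]
    exact hbd y
  have hF : ∫ y, ‖∑ j, conj (coef e (u j x)) * coef e (u j y)‖ ^ 2
      ≤ ∑ j, ‖coef e (u j x)‖ ^ 2 := by
    have h1 := integral_mono hFi hIsum hbd
    rw [integral_finsetSum _ fun i _ => hexpI i, hexpV] at h1
    refine h1.trans (le_of_eq ?_)
    refine Finset.sum_congr rfl fun j _ => ?_
    simp only [hc, RCLike.norm_conj]
  have hcore := core (φ := fun j y => coef e (u j y)) (measurable_coef H1 e) (sq_coef H1 e) x hspos hFi hF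
  rw [hs2, hs3] at hcore
  exact hcore

end LT
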