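import Vale.Agent.helper5.LTEnergy

/-!
Explicit exponential kernels on the line and their autocorrelations.
-/

open MeasureTheory Set Real
open scoped ENNReal

namespace LT

/-- The resolvent kernel `(a/2) exp(-a|t|)`. -/
noncomputable def G (a t : ℝ) : ℝ := a / 2 * exp (-(a * |t|))

/-- One sided exponential. -/
noncomputable def E (a t : ℝ) : ℝ := if 0 < t then exp (-(a * t)) else 0

/-- Odd exponential: `sign(t) exp(-a|t|)/2`. -/
noncomputable def S (a t : ℝ) : ℝ := (E a t - E a (-t)) / 2

lemma measurable_E (a : ℝ) : Measurable (E a) := by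
  unfold E
  exact Measurable.ite measurableSet_Ioi (by fun_prop) (by fun_prop)

lemma measurable_S (a : ℝ) : Measurable (S a) := by
  unfold S
  have := measurable_E a
  fun_prop

lemma E_nonneg (a t : ℝ) : 0 ≤ E a t := by
  unfold E; split_ifs <;> positivity

lemma E_le (a t : ℝ) : E a t ≤ exp (-(a * |t|)) := by
  unfold E; split_ifs with h
  · rw [abs_of_pos h]
  · positivity

lemma E_neg_le (a t : ℝ) : E a (-t) ≤ exp (-(a * |t|)) := by
  have := E_le a (-t)
  rwa [abs_neg] at this

lemma abs_S_le (a t : ℝ) : |S a t| ≤ exp (-(a * |t|)) := by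
  unfold S
  have h1 := E_le a t
  have h2 := E_neg_le a t
  have h3 := E_nonneg a t
  have h4 := E_nonneg a (-t)
  rw [abs_le]; constructor <;> linarith

lemma integrable_comp_abs' {f : ℝ → ℝ} (hf : IntegrableOn f (Ioi 0)) :
    Integrable (fun x => f |x|) := by
  have h1 : IntegrableOn (fun x => f |x|) (Ioi 0) :=
    hf.congr_fun (fun x hx => by rw [abs_of_pos hx]) measurableSet_Ioi
  have h2 : IntegrableOn (fun x ↦ f |x|) (Iic 0) := by
    rw [← Measure.map_neg_eq_self (volume : Measure ℝ)]
    let m : MeasurableEmbedding fun x : ℝ => -x := (Homeomorph.neg ℝ).measurableEmbedding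
    rw [m.integrableOn_map_iff]
    simp_rw [Function.comp_def, abs_neg, neg_preimage, neg_Iic, neg_zero]
    exact Iff.mpr integrableOn_Ici_iff_integrableOn_Ioi h1
  have : IntegrableOn (fun x => f |x|) (Iic 0 ∪ Ioi 0) := h2.union h1
  rwa [Iic_union_Ioi, integrableOn_univ] at this

lemma integrableOn_exp_mul {b : ℝ} (hb : 0 < b) : IntegrableOn (fun t => exp (-(b * t))) (Ioi 0) := by
  have := integrableOn_exp_mul_Ioi (a := -b) (by linarith) 0
  simpa [neg_mul] using this

lemma integral_exp_mul' {b : ℝ} (hb : 0 < b) : ∫ t in Ioi (0:ℝ), exp (-(b * t)) = 1 / b := by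
  have := integral_exp_mul_Ioi (a := -b) (by linarith) 0
  simp only [neg_mul, mul_zero, exp_zero] at this
  rw [this]
  field_simp

lemma integrable_exp_abs {b : ℝ} (hb : 0 < b) : Integrable (fun t => exp (-(b * |t|))) :=
  integrable_comp_abs' (f := fun t => exp (-(b * t))) (integrableOn_exp_mul hb)

lemma integral_exp_abs {b : ℝ} (hb : 0 < b) : ∫ t, exp (-(b * |t|)) = 2 / b := by
  have := integral_comp_abs (f := fun t => exp (-(b * t)))
  rw [this, integral_exp_mul' hb]
  ring

lemma integrable_G {a : ℝ} (ha : 0 < a) : Integrable (G a) :=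
  (integrable_exp_abs ha).const_mul _

lemma integral_G {a : ℝ} (ha : 0 < a) : ∫ t, G a t = 1 := by
  unfold G
  rw [integral_const_mul, integral_exp_abs ha]
  field_simp

lemma G_nonneg {a : ℝ} (ha : 0 < a) (t : ℝ) : 0 ≤ G a t := by
  unfold G; positivity

lemma measurable_G (a : ℝ) : Measurable (G a) := by
  unfold G; fun_prop

lemma integrable_E {a : ℝ} (ha : 0 < a) : Integrable (E a) := by
  refine Integrable.mono' (integrable_exp_abs ha) (measurable_E a).aestronglyMeasurable ?_
  refine Filter.Eventually.of_forall fun t => ?_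
  rw [Real.norm_eq_abs, abs_of_nonneg (E_nonneg a t)]
  exact E_le a t

lemma integrable_S {a : ℝ} (ha : 0 < a) : Integrable (S a) := by
  refine Integrable.mono' (integrable_exp_abs ha) (measurable_S a).aestronglyMeasurable ?_
  refine Filter.Eventually.of_forall fun t => ?_
  rw [Real.norm_eq_abs]
  exact abs_S_le a t

lemma exp_abs_sq (a t : ℝ) : exp (-(a * |t|)) ^ 2 = exp (-((2 * a) * |t|)) := by
  rw [← exp_nat_mul]; congr 1; push_cast; ring

lemma integrable_E_sq {a : ℝ} (ha : 0 < a) : Integrable (fun t => E a t ^ 2) := by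
  refine Integrable.mono' (integrable_exp_abs (b := 2 * a) (by positivity))
    ((measurable_E a).pow_const 2).aestronglyMeasurable ?_
  refine Filter.Eventually.of_forall fun t => ?_
  rw [Real.norm_eq_abs, abs_of_nonneg (sq_nonneg _), ← exp_abs_sq]
  exact pow_le_pow_left₀ (E_nonneg a t) (E_le a t) 2

lemma integrable_S_sq {a : ℝ} (ha : 0 < a) : Integrable (fun t => S a t ^ 2) := by
  refine Integrable.mono' (integrable_exp_abs (b := 2 * a) (by positivity))
    ((measurable_S a).pow_const 2).aestronglyMeasurable ?_
  refine Filter.Eventually.of_forall fun t => ?_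
  rw [Real.norm_eq_abs, abs_of_nonneg (sq_nonneg _), ← exp_abs_sq, ← sq_abs (S a t)]
  exact pow_le_pow_left₀ (abs_nonneg _) (abs_S_le a t) 2

lemma auto_neg (k : ℝ → ℝ) (z : ℝ) : auto k (-z) = auto k z := by
  unfold auto
  rw [← integral_add_right_eq_self (fun s => k s * k (s + -z)) z]
  refine integral_congr_ae (Filter.Eventually.of_forall fun s => ?_)
  simp only
  rw [show s + z + -z = s by ring, mul_comm]

/-- the first basic integral -/
lemma integral_E_E {a z : ℝ} (ha : 0 < a) (hz : 0 ≤ z) :
    Integrable (fun s => E a s * E a (s + z)) ∧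
      ∫ s, E a s * E a (s + z) = exp (-(a * z)) / (2 * a) := by
  have hform : (fun s => E a s * E a (s + z)) =
      (Ioi (0:ℝ)).indicator (fun s => exp (-(a * z)) * exp (-((2 * a) * s))) := by
    funext s
    by_cases hs : 0 < s
    · have hs' : 0 < s + z := by linarith
      simp only [E, hs, hs', if_true, indicator, mem_Ioi]
      rw [← exp_add, ← exp_add]; congr 1; ring
    · simp [E, hs, indicator]
  rw [hform]
  constructor
  · rw [integrable_indicator_iff measurableSet_Ioi]
    exact (integrableOn_exp_mul (b := 2 * a) (by positivity)).const_mul _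
  · rw [integral_indicator measurableSet_Ioi, integral_const_mul,
      integral_exp_mul' (by positivity : 0 < 2 * a)]
    ring

/-- the mixed integral -/
lemma integral_E_neg_E {a z : ℝ} (hz : 0 ≤ z) :
    Integrable (fun s => E a (-s) * E a (s + z)) ∧
      ∫ s, E a (-s) * E a (s + z) = z * exp (-(a * z)) := by
  have hform : (fun s => E a (-s) * E a (s + z)) =
      (Ioo (-z) (0:ℝ)).indicator (fun _ => exp (-(a * z))) := by
    funext s
    by_cases hs : s ∈ Ioo (-z) (0:ℝ)
    · have h1 : 0 < -s := by linarith [hs.2]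
      have h2 : 0 < s + z := by linarith [hs.1]
      simp only [E, h1, h2, if_true, indicator, hs]
      rw [← exp_add]; congr 1; ring
    · rw [indicator_of_notMem hs]
      simp only [mem_Ioo, not_and_or, not_lt] at hs
      rcases hs with hs | hs
      · have : ¬ 0 < s + z := by linarith
        simp [E, this]
      · have : ¬ 0 < -s := by linarith
        simp [E, this]
  rw [hform]
  constructor
  · rw [integrable_indicator_iff measurableSet_Ioo]
    exact integrableOn_const (by simp) (by simp)
  · rw [integral_indicator measurableSet_Ioo]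
    simp [hz, smul_eq_mul]

/-- vanishing product -/
lemma E_E_neg_zero {a z s : ℝ} (hz : 0 ≤ z) : E a s * E a (-s - z) = 0 := by
  by_cases hs : 0 < s
  · have : ¬ 0 < -s - z := by linarith
    simp [E, this]
  · simp [E, hs]

lemma integral_E_neg_E_neg {a z : ℝ} (ha : 0 < a) (hz : 0 ≤ z) :
    Integrable (fun s => E a (-s) * E a (-s - z)) ∧
      ∫ s, E a (-s) * E a (-s - z) = exp (-(a * z)) / (2 * a) := by
  obtain ⟨h1, h2⟩ := integral_E_E (a := a) (z := z) ha hz
  have hform : (fun s => E a (-s) * E a (-s - z)) =
      fun s => (fun r => E a r * E a (r + z)) (-s - z) := by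
    funext s
    simp only
    rw [show -s - z + z = -s by ring, mul_comm]
  rw [hform]
  refine ⟨?_, ?_⟩
  · have : Integrable (fun s => (fun r => E a r * E a (r + z)) (-z - s)) := h1.comp_sub_left (-z)
    refine this.congr (Filter.Eventually.of_forall fun s => ?_)
    simp only
    rw [show -z - s = -s - z by ring]
  · have : ∫ s, (fun r => E a r * E a (r + z)) (-z - s) = ∫ r, E a r * E a (r + z) :=
      integral_sub_left_eq_self (fun r => E a r * E a (r + z)) volume (-z)
    rw [← h2, ← this]
    refine integral_congr_ae (Filter.Eventually.of_forall fun s => ?_)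
    simp only
    rw [show -z - s = -s - z by ring]

/-- Autocorrelation of the one sided exponential. -/
lemma auto_E {a : ℝ} (ha : 0 < a) (z : ℝ) : auto (E a) z = exp (-(a * |z|)) / (2 * a) := by
  rcases le_total 0 z with hz | hz
  · rw [abs_of_nonneg hz]; exact (integral_E_E ha hz).2
  · have h := (integral_E_E (a := a) (z := -z) ha (by linarith)).2
    rw [abs_of_nonpos hz, ← auto_neg]; exact h

/-- The autocorrelation of the odd kernel, written explicitly. -/
noncomputable def H (a z : ℝ) : ℝ := exp (-(a * |z|)) * (1 / a - |z|) / 4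

lemma auto_S {a : ℝ} (ha : 0 < a) (z : ℝ) : auto (S a) z = H a z := by
  wlog hz : 0 ≤ z generalizing z
  · have h := this (-z) (by linarith)
    rw [auto_neg] at h
    rw [h]
    simp [H, abs_neg]
  rw [H, abs_of_nonneg hz]
  obtain ⟨i1, v1⟩ := integral_E_E (a := a) (z := z) ha hz
  obtain ⟨i2, v2⟩ := integral_E_neg_E (a := a) (z := z) hz
  obtain ⟨i3, v3⟩ := integral_E_neg_E_neg (a := a) (z := z) ha hz
  have hform : ∀ s, S a s * S a (s + z) =
      (E a s * E a (s + z) - E a (-s) * E a (s + z) + E a (-s) * E a (-s - z)) / 4 := by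
    intro s
    unfold S
    have h0 := E_E_neg_zero (a := a) (z := z) (s := s) hz
    rw [show -(s + z) = -s - z by ring]
    linear_combination (-1 / 4) * h0
  unfold auto
  simp_rw [hform]
  have i12 : Integrable (fun s => E a s * E a (s + z) - E a (-s) * E a (s + z)) := i1.sub i2
  rw [integral_div, integral_add i12 i3, integral_sub i1 i2, v1, v2, v3]
  field_simp
  ring

end LT
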