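import Vale.Agent.helper5.LTCore

/-!
The pointwise (in `x`) lower bound for one direction.
-/

open MeasureTheory Set Real
open scoped ENNReal ComplexConjugate

namespace LT

lemma ofReal_integral_le_lintegral {α : Type*} [MeasurableSpace α] {μ : Measure α} {Q : α → ℝ}
    (hQ : Integrable Q μ) : ENNReal.ofReal (∫ a, Q a ∂μ) ≤ ∫⁻ a, ENNReal.ofReal (Q a) ∂μ := by
  have h1 : Integrable (fun a => max (Q a) 0) μ := hQ.pos_part
  have h2 : ∫ a, Q a ∂μ ≤ ∫ a, max (Q a) 0 ∂μ := integral_mono hQ h1 fun a => le_max_left _ _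
  calc ENNReal.ofReal (∫ a, Q a ∂μ) ≤ ENNReal.ofReal (∫ a, max (Q a) 0 ∂μ) :=
        ENNReal.ofReal_le_ofReal h2
    _ = ∫⁻ a, ENNReal.ofReal (max (Q a) 0) ∂μ :=
        ofReal_integral_eq_lintegral_ofReal h1 (Filter.Eventually.of_forall fun a => le_max_right _ _)
    _ = ∫⁻ a, ENNReal.ofReal (Q a) ∂μ := by
        refine lintegral_congr fun a => ?_
        rcases le_total (Q a) 0 with h | h
        · rw [max_eq_right h, ENNReal.ofReal_zero, ENNReal.ofReal_of_nonpos h]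
        · rw [max_eq_left h]

/-- The algebra of completing the square. -/
lemma square_bound (y b : ℂ) (τ : ℝ) :
    (2 * τ - τ ^ 2) * ‖y‖ ^ 2 - 2 * τ * (conj y * b).re ≤ ‖y - b‖ ^ 2 := by
  have h1 : ‖y‖ ^ 2 = y.re ^ 2 + y.im ^ 2 := by
    rw [Complex.sq_norm, Complex.normSq_apply]; ring
  have h2 : ‖y - b‖ ^ 2 = (y.re - b.re) ^ 2 + (y.im - b.im) ^ 2 := by
    rw [Complex.sq_norm, Complex.normSq_apply, Complex.sub_re, Complex.sub_im]; ring
  have h3 : (conj y * b).re = y.re * b.re + y.im * b.im := by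
    simp [Complex.mul_re]
  rw [h1, h2, h3]
  nlinarith [sq_nonneg (y.re - b.re - τ * y.re), sq_nonneg (y.im - b.im - τ * y.im)]

lemma integrable_G_shift_complex {h : ℝ → ℂ} (hm : Measurable h)
    (hsq : Integrable (fun y => ‖h y‖ ^ 2)) {a : ℝ} (ha : 0 < a) (x : ℝ) :
    Integrable (fun t => ((G a t : ℝ) : ℂ) * h (x - t)) := by
  refine Integrable.mono' (g := fun t => (G a t ^ 2 + ‖h (x - t)‖ ^ 2) / 2)
    (((integrable_G_sq ha).add (hsq.comp_sub_left x)).div_const 2) ?_ ?_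
  · have h1 := measurable_G a
    exact (by fun_prop : Measurable fun t => ((G a t : ℝ) : ℂ) * h (x - t)).aestronglyMeasurable
  · refine Filter.Eventually.of_forall fun t => ?_
    rw [norm_mul, Complex.norm_real, Real.norm_eq_abs]
    nlinarith [sq_nonneg (|G a t| - ‖h (x - t)‖), sq_abs (G a t)]

/-- The pointwise estimate in one direction. -/
theorem core {ι : Type*} [Fintype ι] {φ : ι → ℝ → ℂ} (hm : ∀ j, Measurable (φ j))
    (hL2 : ∀ j, Integrable (fun y => ‖φ j y‖ ^ 2)) (x : ℝ) {s : ℝ} (hs : 0 < s)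
    (hFi : Integrable (fun y => ‖∑ j, conj (φ j x) * φ j y‖ ^ 2))
    (hF : ∫ y, ‖∑ j, conj (φ j x) * φ j y‖ ^ 2 ≤ ∑ j, ‖φ j x‖ ^ 2) :
    ENNReal.ofReal (s ^ 2 * (∑ j, ‖φ j x‖ ^ 2) - 81 / 250 * s ^ 3) ≤
      ∫⁻ a in Ioi (0:ℝ), ENNReal.ofReal
        (2 * a * ∑ j, ‖φ j x - ∫ t, ((G a t : ℝ) : ℂ) * φ j (x - t)‖ ^ 2) := by
  set p := ∑ j, ‖φ j x‖ ^ 2 with hpdef
  let F : ℝ → ℂ := fun y => ∑ j, conj (φ j x) * φ j y
  have hFm : Measurable F := by
    refine Finset.measurable_fun_sum _ fun j _ => ?_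
    exact (hm j).const_mul _
  let r : ℝ → ℝ := fun t => (F (x - t)).re
  have hrm : Measurable r := by
    have : Measurable fun t => F (x - t) := by fun_prop
    exact Complex.measurable_re.comp this
  have hrle : ∀ t, r t ^ 2 ≤ ‖F (x - t)‖ ^ 2 := by
    intro t
    have h1 := Complex.abs_re_le_norm (F (x - t))
    have h2 : |r t| ≤ ‖F (x - t)‖ := h1
    rw [← sq_abs (r t)]
    exact pow_le_pow_left₀ (abs_nonneg _) h2 2
  have hshift : Integrable (fun t => ‖F (x - t)‖ ^ 2) := hFi.comp_sub_left x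
  have hr : Integrable (fun t => r t ^ 2) := by
    refine Integrable.mono' hshift (hrm.pow_const 2).aestronglyMeasurable ?_
    refine Filter.Eventually.of_forall fun t => ?_
    rw [Real.norm_eq_abs, abs_of_nonneg (sq_nonneg _)]
    exact hrle t
  have hp : ∫ t, r t ^ 2 ≤ p := by
    have h1 : ∫ t, r t ^ 2 ≤ ∫ t, ‖F (x - t)‖ ^ 2 := integral_mono hr hshift hrle
    have h2 : ∫ t, ‖F (x - t)‖ ^ 2 = ∫ y, ‖F y‖ ^ 2 :=
      integral_sub_left_eq_self (fun y => ‖F y‖ ^ 2) volume x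
    linarith
  obtain ⟨hQ, hval⟩ := real_core hs hrm hr hp
  refine (ENNReal.ofReal_le_ofReal hval).trans ((ofReal_integral_le_lintegral hQ).trans ?_)
  refine setLIntegral_mono' measurableSet_Ioi fun a ha => ENNReal.ofReal_le_ofReal ?_
  have ha' : (0:ℝ) < a := ha
  set τ := tau (81/100) (-27/50) (7/100) (11 / 20 / s) a with hτ
  -- the linear identity
  have hint : ∀ j, Integrable (fun t => ((G a t : ℝ) : ℂ) * φ j (x - t)) := fun j =>
    integrable_G_shift_complex (hm j) (hL2 j) ha' x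
  have hsum : ∑ j, conj (φ j x) * ∫ t, ((G a t : ℝ) : ℂ) * φ j (x - t)
      = ∫ t, ((G a t : ℝ) : ℂ) * F (x - t) := by
    simp only [F]
    have : ∀ t, ((G a t : ℝ) : ℂ) * ∑ j, conj (φ j x) * φ j (x - t)
        = ∑ j, conj (φ j x) * (((G a t : ℝ) : ℂ) * φ j (x - t)) := by
      intro t
      rw [Finset.mul_sum]
      refine Finset.sum_congr rfl fun j _ => ?_
      ring
    simp_rw [this]
    rw [integral_finsetSum _ fun j _ => (hint j).const_mul _]
    refine Finset.sum_congr rfl fun j _ => ?_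
    rw [integral_const_mul]
  have hintF : Integrable (fun t => ((G a t : ℝ) : ℂ) * F (x - t)) :=
    integrable_G_shift_complex hFm hFi ha' x
  have hre : (∑ j, conj (φ j x) * ∫ t, ((G a t : ℝ) : ℂ) * φ j (x - t)).re
      = a / 2 * ∫ t, exp (-(a * |t|)) * r t := by
    rw [hsum]
    have h1 := integral_re hintF
    have h2 : (∫ t, ((G a t : ℝ) : ℂ) * F (x - t)).re = RCLike.re (∫ t, ((G a t : ℝ) : ℂ) * F (x - t)) := rfl
    rw [h2, ← h1, ← integral_const_mul]
    refine integral_congr_ae (Filter.Eventually.of_forall fun t => ?_)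
    simp only [RCLike.re_to_complex, Complex.re_ofReal_mul, r, G]
    ring
  -- sum of the pointwise bounds
  have hbd : (2 * τ - τ ^ 2) * p - 2 * τ * (a / 2 * ∫ t, exp (-(a * |t|)) * r t)
      ≤ ∑ j, ‖φ j x - ∫ t, ((G a t : ℝ) : ℂ) * φ j (x - t)‖ ^ 2 := by
    rw [← hre, Complex.re_sum, hpdef, Finset.mul_sum, Finset.mul_sum, ← Finset.sum_sub_distrib]
    exact Finset.sum_le_sum fun j _ => square_bound _ _ τ
  have h2a : 0 ≤ 2 * a := by positivity
  have := mul_le_mul_of_nonneg_left hbd h2a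
  calc 2 * a * (2 * τ - τ ^ 2) * p - 2 * a ^ 2 * τ * ∫ t, exp (-(a * |t|)) * r t
      = 2 * a * ((2 * τ - τ ^ 2) * p - 2 * τ * (a / 2 * ∫ t, exp (-(a * |t|)) * r t)) := by ring
    _ ≤ _ := this

end LT
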