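import Mathlib

/-!
Finite dimensional spectral facts in coordinates.
-/

open scoped ComplexConjugate Matrix

namespace LT

/-- The pairing of a vector with a direction. -/
noncomputable def coef {m : ℕ} (e v : Fin m → ℂ) : ℂ := ∑ i, conj (e i) * v i

lemma coef_inner {m : ℕ} (e : EuclideanSpace ℂ (Fin m)) (v : Fin m → ℂ) :
    inner ℂ e (WithLp.toLp 2 v) = coef (WithLp.ofLp e) v := by
  rw [EuclideanSpace.inner_eq_star_dotProduct]
  simp only [coef, dotProduct, Pi.star_apply]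
  refine Finset.sum_congr rfl fun i _ => ?_
  rw [mul_comm]
  rfl

lemma parseval {m : ℕ} (b : OrthonormalBasis (Fin m) ℂ (EuclideanSpace ℂ (Fin m))) (v : Fin m → ℂ) :
    ∑ k, ‖coef (WithLp.ofLp (b k)) v‖ ^ 2 = ∑ i, ‖v i‖ ^ 2 := by
  have h := b.sum_sq_norm_inner_right (WithLp.toLp 2 v)
  simp_rw [coef_inner] at h
  rw [h, EuclideanSpace.norm_sq_eq]

lemma quad_form {m : ℕ} {A : Matrix (Fin m) (Fin m) ℂ} (hA : A.IsHermitian) (v : Fin m → ℂ) :
    (star v ⬝ᵥ (A *ᵥ v)).re =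
      ∑ k, hA.eigenvalues k * ‖coef (WithLp.ofLp (hA.eigenvectorBasis k)) v‖ ^ 2 := by
  set b := hA.eigenvectorBasis with hb
  have h := b.sum_inner_mul_inner (WithLp.toLp 2 v) (WithLp.toLp 2 (A *ᵥ v))
  have hl : inner ℂ (WithLp.toLp 2 v) (WithLp.toLp 2 (A *ᵥ v)) = star v ⬝ᵥ (A *ᵥ v) := by
    rw [EuclideanSpace.inner_toLp_toLp, dotProduct_comm]
  have h1 : ∀ k, inner ℂ (b k) (WithLp.toLp 2 (A *ᵥ v))
      = (hA.eigenvalues k : ℂ) * coef (WithLp.ofLp (b k)) v := by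
    intro k
    rw [coef_inner]
    have h2 : coef (WithLp.ofLp (b k)) (A *ᵥ v) = star (WithLp.ofLp (b k)) ⬝ᵥ (A *ᵥ v) := rfl
    rw [h2, Matrix.dotProduct_mulVec]
    have h3 : star (WithLp.ofLp (b k)) ᵥ* A = star (A *ᵥ WithLp.ofLp (b k)) := by
      rw [Matrix.star_mulVec, hA.eq]
    rw [h3]
    have h4 := hA.mulVec_eigenvectorBasis k
    have h5 : A *ᵥ WithLp.ofLp (b k) = hA.eigenvalues k • WithLp.ofLp (b k) := h4
    rw [h5]
    simp only [coef, dotProduct, Pi.star_apply, Pi.smul_apply, star_smul, Finset.mul_sum]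
    refine Finset.sum_congr rfl fun i _ => ?_
    simp only [star_trivial, Complex.real_smul]
    have h6 : star ((b k).ofLp i) = conj ((b k).ofLp i) := rfl
    rw [h6]
    ring
  have h2 : ∀ k, inner ℂ (WithLp.toLp 2 v) (b k) = conj (coef (WithLp.ofLp (b k)) v) := by
    intro k
    rw [← coef_inner, inner_conj_symm]
  simp_rw [h1, h2] at h
  rw [← hl, ← h, Complex.re_sum]
  refine Finset.sum_congr rfl fun k _ => ?_
  have h3 : conj (coef (WithLp.ofLp (b k)) v) * ((hA.eigenvalues k : ℂ) * coef (WithLp.ofLp (b k)) v)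
      = ((hA.eigenvalues k * ‖coef (WithLp.ofLp (b k)) v‖ ^ 2 : ℝ) : ℂ) := by
    push_cast
    rw [← Complex.mul_conj', ]
    ring
  rw [h3, Complex.ofReal_re]

end LT
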