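import Vale.Agent.helper5.LTPoint
import Vale.Agent.helper5.LTDefs
import Vale.Agent.helper5.LTSpec

/-!
Scalar `H¹` functions: measurability and the kinetic energy bound for complex functions.
-/

open MeasureTheory Set Real
open scoped ENNReal ComplexConjugate

namespace LT

lemma IsH1.intervalIntegrable {u u' : ℝ → ℂ} (h : IsH1 u u') (a b : ℝ) :
    IntervalIntegrable u' volume a b :=
  intervalIntegrable_iff.mpr
    (((h.memLp_deriv.locallyIntegrable (by norm_num)).integrableOn_isCompact isCompact_uIcc).mono_set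
      Set.uIoc_subset_uIcc)

lemma IsH1.continuous {u u' : ℝ → ℂ} (h : IsH1 u u') : Continuous u := by
  have h1 : Continuous fun y => ∫ t in (0:ℝ)..y, u' t :=
    intervalIntegral.continuous_primitive (fun a b => h.intervalIntegrable a b) 0
  have h2 : u = fun y => (∫ t in (0:ℝ)..y, u' t) + u 0 := by
    funext y
    rw [h.ftc]
    ring
  rw [h2]
  fun_prop

lemma IsH1.measurable {u u' : ℝ → ℂ} (h : IsH1 u u') : Measurable u :=
  h.continuous.measurable

lemma IsH1.sq {u u' : ℝ → ℂ} (h : IsH1 u u') : Integrable (fun y => ‖u y‖ ^ 2) :=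
  (memLp_two_iff_integrable_sq_norm h.memLp.1).1 h.memLp

lemma IsH1.sq' {u u' : ℝ → ℂ} (h : IsH1 u u') : Integrable (fun y => ‖u' y‖ ^ 2) :=
  (memLp_two_iff_integrable_sq_norm h.memLp_deriv.1).1 h.memLp_deriv

lemma sq_re_le (z : ℂ) : z.re ^ 2 ≤ ‖z‖ ^ 2 := by
  rw [← sq_abs z.re]
  exact pow_le_pow_left₀ (abs_nonneg _) (Complex.abs_re_le_norm z) 2

lemma sq_im_le (z : ℂ) : z.im ^ 2 ≤ ‖z‖ ^ 2 := by
  rw [← sq_abs z.im]
  exact pow_le_pow_left₀ (abs_nonneg _) (Complex.abs_im_le_norm z) 2

lemma norm_sq_eq_re_im (z : ℂ) : ‖z‖ ^ 2 = z.re ^ 2 + z.im ^ 2 := by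
  rw [Complex.sq_norm, Complex.normSq_apply]; ring

/-- The kinetic bound with a derivative that is only almost everywhere measurable. -/
theorem kinetic_ae {g f : ℝ → ℝ} (hgm : Measurable g) (hfm : AEStronglyMeasurable f volume)
    (hg2 : Integrable (fun x => g x ^ 2)) (hf2 : Integrable (fun x => f x ^ 2))
    (hftc : ∀ x y, ∫ t in x..y, f t = g y - g x) :
    ∫⁻ a in Ioi (0:ℝ), ∫⁻ x, ENNReal.ofReal (2 * a * V g a x ^ 2) ≤
      ENNReal.ofReal (∫ x, f x ^ 2) := by
  have hae : f =ᵐ[volume] hfm.mk f := hfm.ae_eq_mk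
  have hmk : Measurable (hfm.mk f) := hfm.stronglyMeasurable_mk.measurable
  have hsq : (fun x => hfm.mk f x ^ 2) =ᵐ[volume] fun x => f x ^ 2 := by
    filter_upwards [hae] with x hx
    rw [hx]
  have hf2' : Integrable (fun x => hfm.mk f x ^ 2) := hf2.congr hsq.symm
  have hftc' : ∀ x y, ∫ t in x..y, hfm.mk f t = g y - g x := by
    intro x y
    rw [← hftc x y]
    refine intervalIntegral.integral_congr_ae ?_
    filter_upwards [hae] with t ht _ using ht.symm
  have := kinetic_lintegral hgm hmk hg2 hf2' hftc'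
  rwa [integral_congr_ae hsq] at this

/-- Real and imaginary parts of the kinetic energy. -/
theorem kinetic_complex {u u' : ℝ → ℂ} (h : IsH1 u u') :
    ∫⁻ a in Ioi (0:ℝ), ∫⁻ x, ENNReal.ofReal
        (2 * a * (V (fun y => (u y).re) a x ^ 2 + V (fun y => (u y).im) a x ^ 2)) ≤
      ENNReal.ofReal (∫ x, ‖u' x‖ ^ 2) := by
  have hum := h.measurable
  have hu2 := h.sq
  have hd2 := h.sq'
  have hre : Measurable (fun y => (u y).re) := Complex.measurable_re.comp hum
  have him : Measurable (fun y => (u y).im) := Complex.measurable_im.comp hum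
  have hre2 : Integrable (fun y => (u y).re ^ 2) :=
    Integrable.mono' hu2 (hre.pow_const 2).aestronglyMeasurable (Filter.Eventually.of_forall fun y => by
      rw [Real.norm_eq_abs, abs_of_nonneg (sq_nonneg _)]; exact sq_re_le _)
  have him2 : Integrable (fun y => (u y).im ^ 2) :=
    Integrable.mono' hu2 (him.pow_const 2).aestronglyMeasurable (Filter.Eventually.of_forall fun y => by
      rw [Real.norm_eq_abs, abs_of_nonneg (sq_nonneg _)]; exact sq_im_le _)
  have hdm := h.memLp_deriv.1
  have hdre : AEStronglyMeasurable (fun y => (u' y).re) volume := hdm.re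
  have hdim : AEStronglyMeasurable (fun y => (u' y).im) volume := hdm.im
  have hdre2 : Integrable (fun y => (u' y).re ^ 2) :=
    Integrable.mono' hd2 (hdre.pow 2) (Filter.Eventually.of_forall fun y => by
      rw [Real.norm_eq_abs, abs_of_nonneg (sq_nonneg _)]; exact sq_re_le _)
  have hdim2 : Integrable (fun y => (u' y).im ^ 2) :=
    Integrable.mono' hd2 (hdim.pow 2) (Filter.Eventually.of_forall fun y => by
      rw [Real.norm_eq_abs, abs_of_nonneg (sq_nonneg _)]; exact sq_im_le _)
  have hftc1 : ∀ x y, ∫ t in x..y, (u' t).re = (u y).re - (u x).re := by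
    intro x y
    have h1 := intervalIntegral.intervalIntegral_eq_integral_uIoc (fun t => u' t) x y volume
    have h2 : ∫ t in x..y, (u' t).re = (∫ t in x..y, u' t).re := by
      have := Complex.reCLM.intervalIntegral_comp_comm (h.intervalIntegrable x y)
      simpa using this
    rw [h2, h.ftc, Complex.sub_re]
  have hftc2 : ∀ x y, ∫ t in x..y, (u' t).im = (u y).im - (u x).im := by
    intro x y
    have h2 : ∫ t in x..y, (u' t).im = (∫ t in x..y, u' t).im := by
      have := Complex.imCLM.intervalIntegral_comp_comm (h.intervalIntegrable x y)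
      simpa using this
    rw [h2, h.ftc, Complex.sub_im]
  have k1 := kinetic_ae hre hdre hre2 hdre2 hftc1
  have k2 := kinetic_ae him hdim him2 hdim2 hftc2
  have hval : ∫ x, ‖u' x‖ ^ 2 = (∫ x, (u' x).re ^ 2) + ∫ x, (u' x).im ^ 2 := by
    rw [← integral_add hdre2 hdim2]
    exact integral_congr_ae (Filter.Eventually.of_forall fun x => norm_sq_eq_re_im _)
  rw [hval, ENNReal.ofReal_add (integral_nonneg fun _ => sq_nonneg _)
    (integral_nonneg fun _ => sq_nonneg _)]
  refine le_trans (le_of_eq ?_) (add_le_add k1 k2)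
  have hVm1 := measurable_V hre
  have hVm2 := measurable_V him
  have hm1 : Measurable (fun a => ∫⁻ x, ENNReal.ofReal (2 * a * V (fun y => (u y).re) a x ^ 2)) := by
    refine Measurable.lintegral_prod_right' (f := fun (p : ℝ × ℝ) =>
      ENNReal.ofReal (2 * p.1 * V (fun y => (u y).re) p.1 p.2 ^ 2)) ?_
    exact ENNReal.measurable_ofReal.comp (by fun_prop)
  rw [← lintegral_add_left hm1]
  refine setLIntegral_congr_fun measurableSet_Ioi fun a ha => ?_
  have ha' : (0:ℝ) < a := ha
  have hm3 : Measurable (fun x => ENNReal.ofReal (2 * a * V (fun y => (u y).re) a x ^ 2)) := by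
    have : Measurable (fun x => V (fun y => (u y).re) a x) := hVm1.comp (measurable_const.prodMk measurable_id)
    exact ENNReal.measurable_ofReal.comp (by fun_prop)
  rw [← lintegral_add_left hm3]
  refine lintegral_congr fun x => ?_
  rw [← ENNReal.ofReal_add (by positivity) (by positivity)]
  congr 1
  ring

lemma norm_conv {u u' : ℝ → ℂ} (h : IsH1 u u') {a : ℝ} (ha : 0 < a) (x : ℝ) :
    ‖u x - ∫ t, ((G a t : ℝ) : ℂ) * u (x - t)‖ ^ 2
      = V (fun y => (u y).re) a x ^ 2 + V (fun y => (u y).im) a x ^ 2 := by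
  have hint := integrable_G_shift_complex h.measurable h.sq ha x
  have h1 : (∫ t, ((G a t : ℝ) : ℂ) * u (x - t)).re = ∫ t, G a t * (u (x - t)).re := by
    have h2 := integral_re hint
    have h3 : (∫ t, ((G a t : ℝ) : ℂ) * u (x - t)).re
        = RCLike.re (∫ t, ((G a t : ℝ) : ℂ) * u (x - t)) := rfl
    rw [h3, ← h2]
    refine integral_congr_ae (Filter.Eventually.of_forall fun t => ?_)
    simp only [RCLike.re_to_complex, Complex.re_ofReal_mul]
  have h2 : (∫ t, ((G a t : ℝ) : ℂ) * u (x - t)).im = ∫ t, G a t * (u (x - t)).im := by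
    have h2 := integral_im hint
    have h3 : (∫ t, ((G a t : ℝ) : ℂ) * u (x - t)).im
        = RCLike.im (∫ t, ((G a t : ℝ) : ℂ) * u (x - t)) := rfl
    rw [h3, ← h2]
    refine integral_congr_ae (Filter.Eventually.of_forall fun t => ?_)
    simp only [RCLike.im_to_complex, Complex.im_ofReal_mul]
  rw [norm_sq_eq_re_im, Complex.sub_re, Complex.sub_im, h1, h2]
  rfl

end LT
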