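import Vale.Agent.helper5.LTKernel

/-!
The kinetic energy controls the resolvent high-pass energies.
-/

open MeasureTheory Set Real
open scoped ENNReal

namespace LT

/-- The function `2 a H a z`, written without division. -/
noncomputable def J (a z : ℝ) : ℝ := exp (-(a * |z|)) * (1 - a * |z|) / 2

lemma two_mul_H {a : ℝ} (ha : 0 < a) (z : ℝ) : 2 * a * H a z = J a z := by
  unfold H J
  field_simp
  ring

lemma hasDerivAt_G (a z : ℝ) : HasDerivAt (fun a => G a z) (J a z) a := by
  unfold G J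
  have h1 : HasDerivAt (fun a : ℝ => a / 2) (1 / 2) a := by
    simpa using (hasDerivAt_id a).div_const 2
  have h2 : HasDerivAt (fun a : ℝ => exp (-(a * |z|))) (exp (-(a * |z|)) * (-(1 * |z|))) a :=
    (((hasDerivAt_id a).mul_const |z|).neg).exp
  have h3 : HasDerivAt (fun a : ℝ => a / 2 * exp (-(a * |z|))) _ a := h1.mul h2
  exact h3.congr_deriv (by ring)

lemma continuous_J_a (z : ℝ) : Continuous (fun a => J a z) := by
  unfold J; fun_prop

lemma measurable_J : Measurable (fun p : ℝ × ℝ => J p.1 p.2) := by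
  unfold J; fun_prop

lemma integral_J {ε A : ℝ} (h : ε ≤ A) (z : ℝ) :
    ∫ a in Ioc ε A, J a z = G A z - G ε z := by
  rw [← intervalIntegral.integral_of_le h]
  exact intervalIntegral.integral_eq_sub_of_hasDerivAt (fun a _ => hasDerivAt_G a z)
    ((continuous_J_a z).intervalIntegrable _ _)

lemma integrableOn_pow_exp (n : ℕ) {b : ℝ} (hb : 0 < b) :
    IntegrableOn (fun t => t ^ n * exp (-(b * t))) (Ioi 0) := by
  have h := Real.integral_rpow_mul_exp_neg_mul_Ioi (a := (n:ℝ) + 1) (r := b) (by positivity) hb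
  by_contra hcon
  have h2 : IntegrableOn (fun t : ℝ => t ^ ((n:ℝ) + 1 - 1) * exp (-(b * t))) (Ioi 0) → False := by
    intro h3
    refine hcon (h3.congr_fun (fun t ht => ?_) measurableSet_Ioi)
    simp only [add_sub_cancel_right, rpow_natCast]
  have h3 : ∫ t in Ioi (0:ℝ), t ^ ((n:ℝ) + 1 - 1) * exp (-(b * t)) = 0 := integral_undef h2
  rw [h3] at h
  have : (0:ℝ) < (1 / b) ^ ((n:ℝ) + 1) * Gamma ((n:ℝ) + 1) := by
    have := Real.Gamma_pos_of_pos (show (0:ℝ) < (n:ℝ) + 1 by positivity)
    positivity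
  linarith

lemma integral_pow_exp (n : ℕ) {b : ℝ} (hb : 0 < b) :
    ∫ t in Ioi (0:ℝ), t ^ n * exp (-(b * t)) = (n.factorial : ℝ) / b ^ (n + 1) := by
  have h := Real.integral_rpow_mul_exp_neg_mul_Ioi (a := (n:ℝ) + 1) (r := b) (by positivity) hb
  have h2 : ∫ t in Ioi (0:ℝ), t ^ ((n:ℝ) + 1 - 1) * exp (-(b * t))
      = ∫ t in Ioi (0:ℝ), t ^ n * exp (-(b * t)) := by
    refine setIntegral_congr_fun measurableSet_Ioi fun t _ => ?_
    simp only [add_sub_cancel_right, rpow_natCast]
  rw [← h2, h, Real.Gamma_nat_eq_factorial]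
  have : (1 / b) ^ ((n:ℝ) + 1) = (1 / b) ^ (n + 1) := by
    rw [← Nat.cast_succ, rpow_natCast]
  rw [this, one_div, inv_pow]
  field_simp

/-- Integrability of the dominating function. -/
lemma integrable_dom {ε : ℝ} (hε : 0 < ε) (A : ℝ) :
    Integrable (fun z => exp (-(ε * |z|)) * (1 + A * |z|) / 2) := by
  have h0 : IntegrableOn (fun t => exp (-(ε * t)) * (1 + A * t) / 2) (Ioi 0) := by
    have h1 := integrableOn_exp_mul hε
    have h2 := (integrableOn_pow_exp 1 hε)
    have h3 : IntegrableOn (fun t => (exp (-(ε * t)) + A * (t ^ 1 * exp (-(ε * t)))) / 2) (Ioi 0) :=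
      (h1.add (h2.const_mul A)).div_const 2
    refine h3.congr_fun (fun t _ => ?_) measurableSet_Ioi
    simp only [pow_one]
    ring
  exact integrable_comp_abs' h0

lemma abs_J_le {ε A a : ℝ} (hε : 0 < ε) (h1 : ε < a) (h2 : a ≤ A) (z : ℝ) :
    |J a z| ≤ exp (-(ε * |z|)) * (1 + A * |z|) / 2 := by
  unfold J
  have hz := abs_nonneg z
  have ha : 0 < a := hε.trans h1
  have h3 : exp (-(a * |z|)) ≤ exp (-(ε * |z|)) := by
    apply exp_le_exp.mpr
    nlinarith
  have h4 : abs (1 - a * |z|) ≤ 1 + A * |z| := by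
    rw [abs_le]
    constructor <;> nlinarith [mul_nonneg ha.le hz, mul_le_mul_of_nonneg_right h2 hz]
  rw [abs_div, abs_mul, abs_of_pos (exp_pos _), abs_of_pos (by norm_num : (0:ℝ) < 2)]
  have h5 : 0 ≤ 1 + A * |z| := (abs_nonneg _).trans h4
  gcongr

section step

variable {f : ℝ → ℝ}

lemma integrable_J_corr (hfm : Measurable f) (hf : Integrable (fun x => f x ^ 2))
    {ε A : ℝ} (hε : 0 < ε) :
    Integrable (fun p : ℝ × ℝ => J p.1 p.2 * corr f p.2)
      ((volume.restrict (Ioc ε A)).prod volume) := by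
  have hdom : Integrable (fun p : ℝ × ℝ => (∫ x, f x ^ 2) * (exp (-(ε * |p.2|)) * (1 + A * |p.2|) / 2))
      ((volume.restrict (Ioc ε A)).prod volume) :=
    ((integrable_dom hε A).const_mul _).comp_snd _
  refine Integrable.mono' hdom ?_ ?_
  · have hc := measurable_corr hfm
    exact (measurable_J.mul (hc.comp measurable_snd)).aestronglyMeasurable
  · have hrestr : (volume.restrict (Ioc ε A)).prod (volume : Measure ℝ)
        = ((volume : Measure ℝ).prod volume).restrict (Ioc ε A ×ˢ univ) := by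
      rw [← Measure.prod_restrict, Measure.restrict_univ]
    rw [hrestr]
    filter_upwards [ae_restrict_mem (measurableSet_Ioc.prod MeasurableSet.univ)] with p hp
    have h1 := abs_J_le hε hp.1.1 hp.1.2 p.2
    have h2 := abs_corr_le hfm hf p.2
    rw [Real.norm_eq_abs, abs_mul]
    have h3 : 0 ≤ ∫ x, f x ^ 2 := integral_nonneg fun _ => sq_nonneg _
    calc |J p.1 p.2| * |corr f p.2| ≤ (exp (-(ε * |p.2|)) * (1 + A * |p.2|) / 2) * (∫ x, f x ^ 2) :=
          mul_le_mul h1 h2 (abs_nonneg _) ((abs_nonneg _).trans h1)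
      _ = _ := by ring

lemma integrable_G_corr (hfm : Measurable f) (hf : Integrable (fun x => f x ^ 2))
    {a : ℝ} (ha : 0 < a) : Integrable (fun z => G a z * corr f z) := by
  refine Integrable.mono' ((integrable_G ha).mul_const (∫ x, f x ^ 2)) ?_ ?_
  · have hc := measurable_corr hfm
    exact ((measurable_G a).mul hc).aestronglyMeasurable
  · refine Filter.Eventually.of_forall fun z => ?_
    rw [Real.norm_eq_abs, abs_mul, abs_of_nonneg (G_nonneg ha z)]
    exact mul_le_mul_of_nonneg_left (abs_corr_le hfm hf z) (G_nonneg ha z)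

lemma integral_G_corr_le (hfm : Measurable f) (hf : Integrable (fun x => f x ^ 2))
    {a : ℝ} (ha : 0 < a) : ∫ z, G a z * corr f z ≤ ∫ x, f x ^ 2 := by
  have h1 : ∫ z, G a z * corr f z ≤ ∫ z, G a z * (∫ x, f x ^ 2) := by
    refine integral_mono (integrable_G_corr hfm hf ha) ((integrable_G ha).mul_const _) fun z => ?_
    exact mul_le_mul_of_nonneg_left ((le_abs_self _).trans (abs_corr_le hfm hf z)) (G_nonneg ha z)
  rwa [integral_mul_const, integral_G ha, one_mul] at h1

lemma integral_G_corr_nonneg (hfm : Measurable f) (hf : Integrable (fun x => f x ^ 2))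
    {a : ℝ} (ha : 0 < a) : 0 ≤ ∫ z, G a z * corr f z := by
  have h1 := (energy (measurable_E a) hfm (integrable_E ha) (integrable_E_sq ha) hf).2
  have h2 : ∫ z, G a z * corr f z = a ^ 2 * ∫ z, auto (E a) z * corr f z := by
    rw [← integral_const_mul]
    refine integral_congr_ae (Filter.Eventually.of_forall fun z => ?_)
    simp only
    rw [auto_E ha, G]
    field_simp
  rw [h2, ← h1]
  positivity

/-- For `a > 0` the scaled energy of `S a * f` is an integral in `z`. -/
lemma two_mul_energy_S (hfm : Measurable f) (hf : Integrable (fun x => f x ^ 2))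
    {a : ℝ} (ha : 0 < a) :
    2 * a * ∫ x, kconv (S a) f x ^ 2 = ∫ z, J a z * corr f z := by
  have h1 := (energy (measurable_S a) hfm (integrable_S ha) (integrable_S_sq ha) hf).2
  rw [h1, ← integral_const_mul]
  refine integral_congr_ae (Filter.Eventually.of_forall fun z => ?_)
  simp only
  rw [auto_S ha, ← two_mul_H ha]
  ring

theorem step1_trunc (hfm : Measurable f) (hf : Integrable (fun x => f x ^ 2))
    {ε A : ℝ} (hε : 0 < ε) (hA : ε ≤ A) :
    IntegrableOn (fun a => 2 * a * ∫ x, kconv (S a) f x ^ 2) (Ioc ε A) ∧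
      ∫ a in Ioc ε A, 2 * a * ∫ x, kconv (S a) f x ^ 2 ≤ ∫ x, f x ^ 2 := by
  have hint := integrable_J_corr hfm hf (A := A) hε
  have hcongr : ∀ a ∈ Ioc ε A, ∫ z, J a z * corr f z = 2 * a * ∫ x, kconv (S a) f x ^ 2 :=
    fun a ha => (two_mul_energy_S hfm hf (hε.trans ha.1)).symm
  constructor
  · have := hint.integral_prod_left
    exact IntegrableOn.congr_fun this hcongr measurableSet_Ioc
  · have h1 : ∫ a in Ioc ε A, 2 * a * ∫ x, kconv (S a) f x ^ 2
        = ∫ a in Ioc ε A, ∫ z, J a z * corr f z :=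
      (setIntegral_congr_fun measurableSet_Ioc hcongr).symm
    have h2 : ∫ a in Ioc ε A, ∫ z, J a z * corr f z = ∫ z, ∫ a in Ioc ε A, J a z * corr f z :=
      integral_integral_swap (f := fun a z => J a z * corr f z) hint
    have h3 : ∀ z, ∫ a in Ioc ε A, J a z * corr f z = (G A z - G ε z) * corr f z := by
      intro z
      rw [integral_mul_const, integral_J hA]
    simp_rw [h3] at h2
    have hAp : 0 < A := lt_of_lt_of_le hε hA
    have h4 : ∫ z, (G A z - G ε z) * corr f z = (∫ z, G A z * corr f z) - ∫ z, G ε z * corr f z := by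
      simp_rw [sub_mul]
      exact integral_sub (integrable_G_corr hfm hf hAp) (integrable_G_corr hfm hf hε)
    rw [h1, h2, h4]
    linarith [integral_G_corr_le hfm hf hAp, integral_G_corr_nonneg hfm hf hε]

end step

end LT
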